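import Vale.Agent.Lib.P028G.Defs

/-! A class of amplitudes, stable under products. -/

open scoped BigOperators
open Finset

namespace Vale.Agent.Lib.P028G

/-- Amplitudes bounded by one, Lipschitz, with bounded second variation on `range X`. -/
structure Amp (X : ℕ) (l v : ℝ) (g : ℕ → ℝ) : Prop where
  bd : ∀ t, |g t| ≤ 1
  lip : ∀ t, |g (t + 1) - g t| ≤ l
  var : ∑ t ∈ range X, |g (t + 2) - 2 * g (t + 1) + g t| ≤ v

theorem abs_mul_le_of_le {x y a b : ℝ} (hx : |x| ≤ a) (hy : |y| ≤ b) : |x * y| ≤ a * b := by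
  rw [abs_mul]
  exact mul_le_mul hx hy (abs_nonneg y) (le_trans (abs_nonneg x) hx)

/-- Product rule. The identity behind it:
`g₂h₂ - 2g₁h₁ + g₀h₀ = g₁(h₂-2h₁+h₀) + h₁(g₂-2g₁+g₀) + (g₂-g₁)(h₂-h₁) + (g₁-g₀)(h₁-h₀)`. -/
theorem Amp.mul {X : ℕ} {l v l' v' : ℝ} {g h : ℕ → ℝ} (hg : Amp X l v g) (hh : Amp X l' v' h) :
    Amp X (l + l') (v + v' + 2 * X * (l * l')) (fun t => g t * h t) := by
  refine ⟨fun t => ?_, fun t => ?_, ?_⟩
  · have := abs_mul_le_of_le (hg.bd t) (hh.bd t)
    simpa using this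
  · have e : g (t + 1) * h (t + 1) - g t * h t =
        (g (t + 1) - g t) * h (t + 1) + g t * (h (t + 1) - h t) := by ring
    rw [e]
    refine (abs_add_le _ _).trans ?_
    have h1 := abs_mul_le_of_le (hg.lip t) (hh.bd (t + 1))
    have h2 := abs_mul_le_of_le (hg.bd t) (hh.lip t)
    linarith
  · have hterm : ∀ t ∈ range X,
        |g (t + 2) * h (t + 2) - 2 * (g (t + 1) * h (t + 1)) + g t * h t| ≤
          |h (t + 2) - 2 * h (t + 1) + h t| + |g (t + 2) - 2 * g (t + 1) + g t| + 2 * (l * l') := by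
      intro t _
      have e : g (t + 2) * h (t + 2) - 2 * (g (t + 1) * h (t + 1)) + g t * h t =
          g (t + 1) * (h (t + 2) - 2 * h (t + 1) + h t) +
            h (t + 1) * (g (t + 2) - 2 * g (t + 1) + g t) +
            (g (t + 2) - g (t + 1)) * (h (t + 2) - h (t + 1)) +
            (g (t + 1) - g t) * (h (t + 1) - h t) := by ring
      rw [e]
      have h1 := abs_mul_le_of_le (hg.bd (t + 1)) (le_refl |h (t + 2) - 2 * h (t + 1) + h t|)
      have h2 := abs_mul_le_of_le (hh.bd (t + 1)) (le_refl |g (t + 2) - 2 * g (t + 1) + g t|)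
      have h3 := abs_mul_le_of_le (hg.lip (t + 1)) (hh.lip (t + 1))
      have h4 := abs_mul_le_of_le (hg.lip t) (hh.lip t)
      have t1 := abs_add_le (g (t + 1) * (h (t + 2) - 2 * h (t + 1) + h t) +
          h (t + 1) * (g (t + 2) - 2 * g (t + 1) + g t) +
          (g (t + 2) - g (t + 1)) * (h (t + 2) - h (t + 1)))
        ((g (t + 1) - g t) * (h (t + 1) - h t))
      have t2 := abs_add_le (g (t + 1) * (h (t + 2) - 2 * h (t + 1) + h t) +
          h (t + 1) * (g (t + 2) - 2 * g (t + 1) + g t))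
        ((g (t + 2) - g (t + 1)) * (h (t + 2) - h (t + 1)))
      have t3 := abs_add_le (g (t + 1) * (h (t + 2) - 2 * h (t + 1) + h t))
        (h (t + 1) * (g (t + 2) - 2 * g (t + 1) + g t))
      linarith
    have hsum := Finset.sum_le_sum hterm
    rw [Finset.sum_add_distrib, Finset.sum_add_distrib, Finset.sum_const, Finset.card_range,
      nsmul_eq_mul] at hsum
    have hv := hg.var
    have hv' := hh.var
    have e2 : (X : ℝ) * (2 * (l * l')) = 2 * X * (l * l') := by ring
    linarith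

/-- Convex sequences: the second variation telescopes. -/
theorem second_sum_of_convex (g : ℕ → ℝ) (X : ℕ) (m β : ℝ)
    (hconv : ∀ t, 0 ≤ g (t + 2) - 2 * g (t + 1) + g t)
    (hd : ∀ t, m ≤ g (t + 1) - g t ∧ g (t + 1) - g t ≤ m + β) :
    ∑ t ∈ range X, |g (t + 2) - 2 * g (t + 1) + g t| ≤ β := by
  have e : ∀ t ∈ range X, |g (t + 2) - 2 * g (t + 1) + g t| =
      (g (t + 1 + 1) - g (t + 1)) - (g (t + 1) - g t) := by
    intro t _
    rw [abs_of_nonneg (hconv t)]
    ring_nf
  rw [Finset.sum_congr rfl e]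
  have := Finset.sum_range_sub (fun t => g (t + 1) - g t) X
  rw [this]
  have h1 := (hd X).2
  have h2 := (hd 0).1
  simp only [zero_add] at h2 ⊢
  linarith

/-- A tent on the natural numbers is convex there with slopes in `[-β, 0]`. -/
theorem amp_tent (X : ℕ) {β : ℝ} (hβ : 0 ≤ β) : Amp X β β (fun t => max 0 (1 - β * t)) := by
  have hval : ∀ t : ℕ, 0 ≤ max 0 (1 - β * (t : ℝ)) ∧ max 0 (1 - β * (t : ℝ)) ≤ 1 := by
    intro t
    refine ⟨le_max_left _ _, max_le zero_le_one ?_⟩
    have : 0 ≤ β * (t : ℝ) := by positivity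
    linarith
  have hslope : ∀ t : ℕ, -β ≤ max 0 (1 - β * ((t + 1 : ℕ) : ℝ)) - max 0 (1 - β * (t : ℝ)) ∧
      max 0 (1 - β * ((t + 1 : ℕ) : ℝ)) - max 0 (1 - β * (t : ℝ)) ≤ 0 := by
    intro t
    push_cast
    set u := 1 - β * (t : ℝ) with hu
    have e : 1 - β * ((t : ℝ) + 1) = u - β := by rw [hu]; ring
    rw [e]
    constructor
    · rcases le_total u 0 with h | h
      · rw [max_eq_left h]
        have := le_max_left 0 (u - β)
        linarith
      · rw [max_eq_right h]
        have := le_max_right 0 (u - β)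
        linarith
    · have h1 : max 0 (u - β) ≤ max 0 u := max_le_max le_rfl (by linarith)
      linarith
  have hconv : ∀ t : ℕ, 0 ≤ max 0 (1 - β * ((t + 2 : ℕ) : ℝ)) -
      2 * max 0 (1 - β * ((t + 1 : ℕ) : ℝ)) + max 0 (1 - β * (t : ℝ)) := by
    intro t
    push_cast
    set u := 1 - β * ((t : ℝ) + 1) with hu
    have e1 : 1 - β * ((t : ℝ) + 2) = u - β := by rw [hu]; ring
    have e2 : 1 - β * (t : ℝ) = u + β := by rw [hu]; ring
    rw [e1, e2]
    rcases le_total u 0 with h | h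
    · rw [max_eq_left h]
      have h1 := le_max_left 0 (u - β)
      have h2 := le_max_left 0 (u + β)
      linarith
    · rw [max_eq_right h]
      have h1 := le_max_right 0 (u - β)
      have h2 := le_max_right 0 (u + β)
      linarith
  refine ⟨fun t => ?_, fun t => ?_, ?_⟩
  · obtain ⟨h0, h1⟩ := hval t
    rw [abs_of_nonneg h0]
    exact h1
  · obtain ⟨h0, h1⟩ := hslope t
    rw [abs_le]
    constructor <;> linarith
  · exact second_sum_of_convex (fun t : ℕ => max 0 (1 - β * (t : ℝ))) X (-β) β hconv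
      (fun t => ⟨(hslope t).1, by have := (hslope t).2; linarith⟩)

/-- The value of the trapezoid along the progression. -/
def WW (u : ℝ) : ℝ := hinge u - hinge (u - 1) - hinge (u - 2) + hinge (u - 3)

theorem WW_bd {u : ℝ} (hu : 0 ≤ u) : |WW u| ≤ 1 := by
  unfold WW hinge
  rcases le_total u 1 with h1 | h1 <;> rcases le_total u 2 with h2 | h2 <;>
    rcases le_total u 3 with h3 | h3 <;>
    simp only [max_eq_left, max_eq_right, sub_nonneg, sub_nonpos, h1, h2, h3, hu] <;>
    rw [abs_le] <;> constructor <;> linarith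

theorem hinge_add_sub (u b : ℝ) (hb : 0 ≤ b) :
    0 ≤ hinge (u + b) - hinge u ∧ hinge (u + b) - hinge u ≤ b := by
  unfold hinge
  constructor
  · have : max u 0 ≤ max (u + b) 0 := max_le_max (by linarith) le_rfl
    linarith
  · have : max (u + b) 0 ≤ max u 0 + b := by
      apply max_le
      · have := le_max_left u 0; linarith
      · have := le_max_right u 0; linarith
    linarith

theorem hinge_conv (u b : ℝ) (hb : 0 ≤ b) :
    0 ≤ hinge (u + b) - 2 * hinge u + hinge (u - b) := by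
  unfold hinge
  rcases le_total u 0 with h | h
  · rw [max_eq_right h]
    have h1 := le_max_right (u + b) 0
    have h2 := le_max_right (u - b) 0
    linarith
  · rw [max_eq_left h]
    have h1 := le_max_left (u + b) 0
    have h2 := le_max_left (u - b) 0
    linarith

theorem hinge_mono_slope (u b c : ℝ) (_hb : 0 ≤ b) (hc : 0 ≤ c) :
    hinge (u - c + b) - hinge (u - c) ≤ hinge (u + b) - hinge u := by
  unfold hinge
  rcases le_total (u - c + b) 0 with h1 | h1 <;> rcases le_total (u - c) 0 with h2 | h2 <;>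
    rcases le_total (u + b) 0 with h3 | h3 <;> rcases le_total u 0 with h4 | h4 <;>
    simp only [max_eq_left, max_eq_right, h1, h2, h3, h4] <;> linarith

theorem WW_lip {u b : ℝ} (hu : 0 ≤ u) (hb : 0 ≤ b) : |WW (u + b) - WW u| ≤ b := by
  have h0 : hinge (u + b) - hinge u = b := by
    unfold hinge
    rw [max_eq_left hu, max_eq_left (by linarith)]
    ring
  have d1 := hinge_add_sub (u - 1) b hb
  have d2 := hinge_add_sub (u - 2) b hb
  have d3 := hinge_add_sub (u - 3) b hb
  have m1 := hinge_mono_slope (u - 2) b 1 hb zero_le_one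
  have e1 : u + b - 1 = u - 1 + b := by ring
  have e2 : u + b - 2 = u - 2 + b := by ring
  have e3 : u + b - 3 = u - 3 + b := by ring
  have e4 : u - 2 - 1 = u - 3 := by ring
  rw [e4] at m1
  unfold WW
  rw [e1, e2, e3, abs_le]
  constructor <;> linarith [d1.1, d1.2, d2.1, d2.2, d3.1, d3.2]

/-- Second variation of one hinge along an arithmetic progression. -/
theorem hinge_second (X : ℕ) {l : ℝ} (hl : 0 ≤ l) (c : ℝ) :
    (∀ t : ℕ, 0 ≤ hinge (l * ((t + 2 : ℕ) : ℝ) - c) - 2 * hinge (l * ((t + 1 : ℕ) : ℝ) - c) +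
        hinge (l * (t : ℝ) - c)) ∧
      ∑ t ∈ range X, |hinge (l * ((t + 2 : ℕ) : ℝ) - c) - 2 * hinge (l * ((t + 1 : ℕ) : ℝ) - c) +
        hinge (l * (t : ℝ) - c)| ≤ l := by
  have hconv : ∀ t : ℕ, 0 ≤ hinge (l * ((t + 2 : ℕ) : ℝ) - c) -
      2 * hinge (l * ((t + 1 : ℕ) : ℝ) - c) + hinge (l * (t : ℝ) - c) := by
    intro t
    have h := hinge_conv (l * ((t + 1 : ℕ) : ℝ) - c) l hl
    have e1 : l * ((t + 1 : ℕ) : ℝ) - c + l = l * ((t + 2 : ℕ) : ℝ) - c := by push_cast; ring
    have e2 : l * ((t + 1 : ℕ) : ℝ) - c - l = l * (t : ℝ) - c := by push_cast; ring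
    rw [e1, e2] at h
    exact h
  refine ⟨hconv, ?_⟩
  have := second_sum_of_convex (fun t : ℕ => hinge (l * (t : ℝ) - c)) X 0 l hconv (fun t => ?_)
  · exact this
  · have h := hinge_add_sub (l * (t : ℝ) - c) l hl
    have e : l * (t : ℝ) - c + l = l * ((t + 1 : ℕ) : ℝ) - c := by push_cast; ring
    rw [e] at h
    constructor
    · exact h.1
    · linarith [h.2]

/-- The trapezoid weight along an arithmetic progression. -/
theorem amp_wt (X : ℕ) {l : ℝ} (hl : 0 ≤ l) :
    Amp X l (3 * l) (fun t => hinge (l * t) - hinge (l * t - 1) - hinge (l * t - 2) + hinge (l * t - 3)) := by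
  refine ⟨fun t => ?_, fun t => ?_, ?_⟩
  · have : 0 ≤ l * (t : ℝ) := by positivity
    exact WW_bd this
  · have h0 : 0 ≤ l * (t : ℝ) := by positivity
    have := WW_lip h0 hl
    have e : l * ((t + 1 : ℕ) : ℝ) = l * (t : ℝ) + l := by push_cast; ring
    rw [e]
    exact this
  · have h1 := hinge_second X hl 1
    have h2 := hinge_second X hl 2
    have h3 := hinge_second X hl 3
    have hterm : ∀ t ∈ range X,
        |(hinge (l * ((t + 2 : ℕ) : ℝ)) - hinge (l * ((t + 2 : ℕ) : ℝ) - 1) -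
            hinge (l * ((t + 2 : ℕ) : ℝ) - 2) + hinge (l * ((t + 2 : ℕ) : ℝ) - 3)) -
          2 * (hinge (l * ((t + 1 : ℕ) : ℝ)) - hinge (l * ((t + 1 : ℕ) : ℝ) - 1) -
            hinge (l * ((t + 1 : ℕ) : ℝ) - 2) + hinge (l * ((t + 1 : ℕ) : ℝ) - 3)) +
          (hinge (l * (t : ℝ)) - hinge (l * (t : ℝ) - 1) - hinge (l * (t : ℝ) - 2) +
            hinge (l * (t : ℝ) - 3))| ≤
        |hinge (l * ((t + 2 : ℕ) : ℝ) - 1) - 2 * hinge (l * ((t + 1 : ℕ) : ℝ) - 1) +
            hinge (l * (t : ℝ) - 1)| +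
          |hinge (l * ((t + 2 : ℕ) : ℝ) - 2) - 2 * hinge (l * ((t + 1 : ℕ) : ℝ) - 2) +
            hinge (l * (t : ℝ) - 2)| +
          |hinge (l * ((t + 2 : ℕ) : ℝ) - 3) - 2 * hinge (l * ((t + 1 : ℕ) : ℝ) - 3) +
            hinge (l * (t : ℝ) - 3)| := by
      intro t _
      have hlin : hinge (l * ((t + 2 : ℕ) : ℝ)) - 2 * hinge (l * ((t + 1 : ℕ) : ℝ)) +
          hinge (l * (t : ℝ)) = 0 := by
        have a0 : 0 ≤ l * (t : ℝ) := by positivity
        have a1 : 0 ≤ l * ((t + 1 : ℕ) : ℝ) := by positivity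
        have a2 : 0 ≤ l * ((t + 2 : ℕ) : ℝ) := by positivity
        unfold hinge
        rw [max_eq_left a0, max_eq_left a1, max_eq_left a2]
        push_cast
        ring
      set A := hinge (l * ((t + 2 : ℕ) : ℝ) - 1) - 2 * hinge (l * ((t + 1 : ℕ) : ℝ) - 1) +
            hinge (l * (t : ℝ) - 1) with hA
      set B := hinge (l * ((t + 2 : ℕ) : ℝ) - 2) - 2 * hinge (l * ((t + 1 : ℕ) : ℝ) - 2) +
            hinge (l * (t : ℝ) - 2) with hB
      set C := hinge (l * ((t + 2 : ℕ) : ℝ) - 3) - 2 * hinge (l * ((t + 1 : ℕ) : ℝ) - 3) +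
            hinge (l * (t : ℝ) - 3) with hC
      have e : (hinge (l * ((t + 2 : ℕ) : ℝ)) - hinge (l * ((t + 2 : ℕ) : ℝ) - 1) -
            hinge (l * ((t + 2 : ℕ) : ℝ) - 2) + hinge (l * ((t + 2 : ℕ) : ℝ) - 3)) -
          2 * (hinge (l * ((t + 1 : ℕ) : ℝ)) - hinge (l * ((t + 1 : ℕ) : ℝ) - 1) -
            hinge (l * ((t + 1 : ℕ) : ℝ) - 2) + hinge (l * ((t + 1 : ℕ) : ℝ) - 3)) +
          (hinge (l * (t : ℝ)) - hinge (l * (t : ℝ) - 1) - hinge (l * (t : ℝ) - 2) +
            hinge (l * (t : ℝ) - 3)) = -A - B + C := by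
        rw [hA, hB, hC]
        linarith [hlin]
      rw [e]
      have t1 : |-A - B + C| ≤ |A| + |B| + |C| := by
        have x1 := abs_add_le (-A - B) C
        have x2 := abs_sub (-A) B
        rw [abs_neg] at x2
        linarith
      exact t1
    have hsum := Finset.sum_le_sum hterm
    rw [Finset.sum_add_distrib, Finset.sum_add_distrib] at hsum
    have := h1.2
    have := h2.2
    have := h3.2
    linarith

end Vale.Agent.Lib.P028G
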