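import Vale.Agent.Lib.P028G.Second
import Vale.Agent.Lib.P028G.AmpClass

/-! Bounds for the Gram matrix. -/

open scoped BigOperators ComplexConjugate Real
open Finset

namespace Vale.Agent.Lib.P028G

/-- The Gram entry as an exponential sum along multiples of `ell ρ ρ'`. -/
theorem gram_eq_sum (γ K : ℝ) (hK : 0 < K) (Q : ℕ) (hQ : 0 < Q) (ρ ρ' : ℚ) :
    gram γ K Q ρ ρ' = ∑ t ∈ range (3 * Q / ell ρ ρ' + 1),
      ((wt Q ((ell ρ ρ' * t : ℕ) : ℝ) * (tn K ((ρ : ℝ) * ((ell ρ ρ' * t : ℕ) : ℝ)) *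
        tn K ((ρ' : ℝ) * ((ell ρ ρ' * t : ℕ) : ℝ))) : ℝ) : ℂ) * ee ((t : ℝ) * ((nn ρ ρ' : ℝ) * γ)) := by
  classical
  have hℓ : 0 < ell ρ ρ' := ell_pos ρ ρ'
  have hd1 : ρ.den ∣ ell ρ ρ' := Nat.dvd_lcm_left _ _
  have hd2 : ρ'.den ∣ ell ρ ρ' := Nat.dvd_lcm_right _ _
  unfold gram
  -- terms off the multiples of `ell` vanish
  have hsub : (range (3 * Q / ell ρ ρ' + 1)).image (fun t => ell ρ ρ' * t) ⊆ range (3 * Q + 1) := by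
    intro q hq
    obtain ⟨t, ht, rfl⟩ := Finset.mem_image.1 hq
    have ht' : t ≤ 3 * Q / ell ρ ρ' := Nat.lt_succ_iff.1 (Finset.mem_range.1 ht)
    have : ell ρ ρ' * t ≤ 3 * Q := by
      calc ell ρ ρ' * t ≤ ell ρ ρ' * (3 * Q / ell ρ ρ') := Nat.mul_le_mul_left _ ht'
        _ ≤ 3 * Q := Nat.mul_div_le _ _
    exact Finset.mem_range.2 (Nat.lt_succ_of_le this)
  have hvan : ∀ q ∈ range (3 * Q + 1), q ∉ (range (3 * Q / ell ρ ρ' + 1)).image (fun t => ell ρ ρ' * t) →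
      ((wt Q q : ℝ) : ℂ) * (vec γ K ρ q * conj (vec γ K ρ' q)) = 0 := by
    intro q hq hq'
    by_cases h1 : ρ.den ∣ q
    · by_cases h2 : ρ'.den ∣ q
      · exfalso
        apply hq'
        have hdiv : ell ρ ρ' ∣ q := Nat.lcm_dvd h1 h2
        obtain ⟨t, rfl⟩ := hdiv
        refine Finset.mem_image.2 ⟨t, ?_, rfl⟩
        have hle : ell ρ ρ' * t ≤ 3 * Q := Nat.lt_succ_iff.1 (Finset.mem_range.1 hq)
        have : t ≤ 3 * Q / ell ρ ρ' := (Nat.le_div_iff_mul_le hℓ).2 (by rw [mul_comm]; exact hle)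
        exact Finset.mem_range.2 (Nat.lt_succ_of_le this)
      · simp [vec, h2]
    · simp [vec, h1]
  rw [← Finset.sum_subset hsub hvan, Finset.sum_image]
  · refine Finset.sum_congr rfl fun t _ => ?_
    have h1 : ρ.den ∣ ell ρ ρ' * t := Dvd.dvd.mul_right hd1 t
    have h2 : ρ'.den ∣ ell ρ ρ' * t := Dvd.dvd.mul_right hd2 t
    simp only [vec, if_pos h1, if_pos h2]
    rw [map_mul, Complex.conj_ofReal, ee_conj]
    have e : (ρ : ℝ) * ((ell ρ ρ' * t : ℕ) : ℝ) * γ + -((ρ' : ℝ) * ((ell ρ ρ' * t : ℕ) : ℝ) * γ)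
        = (t : ℝ) * ((nn ρ ρ' : ℝ) * γ) := by
      rw [nn_cast]
      push_cast
      ring
    rw [← e, ee_add]
    push_cast
    ring
  · intro a _ b _ hab
    exact Nat.eq_of_mul_eq_mul_left hℓ hab

/-- The trivial bound. -/
theorem gram_trivial (γ K : ℝ) (hK : 0 < K) (Q : ℕ) (hQ : 0 < Q) (ρ ρ' : ℚ) (hρ : 0 < ρ)
    (hρ' : 0 < ρ') : ‖gram γ K Q ρ ρ'‖ ≤ 3 * (Q : ℝ) / (ell ρ ρ' : ℝ) := by
  have hQ' : (0 : ℝ) < Q := by exact_mod_cast hQ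
  have hρr : (0 : ℝ) < ρ := by exact_mod_cast hρ
  have hρr' : (0 : ℝ) < ρ' := by exact_mod_cast hρ'
  rw [gram_eq_sum γ K hK Q hQ ρ ρ', Finset.sum_range_succ']
  have h0 : ((wt Q ((ell ρ ρ' * 0 : ℕ) : ℝ) * (tn K ((ρ : ℝ) * ((ell ρ ρ' * 0 : ℕ) : ℝ)) *
        tn K ((ρ' : ℝ) * ((ell ρ ρ' * 0 : ℕ) : ℝ))) : ℝ) : ℂ) * ee (((0 : ℕ) : ℝ) * ((nn ρ ρ' : ℝ) * γ)) = 0 := by
    have : ((ell ρ ρ' * 0 : ℕ) : ℝ) = 0 := by simp
    rw [this, wt_zero]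
    simp
  rw [h0, add_zero]
  have hterm : ∀ t ∈ range (3 * Q / ell ρ ρ'),
      ‖((wt Q ((ell ρ ρ' * (t + 1) : ℕ) : ℝ) * (tn K ((ρ : ℝ) * ((ell ρ ρ' * (t + 1) : ℕ) : ℝ)) *
        tn K ((ρ' : ℝ) * ((ell ρ ρ' * (t + 1) : ℕ) : ℝ))) : ℝ) : ℂ) *
          ee (((t + 1 : ℕ) : ℝ) * ((nn ρ ρ' : ℝ) * γ))‖ ≤ 1 := by
    intro t _
    have hq : (0 : ℝ) ≤ ((ell ρ ρ' * (t + 1) : ℕ) : ℝ) := Nat.cast_nonneg _
    have h1 := wt_nonneg hQ' hq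
    have h2 := wt_le_one hQ' hq
    have h3 := tn_nonneg K ((ρ : ℝ) * ((ell ρ ρ' * (t + 1) : ℕ) : ℝ))
    have h4 := tn_le_one hK (mul_nonneg hρr.le hq)
    have h5 := tn_nonneg K ((ρ' : ℝ) * ((ell ρ ρ' * (t + 1) : ℕ) : ℝ))
    have h6 := tn_le_one hK (mul_nonneg hρr'.le hq)
    rw [norm_mul, ee_norm, mul_one, Complex.norm_real, Real.norm_eq_abs, abs_of_nonneg (by positivity)]
    calc _ ≤ (1 : ℝ) * (1 * 1) := by
          apply mul_le_mul h2 _ (by positivity) (by norm_num)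
          exact mul_le_mul h4 h6 h5 (by norm_num)
      _ = 1 := by norm_num
  calc _ ≤ ∑ t ∈ range (3 * Q / ell ρ ρ'), (1 : ℝ) := by
        refine (norm_sum_le _ _).trans (Finset.sum_le_sum hterm)
    _ = ((3 * Q / ell ρ ρ' : ℕ) : ℝ) := by simp
    _ ≤ ((3 * Q : ℕ) : ℝ) / (ell ρ ρ' : ℝ) := Nat.cast_div_le
    _ = 3 * (Q : ℝ) / (ell ρ ρ' : ℝ) := by push_cast; ring

theorem Amp.mono {X : ℕ} {l v l' v' : ℝ} {g : ℕ → ℝ} (h : Amp X l v g) (hl : l ≤ l') (hv : v ≤ v') :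
    Amp X l' v' g :=
  ⟨h.bd, fun t => (h.lip t).trans hl, h.var.trans hv⟩

/-- The second order bound: the tents have slope at most `ell / Q`. -/
theorem gram_second (γ K : ℝ) (hK : 0 < K) (Q : ℕ) (hQ : 0 < Q) (ρ ρ' : ℚ) (hρ : 0 < ρ)
    (hρ' : 0 < ρ') (h1 : (ρ : ℝ) ≤ K / Q) (h2 : (ρ' : ℝ) ≤ K / Q) :
    ‖gram γ K Q ρ ρ'‖ * nrm ((nn ρ ρ' : ℝ) * γ) ^ 2 ≤ 8 * (ell ρ ρ' : ℝ) / Q := by
  have hQ' : (0 : ℝ) < Q := by exact_mod_cast hQ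
  have hℓ : 0 < ell ρ ρ' := ell_pos ρ ρ'
  have hℓ' : (0 : ℝ) < ell ρ ρ' := by exact_mod_cast hℓ
  have hρr : (0 : ℝ) < ρ := by exact_mod_cast hρ
  have hρr' : (0 : ℝ) < ρ' := by exact_mod_cast hρ'
  rw [gram_eq_sum γ K hK Q hQ ρ ρ']
  set ℓ := ell ρ ρ' with hℓdef
  set θ : ℝ := (nn ρ ρ' : ℝ) * γ with hθ
  have hrhs : 0 ≤ 8 * (ℓ : ℝ) / Q := by positivity
  let a : ℕ → ℝ := fun t => wt Q ((ℓ * t : ℕ) : ℝ) *
    (tn K ((ρ : ℝ) * ((ℓ * t : ℕ) : ℝ)) * tn K ((ρ' : ℝ) * ((ℓ * t : ℕ) : ℝ)))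
  have ha0 : a 0 = 0 := by
    have e : ((ℓ * 0 : ℕ) : ℝ) = 0 := by simp
    simp only [a]
    rw [e, wt_zero, zero_mul]
  by_cases hbig : 3 * Q < ℓ
  · have hdiv : 3 * Q / ℓ = 0 := Nat.div_eq_of_lt hbig
    rw [hdiv]
    have hzero : ∑ t ∈ range (0 + 1), ((a t : ℝ) : ℂ) * ee ((t : ℝ) * θ) = 0 := by
      simp [ha0]
    have hzero' : ∑ t ∈ range (0 + 1), ((wt Q ((ℓ * t : ℕ) : ℝ) *
        (tn K ((ρ : ℝ) * ((ℓ * t : ℕ) : ℝ)) * tn K ((ρ' : ℝ) * ((ℓ * t : ℕ) : ℝ))) : ℝ) : ℂ) *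
          ee ((t : ℝ) * θ) = 0 := hzero
    rw [hzero']
    simpa using hrhs
  · have hle : ℓ ≤ 3 * Q := not_lt.1 hbig
    set l : ℝ := (ℓ : ℝ) / Q with hl
    have hl0 : 0 ≤ l := by positivity
    have hl3 : l ≤ 3 := by
      rw [hl, div_le_iff₀ hQ']
      exact_mod_cast hle
    set X := 3 * Q / ℓ + 1 with hXdef
    have hqQ : ∀ t : ℕ, ((ℓ * t : ℕ) : ℝ) / Q = l * t := by
      intro t
      rw [hl]
      push_cast
      ring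
    have hW : Amp X l (3 * l) (fun t => wt Q ((ℓ * t : ℕ) : ℝ)) := by
      have := amp_wt X hl0
      convert this using 2 with t
      simp only [wt, hqQ]
    have htent : ∀ r : ℚ, (0 : ℝ) < r → (r : ℝ) ≤ K / Q →
        Amp X l l (fun t => tn K ((r : ℝ) * ((ℓ * t : ℕ) : ℝ))) := by
      intro r hr hrK
      have hb0 : 0 ≤ (r : ℝ) * ℓ / K := by positivity
      have hbl : (r : ℝ) * ℓ / K ≤ l := by
        rw [hl, div_le_div_iff₀ hK hQ']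
        have : (r : ℝ) * Q ≤ K := by
          rwa [le_div_iff₀ hQ'] at hrK
        nlinarith
      have := (amp_tent X hb0).mono hbl hbl
      convert this using 2 with t
      simp only [tn]
      congr 2
      push_cast
      ring
    have hA : Amp X (l + (l + l)) (3 * l + (l + l + 2 * X * (l * l)) + 2 * X * (l * (l + l))) a :=
      hW.mul ((htent ρ hρr h1).mul (htent ρ' hρr' h2))
    have haX : ∀ t, X ≤ t → a t = 0 := by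
      intro t ht
      have h3 : 3 * Q / ℓ < t := by omega
      have h4 : 3 * Q < t * ℓ := (Nat.div_lt_iff_lt_mul hℓ).1 h3
      have h5 : (3 : ℝ) * Q ≤ ((ℓ * t : ℕ) : ℝ) := by
        have : 3 * Q ≤ ℓ * t := by rw [Nat.mul_comm ℓ t]; exact h4.le
        exact_mod_cast this
      simp only [a]
      rw [wt_eq_zero hQ' h5, zero_mul]
    have hXl : (X : ℝ) * l ≤ 3 + l := by
      have h3 : ((3 * Q / ℓ : ℕ) : ℝ) ≤ ((3 * Q : ℕ) : ℝ) / (ℓ : ℝ) := Nat.cast_div_le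
      have h4 : (X : ℝ) = ((3 * Q / ℓ : ℕ) : ℝ) + 1 := by
        rw [hXdef]
        push_cast
        ring
      rw [h4]
      have h5 : ((3 * Q : ℕ) : ℝ) / (ℓ : ℝ) * l = 3 := by
        rw [hl]
        push_cast
        field_simp
      nlinarith
    have hV : ∑ t ∈ range X, |a (t + 2) - 2 * a (t + 1) + a t| + |a 1| ≤ 44 * l := by
      have h3 := hA.var
      have h4 := hA.lip 0
      rw [ha0, sub_zero] at h4
      have h4' : |a 1| ≤ l + (l + l) := by simpa using h4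
      have h6 : (X : ℝ) * (l * l) ≤ (3 + l) * l := by
        have := mul_le_mul_of_nonneg_right hXl hl0
        nlinarith
      nlinarith
    have hfin := exp_sum_second a θ X ha0 haX (44 * l) hV
    have hfin' : ‖∑ t ∈ range X, ((wt Q ((ℓ * t : ℕ) : ℝ) *
        (tn K ((ρ : ℝ) * ((ℓ * t : ℕ) : ℝ)) * tn K ((ρ' : ℝ) * ((ℓ * t : ℕ) : ℝ))) : ℝ) : ℂ) *
          ee ((t : ℝ) * θ)‖ * (16 * nrm θ ^ 2) ≤ 44 * l := hfin
    have e8 : 8 * (ℓ : ℝ) / Q = 8 * l := by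
      rw [hl]
      ring
    rw [e8]
    have hn : 0 ≤ ‖∑ t ∈ range X, ((wt Q ((ℓ * t : ℕ) : ℝ) *
        (tn K ((ρ : ℝ) * ((ℓ * t : ℕ) : ℝ)) * tn K ((ρ' : ℝ) * ((ℓ * t : ℕ) : ℝ))) : ℝ) : ℂ) *
          ee ((t : ℝ) * θ)‖ * nrm θ ^ 2 := by positivity
    nlinarith

/-- The combined bound. -/
theorem gram_min (γ K : ℝ) (hK : 0 < K) (Q : ℕ) (hQ : 0 < Q) (ρ ρ' : ℚ) (hρ : 0 < ρ)
    (hρ' : 0 < ρ') (h1 : (ρ : ℝ) ≤ K / Q) (h2 : (ρ' : ℝ) ≤ K / Q)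
    (hn : 0 < nrm ((nn ρ ρ' : ℝ) * γ)) :
    ‖gram γ K Q ρ ρ'‖ ≤ 8 * min ((Q : ℝ) / ell ρ ρ')
      (1 / (((Q : ℝ) / ell ρ ρ') * nrm ((nn ρ ρ' : ℝ) * γ) ^ 2)) := by
  have hT : 0 < (Q : ℝ) / ell ρ ρ' := by
    have : (0 : ℝ) < ell ρ ρ' := by exact_mod_cast ell_pos ρ ρ'
    have : (0 : ℝ) < Q := by exact_mod_cast hQ
    positivity
  have hℓ : (0 : ℝ) < ell ρ ρ' := by exact_mod_cast ell_pos ρ ρ'
  have hQ' : (0 : ℝ) < Q := by exact_mod_cast hQ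
  have h3 := gram_trivial γ K hK Q hQ ρ ρ' hρ hρ'
  have h4 := gram_second γ K hK Q hQ ρ ρ' hρ hρ' h1 h2
  have hn2 : 0 < nrm ((nn ρ ρ' : ℝ) * γ) ^ 2 := by positivity
  rw [mul_min_of_nonneg _ _ (by norm_num : (0 : ℝ) ≤ 8)]
  apply le_min
  · have : 3 * (Q : ℝ) / (ell ρ ρ' : ℝ) ≤ 8 * ((Q : ℝ) / ell ρ ρ') := by
      rw [mul_div_assoc]
      apply mul_le_mul_of_nonneg_right (by norm_num) hT.le
    linarith
  · have e : 8 * (1 / (((Q : ℝ) / ell ρ ρ') * nrm ((nn ρ ρ' : ℝ) * γ) ^ 2)) =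
        (8 * (ell ρ ρ' : ℝ) / Q) / nrm ((nn ρ ρ' : ℝ) * γ) ^ 2 := by
      field_simp
    rw [e, le_div_iff₀ hn2]
    exact h4

end Vale.Agent.Lib.P028G
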