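import Vale.Agent.Lib.P028G.Defs

/-! The sum over multiples of a badly approximable number. -/

open scoped BigOperators
open Finset

namespace Vale.Agent.Lib.P028G

/-- Telescoping bound for `min 1 (r²/J²)`. -/
theorem tel_aux {r : ℝ} (hr : 0 < r) (M : ℕ) :
    ∑ J ∈ Icc 1 M, min 1 (r ^ 2 / (J : ℝ) ^ 2) ≤
      (if (M : ℝ) ≤ r then (M : ℝ) else 2 * r - r ^ 2 / (M : ℝ)) := by
  induction M with
  | zero =>
    simp only [Nat.cast_zero]
    rw [if_pos hr.le]
    simp
  | succ M ih =>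
    rw [Finset.sum_Icc_succ_top (by omega)]
    have hJ : (0 : ℝ) < ((M + 1 : ℕ) : ℝ) := by positivity
    have ha1 : min 1 (r ^ 2 / ((M + 1 : ℕ) : ℝ) ^ 2) ≤ 1 := min_le_left _ _
    have ha2 : min 1 (r ^ 2 / ((M + 1 : ℕ) : ℝ) ^ 2) ≤ r ^ 2 / ((M + 1 : ℕ) : ℝ) ^ 2 :=
      min_le_right _ _
    by_cases h1 : ((M + 1 : ℕ) : ℝ) ≤ r
    · have h0 : (M : ℝ) ≤ r := by push_cast at h1; linarith
      rw [if_pos h0] at ih
      rw [if_pos h1]
      push_cast at ha1 ⊢
      linarith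
    · by_cases h0 : (M : ℝ) ≤ r
      · rw [if_pos h0] at ih
        rw [if_neg h1]
        -- the crossing step
        set J : ℝ := ((M + 1 : ℕ) : ℝ) with hJdef
        have hMJ : (M : ℝ) = J - 1 := by rw [hJdef]; push_cast; ring
        rw [hMJ] at ih h0
        have hrJ : r < J := not_le.mp h1
        have hJ1 : (1 : ℝ) ≤ J := by rw [hJdef]; push_cast; linarith [(Nat.cast_nonneg M : (0:ℝ) ≤ M)]
        have key : J - 1 + r ^ 2 / J ^ 2 ≤ 2 * r - r ^ 2 / J := by
          have hJ' : J ≠ 0 := by positivity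
          have e : 2 * r - r ^ 2 / J - (J - 1 + r ^ 2 / J ^ 2) =
              (J - r) * (2 * J - (J - r) * (1 + J)) / J ^ 2 := by
            field_simp
            ring
          have hs0 : 0 ≤ J - r := by linarith
          have hs1 : J - r ≤ 1 := by linarith
          have hfac : 0 ≤ 2 * J - (J - r) * (1 + J) := by nlinarith
          have : 0 ≤ (J - r) * (2 * J - (J - r) * (1 + J)) / J ^ 2 := by positivity
          linarith
        linarith
      · have hM0 : (0 : ℝ) < (M : ℝ) := by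
          have : r < (M : ℝ) := not_le.mp h0
          linarith
        rw [if_neg h0] at ih
        rw [if_neg h1]
        have hM1 : ((M + 1 : ℕ) : ℝ) = (M : ℝ) + 1 := by push_cast; ring
        rw [hM1] at ha2 ⊢
        have key : r ^ 2 / ((M : ℝ) + 1) ^ 2 ≤ r ^ 2 / (M : ℝ) - r ^ 2 / ((M : ℝ) + 1) := by
          have e : r ^ 2 / (M : ℝ) - r ^ 2 / ((M : ℝ) + 1) - r ^ 2 / ((M : ℝ) + 1) ^ 2 =
              r ^ 2 / ((M : ℝ) * ((M : ℝ) + 1) ^ 2) := by
            field_simp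
            ring
          have : 0 ≤ r ^ 2 / ((M : ℝ) * ((M : ℝ) + 1) ^ 2) := by positivity
          linarith
        linarith

theorem tel_le {r : ℝ} (hr : 0 < r) (M : ℕ) :
    ∑ J ∈ Icc 1 M, min 1 (r ^ 2 / (J : ℝ) ^ 2) ≤ 2 * r := by
  refine (tel_aux hr M).trans ?_
  split_ifs with h
  · linarith
  · have : 0 ≤ r ^ 2 / (M : ℝ) := by positivity
    linarith

/-- Separated points: the sum of `min T (1/(T x²))` is at most `2/δ`. -/
theorem sum_sep {δ T : ℝ} (hδ : 0 < δ) (hT : 0 < T) (A : Finset ℕ) (x : ℕ → ℝ)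
    (hx : ∀ n ∈ A, δ ≤ x n)
    (hsep : ∀ n ∈ A, ∀ n' ∈ A, n ≠ n' → δ ≤ |x n - x n'|) :
    ∑ n ∈ A, min T (1 / (T * (x n) ^ 2)) ≤ 2 / δ := by
  set r : ℝ := 1 / (T * δ) with hrdef
  have hr : 0 < r := by positivity
  set J : ℕ → ℕ := fun n => ⌊x n / δ⌋₊ with hJdef
  have hxpos : ∀ n ∈ A, 0 < x n := fun n hn => lt_of_lt_of_le hδ (hx n hn)
  have hJ1 : ∀ n ∈ A, 1 ≤ J n := by
    intro n hn
    apply Nat.le_floor
    rw [Nat.cast_one, le_div_iff₀ hδ]
    linarith [hx n hn]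
  have hJle : ∀ n ∈ A, (J n : ℝ) * δ ≤ x n := by
    intro n hn
    have := Nat.floor_le (div_nonneg (hxpos n hn).le hδ.le)
    calc (J n : ℝ) * δ ≤ x n / δ * δ := by
          exact mul_le_mul_of_nonneg_right this hδ.le
      _ = x n := by field_simp
  have hinj : Set.InjOn J A := by
    intro n hn n' hn' h
    by_contra hne
    have h1 := hsep n hn n' hn' hne
    have f1 := Nat.floor_le (div_nonneg (hxpos n hn).le hδ.le)
    have f2 := Nat.lt_floor_add_one (x n / δ)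
    have f3 := Nat.floor_le (div_nonneg (hxpos n' hn').le hδ.le)
    have f4 := Nat.lt_floor_add_one (x n' / δ)
    have hJeq : (⌊x n / δ⌋₊ : ℝ) = (⌊x n' / δ⌋₊ : ℝ) := by
      have : ⌊x n / δ⌋₊ = ⌊x n' / δ⌋₊ := h
      rw [this]
    have hdiff : |x n / δ - x n' / δ| < 1 := by
      rw [abs_lt]; constructor <;> linarith
    have e : x n / δ - x n' / δ = (x n - x n') / δ := by ring
    rw [e, abs_div, abs_of_pos hδ, div_lt_one hδ] at hdiff
    linarith
  have hterm : ∀ n ∈ A, min T (1 / (T * (x n) ^ 2)) ≤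
      T * min 1 (r ^ 2 / (J n : ℝ) ^ 2) := by
    intro n hn
    have hJpos : (0 : ℝ) < (J n : ℝ) := by exact_mod_cast hJ1 n hn
    rw [mul_min_of_nonneg _ _ hT.le, mul_one]
    apply min_le_min le_rfl
    have hle : ((J n : ℝ) * δ) ^ 2 ≤ (x n) ^ 2 := by
      have h0 : 0 ≤ (J n : ℝ) * δ := by positivity
      exact pow_le_pow_left₀ h0 (hJle n hn) 2
    have e : T * (r ^ 2 / (J n : ℝ) ^ 2) = 1 / (T * ((J n : ℝ) * δ) ^ 2) := by
      rw [hrdef]
      field_simp
    rw [e]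
    apply one_div_le_one_div_of_le
    · positivity
    · exact mul_le_mul_of_nonneg_left hle hT.le
  calc ∑ n ∈ A, min T (1 / (T * (x n) ^ 2))
      ≤ ∑ n ∈ A, T * min 1 (r ^ 2 / (J n : ℝ) ^ 2) := Finset.sum_le_sum hterm
    _ = T * ∑ j ∈ A.image J, min 1 (r ^ 2 / (j : ℝ) ^ 2) := by
        rw [Finset.sum_image hinj, Finset.mul_sum]
    _ ≤ T * ∑ j ∈ Icc 1 (A.sup J), min 1 (r ^ 2 / (j : ℝ) ^ 2) := by
        apply mul_le_mul_of_nonneg_left _ hT.le
        apply Finset.sum_le_sum_of_subset_of_nonneg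
        · intro j hj
          rw [Finset.mem_image] at hj
          obtain ⟨n, hn, rfl⟩ := hj
          rw [Finset.mem_Icc]
          exact ⟨hJ1 n hn, Finset.le_sup (f := J) hn⟩
        · intro j _ _
          exact le_min zero_le_one (by positivity)
    _ ≤ T * (2 * r) := mul_le_mul_of_nonneg_left (tel_le hr _) hT.le
    _ = 2 / δ := by rw [hrdef]; field_simp

/-- Paper proof: with `δ = κ/(2N)` and `J(n) = ⌊nrm(nγ)/δ⌋ ≥ 1`, the map `n ↦ (J(n), sign of nγ - round(nγ))`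
is injective on `Icc 1 N` since `nrm((n-n')γ) ≥ κ/N = 2δ`. Hence the sum is at most
`2 ∑_{J ≥ 1} min(T, 1/(T J² δ²)) ≤ 6/δ = 12 N/κ`. -/
theorem bad_sum (γ κ : ℝ) (hκ : 0 < κ) (hbad : Bad γ κ) (N : ℕ) (T : ℝ) (hT : 0 < T) :
    ∑ n ∈ Icc 1 N, min T (1 / (T * nrm ((n : ℝ) * γ) ^ 2)) ≤ 16 * (N : ℝ) / κ := by
  rcases Nat.eq_zero_or_pos N with rfl | hN
  · simp
  have hNpos : (0 : ℝ) < (N : ℝ) := by exact_mod_cast hN
  set δ : ℝ := κ / N with hδdef
  have hδ : 0 < δ := by positivity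
  set y : ℕ → ℝ := fun n => (n : ℝ) * γ - round ((n : ℝ) * γ) with hy
  -- lower bound
  have hlow : ∀ n ∈ Icc 1 N, δ ≤ |y n| := by
    intro n hn
    rw [Finset.mem_Icc] at hn
    have h1 := hbad n (by omega) (round ((n : ℝ) * γ))
    have hn0 : (0 : ℝ) < (n : ℝ) := by exact_mod_cast (by omega : 0 < n)
    have hnN : (n : ℝ) ≤ N := by exact_mod_cast hn.2
    have : κ / N ≤ κ / n := div_le_div_of_nonneg_left hκ.le hn0 hnN
    exact this.trans h1
  -- separation
  have hsep0 : ∀ n ∈ Icc 1 N, ∀ n' ∈ Icc 1 N, n' < n → δ ≤ |y n - y n'| := by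
    intro n hn n' hn' hlt
    rw [Finset.mem_Icc] at hn hn'
    have h1 := hbad (n - n') (by omega) (round ((n : ℝ) * γ) - round ((n' : ℝ) * γ))
    have hc : ((n - n' : ℕ) : ℝ) = (n : ℝ) - n' := by
      rw [Nat.cast_sub hlt.le]
    have hm0 : (0 : ℝ) < ((n - n' : ℕ) : ℝ) := by exact_mod_cast (by omega : 0 < n - n')
    have hmN : ((n - n' : ℕ) : ℝ) ≤ N := by exact_mod_cast (by omega : n - n' ≤ N)
    have h2 : κ / N ≤ κ / ((n - n' : ℕ) : ℝ) := div_le_div_of_nonneg_left hκ.le hm0 hmN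
    have e : ((n - n' : ℕ) : ℝ) * γ - ((round ((n : ℝ) * γ) - round ((n' : ℝ) * γ) : ℤ) : ℝ) =
        y n - y n' := by
      rw [hc]; simp only [hy]; push_cast; ring
    rw [e] at h1
    exact h2.trans h1
  have hsep : ∀ n ∈ Icc 1 N, ∀ n' ∈ Icc 1 N, n ≠ n' → δ ≤ |y n - y n'| := by
    intro n hn n' hn' hne
    rcases lt_or_gt_of_ne hne with h | h
    · rw [abs_sub_comm]; exact hsep0 n' hn' n hn h
    · exact hsep0 n hn n' hn' h
  -- split by sign
  set A := (Icc 1 N).filter (fun n => 0 < y n) with hA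
  set B := (Icc 1 N).filter (fun n => ¬ 0 < y n) with hB
  have hsplit := Finset.sum_filter_add_sum_filter_not (Icc 1 N) (fun n => 0 < y n)
    (fun n => min T (1 / (T * nrm ((n : ℝ) * γ) ^ 2)))
  have hnrm : ∀ n : ℕ, nrm ((n : ℝ) * γ) = |y n| := fun n => rfl
  have hSA : ∑ n ∈ A, min T (1 / (T * nrm ((n : ℝ) * γ) ^ 2)) ≤ 2 / δ := by
    have := sum_sep hδ hT A y
      (fun n hn => by
        have hn' := Finset.mem_filter.mp hn
        have := hlow n hn'.1
        rwa [abs_of_pos hn'.2] at this)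
      (fun n hn n' hn' hne => hsep n (Finset.mem_filter.mp hn).1 n' (Finset.mem_filter.mp hn').1 hne)
    refine le_trans (le_of_eq ?_) this
    apply Finset.sum_congr rfl
    intro n _
    rw [hnrm, sq_abs]
  have hSB : ∑ n ∈ B, min T (1 / (T * nrm ((n : ℝ) * γ) ^ 2)) ≤ 2 / δ := by
    have := sum_sep hδ hT B (fun n => - y n)
      (fun n hn => by
        have hn' := Finset.mem_filter.mp hn
        have := hlow n hn'.1
        have hneg : y n ≤ 0 := not_lt.mp hn'.2
        rwa [abs_of_nonpos hneg] at this)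
      (fun n hn n' hn' hne => by
        have := hsep n (Finset.mem_filter.mp hn).1 n' (Finset.mem_filter.mp hn').1 hne
        rw [abs_sub_comm] at this
        have e : - y n - - y n' = y n' - y n := by ring
        simp only [e]
        exact this)
    refine le_trans (le_of_eq ?_) this
    apply Finset.sum_congr rfl
    intro n _
    rw [hnrm, sq_abs, neg_sq]
  have hfin : 2 / δ + 2 / δ ≤ 16 * (N : ℝ) / κ := by
    rw [hδdef]
    have e : 2 / (κ / (N : ℝ)) + 2 / (κ / (N : ℝ)) = 4 * (N : ℝ) / κ := by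
      field_simp
      ring
    rw [e]
    apply div_le_div_of_nonneg_right _ hκ.le
    linarith
  rw [← hsplit]
  exact (add_le_add hSA hSB).trans hfin

end Vale.Agent.Lib.P028G
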