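import Vale.Agent.Lib.P028G.Level
import Vale.Agent.Lib.P028E.Block

/-! From a function non-increasing on its support to a chain of levels. -/

open scoped BigOperators Real
open Finset MeasureTheory
open Vale.Agent.Lib.P028 Vale.Agent.Lib.P028E

namespace Vale.Agent.Lib.P028G

/-- Dyadic exponent of a number in `(0, 1)`. -/
theorem exists_kk {x : ℝ} (h0 : 0 < x) (h1 : x < 1) :
    ∃ k : ℕ, (1 / 2 : ℝ) ^ (k + 1) < x ∧ x ≤ (1 / 2 : ℝ) ^ k :=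
  exists_nat_pow_near_of_lt_one h0 h1.le (by norm_num) (by norm_num)

/-- The pointwise majorant for one level: from `fej_large`, `fej_nonneg`. -/
theorem ind_le_fej (γ ψ : ℝ) (q K : ℕ) (hK : 0 < K) (hψ : (K : ℝ) * ψ ≤ 1 / 8) (x : ℝ) :
    ind (arcSet q γ ψ) x ≤ 3 / (K : ℝ) * fej K ((q : ℝ) * x - γ) := by
  have hK' : (0 : ℝ) < K := by exact_mod_cast hK
  by_cases hx : x ∈ arcSet q γ ψ
  · have h1 : ind (arcSet q γ ψ) x = 1 := by
      unfold ind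
      rw [Set.indicator_of_mem hx]
    rw [h1]
    obtain ⟨a, ha⟩ := hx
    refine fej_large K hK ((q : ℝ) * x - γ) a ψ ?_ hψ
    rw [show (q : ℝ) * x - γ - a = (q : ℝ) * x - a - γ by ring]
    exact ha
  · have h1 : ind (arcSet q γ ψ) x = 0 := by
      unfold ind
      rw [Set.indicator_of_notMem hx]
    rw [h1]
    exact mul_nonneg (by positivity) (fej_nonneg K hK _)

private theorem continuous_fej (K : ℕ) : Continuous (fej K) := by
  unfold fej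
  fun_prop

/-- The overlaps are dominated by a chain of levels. `∑∑ Ovl = ∫₀¹ (∑ ind)²` and the majorant. -/
theorem ovl_le_levels (γ : ℝ) (ψ : ℕ → ℝ) (Bk I : Finset ℕ) (K : ℕ → ℕ) (S : ℕ → Finset ℕ)
    (hK : ∀ r ∈ I, 0 < K r) (hdisj : ∀ q ∈ Bk, ∃ r ∈ I, q ∈ S r)
    (hmaj : ∀ r ∈ I, ∀ q ∈ S r, (K r : ℝ) * ψ q ≤ 1 / 8)
    (hinj : ∀ r ∈ I, ∀ s ∈ I, ∀ q, q ∈ S r → q ∈ S s → r = s) :
    ∑ q ∈ Bk, ∑ r ∈ Bk, Ovl (fun q => arcSet q γ (ψ q)) q r ≤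
      ∫ x in (0 : ℝ)..1, (∑ r ∈ I, (3 / (K r : ℝ)) * ∑ q ∈ S r, fej (K r) ((q : ℝ) * x - γ)) ^ 2 := by
  classical
  have _ := hinj
  -- the left side as an integral
  have hprod : ∀ q r : ℕ, IntervalIntegrable
      (fun x => ind (arcSet q γ (ψ q)) x * ind (arcSet r γ (ψ r)) x) volume 0 1 := by
    intro q r
    refine intervalIntegrable_of_bdd
      ((measurable_ind (measurableSet_arcSet _ _ _)).mul (measurable_ind (measurableSet_arcSet _ _ _)))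
      1 (fun x => ?_) 0 1
    simp only [Pi.mul_apply]
    rw [abs_of_nonneg (mul_nonneg (ind_nonneg _ x) (ind_nonneg _ x))]
    exact mul_le_one₀ (ind_le_one _ x) (ind_nonneg _ x) (ind_le_one _ x)
  have hL : ∑ q ∈ Bk, ∑ r ∈ Bk, Ovl (fun q => arcSet q γ (ψ q)) q r =
      ∫ x in (0 : ℝ)..1, (∑ q ∈ Bk, ind (arcSet q γ (ψ q)) x) ^ 2 := by
    have e1 : ∀ x : ℝ, (∑ q ∈ Bk, ind (arcSet q γ (ψ q)) x) ^ 2 =
        ∑ q ∈ Bk, ∑ r ∈ Bk, ind (arcSet q γ (ψ q)) x * ind (arcSet r γ (ψ r)) x := by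
      intro x
      rw [sq, sum_mul_sum]
    simp_rw [e1]
    rw [intervalIntegral.integral_finsetSum]
    · refine sum_congr rfl fun q _ => ?_
      rw [intervalIntegral.integral_finsetSum]
      · rfl
      · intro r _
        exact hprod q r
    · intro q _
      have h := IntervalIntegrable.sum Bk (fun r _ => hprod q r)
      refine h.congr (fun x _ => ?_)
      simp [Finset.sum_apply]
  rw [hL]
  -- the choice of levels
  have hex : ∀ q : ℕ, ∃ r : ℕ, q ∈ Bk → r ∈ I ∧ q ∈ S r := by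
    intro q
    by_cases hq : q ∈ Bk
    · obtain ⟨r, hr, hq'⟩ := hdisj q hq
      exact ⟨r, fun _ => ⟨hr, hq'⟩⟩
    · exact ⟨0, fun h => absurd h hq⟩
  choose rr hrr using hex
  -- the pointwise bound
  have hpt : ∀ x : ℝ, ∑ q ∈ Bk, ind (arcSet q γ (ψ q)) x ≤
      ∑ r ∈ I, (3 / (K r : ℝ)) * ∑ q ∈ S r, fej (K r) ((q : ℝ) * x - γ) := by
    intro x
    have step1 : ∑ q ∈ Bk, ind (arcSet q γ (ψ q)) x ≤
        ∑ q ∈ Bk, (3 / (K (rr q) : ℝ)) * fej (K (rr q)) ((q : ℝ) * x - γ) := by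
      refine sum_le_sum fun q hq => ?_
      obtain ⟨h1, h2⟩ := hrr q hq
      exact ind_le_fej γ (ψ q) q (K (rr q)) (hK _ h1) (hmaj _ h1 q h2) x
    have step2 : ∑ q ∈ Bk, (3 / (K (rr q) : ℝ)) * fej (K (rr q)) ((q : ℝ) * x - γ) =
        ∑ r ∈ I, ∑ q ∈ Bk.filter (fun q => rr q = r),
          (3 / (K (rr q) : ℝ)) * fej (K (rr q)) ((q : ℝ) * x - γ) :=
      (sum_fiberwise_of_maps_to (fun q hq => (hrr q hq).1) _).symm
    have step3 : ∀ r ∈ I, ∑ q ∈ Bk.filter (fun q => rr q = r),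
        (3 / (K (rr q) : ℝ)) * fej (K (rr q)) ((q : ℝ) * x - γ) ≤
        (3 / (K r : ℝ)) * ∑ q ∈ S r, fej (K r) ((q : ℝ) * x - γ) := by
      intro r hr
      have e : ∑ q ∈ Bk.filter (fun q => rr q = r),
          (3 / (K (rr q) : ℝ)) * fej (K (rr q)) ((q : ℝ) * x - γ) =
          (3 / (K r : ℝ)) * ∑ q ∈ Bk.filter (fun q => rr q = r), fej (K r) ((q : ℝ) * x - γ) := by
        rw [mul_sum]
        refine sum_congr rfl fun q hq => ?_
        rw [(mem_filter.mp hq).2]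
      rw [e]
      refine mul_le_mul_of_nonneg_left ?_ (by positivity)
      refine sum_le_sum_of_subset_of_nonneg ?_ (fun q _ _ => fej_nonneg _ (hK r hr) _)
      intro q hq
      obtain ⟨h1, h2⟩ := mem_filter.mp hq
      have := (hrr q h1).2
      rwa [h2] at this
    rw [step2] at step1
    exact step1.trans (sum_le_sum step3)
  -- integrate
  refine intervalIntegral.integral_mono_on (by norm_num) ?_ ?_ fun x _ => ?_
  · have hm : Measurable (fun x : ℝ => (∑ q ∈ Bk, ind (arcSet q γ (ψ q)) x) ^ 2) :=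
      (Finset.measurable_fun_sum _ fun q _ => measurable_ind (measurableSet_arcSet _ _ _)).pow_const 2
    refine intervalIntegrable_of_bdd hm ((Bk.card : ℝ) ^ 2) (fun x => ?_) 0 1
    have h0 : 0 ≤ ∑ q ∈ Bk, ind (arcSet q γ (ψ q)) x := sum_nonneg fun q _ => ind_nonneg _ _
    have h1 : ∑ q ∈ Bk, ind (arcSet q γ (ψ q)) x ≤ Bk.card := by
      calc ∑ q ∈ Bk, ind (arcSet q γ (ψ q)) x ≤ ∑ _q ∈ Bk, (1 : ℝ) :=
            sum_le_sum fun q _ => ind_le_one _ _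
        _ = Bk.card := by simp
    rw [abs_of_nonneg (sq_nonneg _)]
    exact pow_le_pow_left₀ h0 h1 2
  · apply Continuous.intervalIntegrable
    have hf : ∀ r : ℕ, Continuous (fej (K r)) := fun r => continuous_fej (K r)
    refine Continuous.pow (continuous_finsetSum _ fun r _ => continuous_const.mul
      (continuous_finsetSum _ fun q _ => (hf r).comp ?_)) 2
    fun_prop
  · have h0 : 0 ≤ ∑ q ∈ Bk, ind (arcSet q γ (ψ q)) x := sum_nonneg fun q _ => ind_nonneg _ _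
    exact pow_le_pow_left₀ h0 (hpt x) 2

theorem rpow_two_thirds_ge {q : ℕ} (hq : 27 ≤ q) : (9 : ℝ) ≤ (q : ℝ) ^ ((2 : ℝ) / 3) := by
  have h27 : (27 : ℝ) ^ ((2 : ℝ) / 3) = 9 := by
    rw [show (27 : ℝ) = (3 : ℝ) ^ (3 : ℝ) by norm_num, ← Real.rpow_mul (by norm_num)]
    norm_num
  rw [← h27]
  exact Real.rpow_le_rpow (by norm_num) (by exact_mod_cast hq) (by norm_num)

theorem exists_cube_root (Q : ℕ) (hQ : 0 < Q) : ∃ Z : ℕ, 1 ≤ Z ∧ Z ^ 3 ≤ Q ∧ Q < (2 * Z) ^ 3 := by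
  classical
  have h1 : 1 ≤ Q := hQ
  refine ⟨Nat.findGreatest (fun z => z ^ 3 ≤ Q) Q, ?_, ?_, ?_⟩
  · exact Nat.le_findGreatest h1 (by simpa using h1)
  · exact Nat.findGreatest_spec (P := fun z => z ^ 3 ≤ Q) (m := 1) h1 (by simpa using h1)
  · set Z := Nat.findGreatest (fun z => z ^ 3 ≤ Q) Q with hZ
    have hZ1 : 1 ≤ Z := Nat.le_findGreatest h1 (by simpa using h1)
    have hlt : ¬ ((Z + 1) ^ 3 ≤ Q) := by
      intro hc
      have h2 : Z + 1 ≤ Q := by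
        calc Z + 1 ≤ (Z + 1) ^ 3 := Nat.le_self_pow (by norm_num) _
          _ ≤ Q := hc
      have h3 : Z + 1 ≤ Z := Nat.le_findGreatest h2 hc
      omega
    have h4 : (Z + 1) ^ 3 ≤ (2 * Z) ^ 3 := Nat.pow_le_pow_left (by omega) 3
    omega

/-- The size condition on one level. -/
theorem size_step (t p : ℝ) (ht0 : 0 ≤ t) (hp : 0 < p) (q Q Z K : ℕ) (hQ : 0 < Q) (hQq : Q ≤ q)
    (hZ : 1 ≤ Z) (hZlt : Q < (2 * Z) ^ 3) (hKp : 1 < 16 * (K : ℝ) * p)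
    (h1 : t ^ 2 * p * (q : ℝ) ^ ((2 : ℝ) / 3) ≤ 1) :
    t ^ 2 * (Q : ℝ) ≤ 32 * (Z : ℝ) * K := by
  have hQR : (0 : ℝ) < Q := by exact_mod_cast hQ
  have hZR : (1 : ℝ) ≤ Z := by exact_mod_cast hZ
  set A : ℝ := (Q : ℝ) ^ ((2 : ℝ) / 3) with hA
  set C : ℝ := (Q : ℝ) ^ ((1 : ℝ) / 3) with hC
  have hAC : A * C = Q := by
    rw [hA, hC, ← Real.rpow_add hQR]
    norm_num
  have hC3 : C ^ 3 = Q := by
    rw [hC, ← Real.rpow_natCast, ← Real.rpow_mul hQR.le]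
    norm_num
  have hC0 : 0 ≤ C := Real.rpow_nonneg hQR.le _
  have hA0 : 0 ≤ A := Real.rpow_nonneg hQR.le _
  have hC2Z : C ≤ 2 * Z := by
    by_contra hc
    push Not at hc
    have h2 : (2 * (Z : ℝ)) ^ 3 < C ^ 3 := pow_lt_pow_left₀ hc (by positivity) (by norm_num)
    have h3 : (Q : ℝ) < (2 * (Z : ℝ)) ^ 3 := by exact_mod_cast hZlt
    rw [hC3] at h2
    linarith
  have hAq : A ≤ (q : ℝ) ^ ((2 : ℝ) / 3) :=
    Real.rpow_le_rpow hQR.le (by exact_mod_cast hQq) (by norm_num)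
  have h2 : t ^ 2 * p * A ≤ 1 := by
    have h3 : t ^ 2 * p * A ≤ t ^ 2 * p * (q : ℝ) ^ ((2 : ℝ) / 3) :=
      mul_le_mul_of_nonneg_left hAq (by positivity)
    linarith
  have hK0 : (0 : ℝ) ≤ K := Nat.cast_nonneg _
  have h4 : t ^ 2 * A ≤ 16 * (K : ℝ) := by
    have h5 : 0 ≤ t ^ 2 * A := by positivity
    calc t ^ 2 * A = t ^ 2 * A * 1 := by ring
      _ ≤ t ^ 2 * A * (16 * (K : ℝ) * p) := mul_le_mul_of_nonneg_left hKp.le h5
      _ = 16 * (K : ℝ) * (t ^ 2 * p * A) := by ring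
      _ ≤ 16 * (K : ℝ) * 1 := mul_le_mul_of_nonneg_left h2 (by positivity)
      _ = 16 * (K : ℝ) := by ring
  calc t ^ 2 * (Q : ℝ) = t ^ 2 * A * C := by rw [← hAC]; ring
    _ ≤ 16 * (K : ℝ) * (2 * Z) := mul_le_mul h4 hC2Z hC0 (by positivity)
    _ = 32 * (Z : ℝ) * K := by ring

/-- The arithmetic of the dyadic level. -/
theorem kk_step (p : ℝ) (k : ℕ) (h3 : 3 ≤ k) (h1 : (1 / 2 : ℝ) ^ (k + 1) < p)
    (h2 : p ≤ (1 / 2 : ℝ) ^ k) :
    1 < 16 * ((2 ^ (k - 3) : ℕ) : ℝ) * p ∧ ((2 ^ (k - 3) : ℕ) : ℝ) * p ≤ 1 / 8 := by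
  obtain ⟨m, hm⟩ : ∃ m, k = m + 3 := ⟨k - 3, by omega⟩
  subst hm
  have hm' : m + 3 - 3 = m := by omega
  rw [hm']
  push_cast
  have hp : (0 : ℝ) < 2 ^ m := by positivity
  have e1 : (1 / 2 : ℝ) ^ (m + 3) = 1 / (8 * 2 ^ m) := by
    rw [pow_add, one_div, inv_pow]
    norm_num
  have e2 : (1 / 2 : ℝ) ^ (m + 3 + 1) = 1 / (16 * 2 ^ m) := by
    rw [pow_add, e1]
    norm_num
    ring
  rw [e2] at h1
  rw [e1] at h2
  constructor
  · rw [div_lt_iff₀ (by positivity)] at h1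
    nlinarith
  · rw [le_div_iff₀ (by positivity)] at h2
    nlinarith

/-- Construction of the chain of levels. Paper proof in the blueprint (notes/P028G_blueprint.md, Build):
`j q = Nat.log 2 q`, `k q` from `exists_kk`, rank `j q + k q`; the set of `q` of rank `r` has a
single pair `(j, k)` by monotonicity, `Q r = 2 ^ j`, `K r = 2 ^ (k - 3)`, `Z r` is the integer
cube root of `Q r`, `τ r` is the maximum of the divisor function on the level, `C9 = 32`.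
The mass `|S r| / K r ≤ 16 ∑_{S r} ψ`. -/
theorem exists_levels (ψ : ℕ → ℝ)
    (hmono : ∀ q r, 0 < ψ q → 0 < ψ r → q ≤ r → ψ r ≤ ψ q) (Bσ : ℝ)
    (hσ : ∀ q, 0 < ψ q → (∑ d ∈ q.divisors, (d : ℝ)) ≤ Bσ * q)
    (hsize : ∀ q, 0 < ψ q → (q.divisors.card : ℝ) ^ 2 * ψ q * (q : ℝ) ^ ((2 : ℝ) / 3) ≤ 1)
    (Bk : Finset ℕ) (hBk : ∀ q ∈ Bk, 27 ≤ q ∧ 0 < ψ q) :
    ∃ (I : Finset ℕ) (Q K Z : ℕ → ℕ) (τ : ℕ → ℝ) (S : ℕ → Finset ℕ),
      LevelData Bσ 32 I Q K Z τ S ∧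
      (∀ q ∈ Bk, ∃ r ∈ I, q ∈ S r) ∧
      (∀ r ∈ I, ∀ q ∈ S r, (K r : ℝ) * ψ q ≤ 1 / 8) ∧
      (∀ r ∈ I, ∀ s ∈ I, ∀ q, q ∈ S r → q ∈ S s → r = s) ∧
      ∑ r ∈ I, ((S r).card : ℝ) / K r ≤ 16 * ∑ q ∈ Bk, ψ q := by
  classical
  have hcard1 : ∀ q ∈ Bk, (1 : ℝ) ≤ (q.divisors.card : ℝ) := by
    intro q hq
    have hq0 : q ≠ 0 := by have := (hBk q hq).1; omega
    have : 0 < q.divisors.card := Finset.card_pos.2 ⟨1, Nat.one_mem_divisors.2 hq0⟩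
    exact_mod_cast this
  have hle : ∀ q ∈ Bk, ψ q ≤ 1 / 9 := by
    intro q hq
    obtain ⟨h27, hp⟩ := hBk q hq
    have h1 := hsize q hp
    have h2 := rpow_two_thirds_ge h27
    have h3 := hcard1 q hq
    have h4 : (1 : ℝ) ≤ (q.divisors.card : ℝ) ^ 2 := one_le_pow₀ h3
    have h5 : ψ q * 9 ≤ (q.divisors.card : ℝ) ^ 2 * ψ q * (q : ℝ) ^ ((2 : ℝ) / 3) := by
      have h6 : ψ q ≤ (q.divisors.card : ℝ) ^ 2 * ψ q := by nlinarith
      have h7 : 0 ≤ (q.divisors.card : ℝ) ^ 2 * ψ q := by positivity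
      nlinarith
    linarith
  have hk0 : ∀ q ∈ Bk, ∃ k : ℕ, (1 / 2 : ℝ) ^ (k + 1) < ψ q ∧ ψ q ≤ (1 / 2 : ℝ) ^ k := by
    intro q hq
    exact exists_kk (hBk q hq).2 (by have := hle q hq; linarith)
  choose! k hk using hk0
  have hk3 : ∀ q ∈ Bk, 3 ≤ k q := by
    intro q hq
    by_contra hc
    have hc' : k q + 1 ≤ 3 := by omega
    have h1 : (1 / 2 : ℝ) ^ 3 ≤ (1 / 2 : ℝ) ^ (k q + 1) :=
      pow_le_pow_of_le_one (by norm_num) (by norm_num) hc'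
    have h2 := (hk q hq).1
    have h3 := hle q hq
    norm_num at h1
    linarith
  have hkmono : ∀ q ∈ Bk, ∀ q' ∈ Bk, q ≤ q' → k q ≤ k q' := by
    intro q hq q' hq' hqq
    by_contra hc
    have hc' : k q' + 1 ≤ k q := by omega
    have h1 : (1 / 2 : ℝ) ^ (k q) ≤ (1 / 2 : ℝ) ^ (k q' + 1) :=
      pow_le_pow_of_le_one (by norm_num) (by norm_num) hc'
    have h2 := (hk q' hq').1
    have h3 := (hk q hq).2
    have h4 := hmono q q' (hBk q hq).2 (hBk q' hq').2 hqq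
    linarith
  obtain ⟨j, hj⟩ : ∃ j : ℕ → ℕ, ∀ q, j q = Nat.log 2 q := ⟨_, fun _ => rfl⟩
  have hjmono : ∀ q q', q ≤ q' → j q ≤ j q' := fun q q' h => by
    rw [hj, hj]; exact Nat.log_mono_right h
  obtain ⟨rank, hrank⟩ : ∃ rank : ℕ → ℕ, ∀ q, rank q = j q + k q := ⟨_, fun _ => rfl⟩
  have hchain : ∀ q ∈ Bk, ∀ q' ∈ Bk, rank q ≤ rank q' → j q ≤ j q' ∧ k q ≤ k q' := by
    intro q hq q' hq' hr
    rcases le_total q q' with h | h
    · exact ⟨hjmono _ _ h, hkmono _ hq _ hq' h⟩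
    · have h1 := hjmono _ _ h
      have h2 := hkmono _ hq' _ hq h
      rw [hrank, hrank] at hr
      omega
  obtain ⟨I, hI⟩ : ∃ I : Finset ℕ, I = Bk.image rank := ⟨_, rfl⟩
  obtain ⟨S, hS⟩ : ∃ S : ℕ → Finset ℕ, ∀ r q, q ∈ S r ↔ q ∈ Bk ∧ rank q = r :=
    ⟨fun r => Bk.filter (fun q => rank q = r), fun r q => Finset.mem_filter⟩
  have hIex : ∀ r ∈ I, ∃ q, q ∈ S r := by
    intro r hr
    rw [hI] at hr
    obtain ⟨q, hq, hqr⟩ := Finset.mem_image.1 hr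
    exact ⟨q, (hS r q).2 ⟨hq, hqr⟩⟩
  choose! rep hrepS using hIex
  have hrepB : ∀ r ∈ I, rep r ∈ Bk := fun r hr => ((hS r _).1 (hrepS r hr)).1
  have hreprank : ∀ r ∈ I, rank (rep r) = r := fun r hr => ((hS r _).1 (hrepS r hr)).2
  have hSrep : ∀ r ∈ I, ∀ q ∈ S r, j q = j (rep r) ∧ k q = k (rep r) := by
    intro r hr q hq
    obtain ⟨hqB, hqr⟩ := (hS r q).1 hq
    have h1 := hchain q hqB _ (hrepB r hr) (by rw [hqr, hreprank r hr])
    have h2 := hchain _ (hrepB r hr) q hqB (by rw [hqr, hreprank r hr])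
    omega
  obtain ⟨Q, hQ⟩ : ∃ Q : ℕ → ℕ, ∀ r, Q r = 2 ^ j (rep r) := ⟨_, fun _ => rfl⟩
  obtain ⟨K, hK⟩ : ∃ K : ℕ → ℕ, ∀ r, K r = 2 ^ (k (rep r) - 3) := ⟨_, fun _ => rfl⟩
  have hQpos : ∀ r, 0 < Q r := fun r => by rw [hQ]; positivity
  have hKpos : ∀ r, 0 < K r := fun r => by rw [hK]; positivity
  obtain ⟨Z, hZ1, hZ3, hZlt⟩ : ∃ Z : ℕ → ℕ, (∀ r, 1 ≤ Z r) ∧ (∀ r, Z r ^ 3 ≤ Q r) ∧
      (∀ r, Q r < (2 * Z r) ^ 3) := by
    choose Z hZ using fun r => exists_cube_root (Q r) (hQpos r)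
    exact ⟨Z, fun r => (hZ r).1, fun r => (hZ r).2.1, fun r => (hZ r).2.2⟩
  obtain ⟨τ, hτ⟩ : ∃ τ : ℕ → ℕ, ∀ r, τ r = (S r).sup (fun q => q.divisors.card) := ⟨_, fun _ => rfl⟩
  have hrange : ∀ r ∈ I, ∀ q ∈ S r, Q r ≤ q ∧ q < 2 * Q r := by
    intro r hr q hq
    obtain ⟨hqB, -⟩ := (hS r q).1 hq
    have hq0 : q ≠ 0 := by have := (hBk q hqB).1; omega
    have e := (hSrep r hr q hq).1
    have h1 : 2 ^ j q ≤ q := by rw [hj]; exact Nat.pow_log_le_self 2 hq0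
    have h2 : q < 2 ^ (j q + 1) := by rw [hj]; exact Nat.lt_pow_succ_log_self (by norm_num) q
    rw [hQ, ← e]
    constructor
    · exact h1
    · rw [pow_succ] at h2; omega
  have hchainI : ∀ r ∈ I, ∀ s ∈ I, r ≤ s → j (rep r) ≤ j (rep s) ∧ k (rep r) ≤ k (rep s) := by
    intro r hr s hs hrs
    exact hchain _ (hrepB r hr) _ (hrepB s hs) (by rw [hreprank r hr, hreprank s hs]; exact hrs)
  have hKrpos : ∀ r, (0 : ℝ) < (K r : ℝ) := fun r => by exact_mod_cast hKpos r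
  have hKpsi : ∀ r ∈ I, ∀ q ∈ S r, 1 < 16 * (K r : ℝ) * ψ q ∧ (K r : ℝ) * ψ q ≤ 1 / 8 := by
    intro r hr q hq
    obtain ⟨hqB, -⟩ := (hS r q).1 hq
    have e := (hSrep r hr q hq).2
    have h3 := hk3 q hqB
    obtain ⟨h1, h2⟩ := hk q hqB
    rw [hK, ← e]
    exact kk_step _ _ h3 h1 h2
  refine ⟨I, Q, K, Z, fun r => (τ r : ℝ), S, ?_, ?_, ?_, ?_, ?_⟩
  · refine ⟨fun r _ => hQpos r, fun r _ => hKpos r, fun r _ => hZ1 r, fun r _ => hZ3 r, hrange, ?_, ?_, ?_, ?_, ?_, ?_, ?_⟩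
    · intro r _ q hq
      exact hσ q (hBk q ((hS r q).1 hq).1).2
    · intro r _ q hq
      have : q.divisors.card ≤ (S r).sup (fun q => q.divisors.card) :=
        Finset.le_sup (f := fun q => q.divisors.card) hq
      rw [← hτ] at this
      exact_mod_cast this
    · intro r hr
      have hq := hrepS r hr
      have h1 : (rep r).divisors.card ≤ (S r).sup (fun q => q.divisors.card) :=
        Finset.le_sup (f := fun q => q.divisors.card) hq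
      rw [← hτ] at h1
      have h2 := hcard1 (rep r) (hrepB r hr)
      have h3 : (((rep r).divisors.card : ℕ) : ℝ) ≤ ((τ r : ℕ) : ℝ) := by exact_mod_cast h1
      linarith
    · -- the size condition
      intro r hr
      obtain ⟨q, hq, hqs⟩ := Finset.exists_mem_eq_sup (S r) ⟨_, hrepS r hr⟩ (fun q => q.divisors.card)
      obtain ⟨hqB, -⟩ := (hS r q).1 hq
      have hτe : ((τ r : ℕ) : ℝ) = (q.divisors.card : ℝ) := by
        rw [hτ, hqs]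
      show ((τ r : ℕ) : ℝ) ^ 2 * (Q r : ℝ) ≤ 32 * (Z r : ℝ) * (K r : ℝ)
      rw [hτe]
      obtain ⟨h27, hp⟩ := hBk q hqB
      exact size_step _ (ψ q) (Nat.cast_nonneg _) hp q (Q r) (Z r) (K r) (hQpos r)
        (hrange r hr q hq).1 (hZ1 r) (hZlt r) (hKpsi r hr q hq).1 (hsize q hp)
    · intro r hr s hs hrs
      rw [hQ, hQ]
      exact Nat.pow_le_pow_right (by norm_num) (hchainI r hr s hs hrs).1
    · intro r hr s hs hrs
      have h1 := (hchainI r hr s hs hrs).2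
      rw [hK, hK]
      exact Nat.pow_le_pow_right (by norm_num) (by omega)
    · intro r hr s hs hrs
      have h1 := hk3 _ (hrepB r hr)
      have h2 := hk3 _ (hrepB s hs)
      have h3 := hreprank r hr
      have h4 := hreprank s hs
      rw [hrank] at h3 h4
      have e : (s - r) + (j (rep r) + (k (rep r) - 3)) = j (rep s) + (k (rep s) - 3) := by omega
      have hfin : (2 : ℝ) ^ (s - r) * (((Q r : ℕ) : ℝ) * ((K r : ℕ) : ℝ)) = ((Q s : ℕ) : ℝ) * ((K s : ℕ) : ℝ) := by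
        rw [hQ, hK, hQ, hK]
        push_cast
        rw [← pow_add, ← pow_add, ← pow_add, e]
      exact hfin.le
  · intro q hq
    refine ⟨rank q, ?_, (hS _ q).2 ⟨hq, rfl⟩⟩
    rw [hI]
    exact Finset.mem_image_of_mem _ hq
  · intro r hr q hq
    exact (hKpsi r hr q hq).2
  · intro r _ s _ q hq hq'
    rw [← ((hS r q).1 hq).2, ((hS s q).1 hq').2]
  · have hfib : ∑ q ∈ Bk, ψ q = ∑ r ∈ I, ∑ q ∈ S r, ψ q := by
      have hS' : ∀ r, S r = Bk.filter (fun q => rank q = r) := by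
        intro r
        ext q
        rw [hS, Finset.mem_filter]
      simp_rw [hS']
      rw [hI]
      rw [Finset.sum_fiberwise_of_maps_to (g := rank) (fun q hq => Finset.mem_image_of_mem _ hq)]
    rw [hfib, Finset.mul_sum]
    apply Finset.sum_le_sum
    intro r hr
    rw [Finset.mul_sum, div_eq_mul_inv, ← nsmul_eq_mul, ← Finset.sum_const]
    apply Finset.sum_le_sum
    intro q hq
    obtain ⟨hKp, -⟩ := hKpsi r hr q hq
    have hKR := hKrpos r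
    rw [inv_le_iff_one_le_mul₀ hKR]
    nlinarith

end Vale.Agent.Lib.P028G
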