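import Mathlib

/-! Definitions for the large sieve second moment bound for badly approximable shifts. -/

open scoped BigOperators ComplexConjugate Real

namespace Vale.Agent.Lib.P028G

noncomputable section

/-- Additive character. -/
def ee (θ : ℝ) : ℂ := Complex.exp (2 * π * θ * Complex.I)

/-- Distance to the nearest integer. -/
def nrm (x : ℝ) : ℝ := |x - round x|

/-- Badly approximable with constant `κ`. -/
def Bad (γ κ : ℝ) : Prop := ∀ n : ℕ, 0 < n → ∀ a : ℤ, κ / n ≤ |(n : ℝ) * γ - a|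

/-- Tent function. -/
def tn (K u : ℝ) : ℝ := max 0 (1 - u / K)

/-- Hinge function. -/
def hinge (x : ℝ) : ℝ := max x 0

/-- Trapezoid weight: one on `[Q, 2Q]`, zero off `(0, 3Q)` (for `q ≥ 0`). -/
def wt (Q q : ℝ) : ℝ := hinge (q / Q) - hinge (q / Q - 1) - hinge (q / Q - 2) + hinge (q / Q - 3)

/-- The vector attached to a rational `ρ`. -/
def vec (γ K : ℝ) (ρ : ℚ) (q : ℕ) : ℂ :=
  if ρ.den ∣ q then ((tn K ((ρ : ℝ) * q) : ℝ) : ℂ) * ee ((ρ : ℝ) * q * γ) else 0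

/-- Gram matrix of the vectors. -/
def gram (γ K : ℝ) (Q : ℕ) (ρ ρ' : ℚ) : ℂ :=
  ∑ q ∈ Finset.range (3 * Q + 1), ((wt Q q : ℝ) : ℂ) * (vec γ K ρ q * conj (vec γ K ρ' q))

/-- The sum attached to `ρ` over a set of moduli. -/
def coef (γ K : ℝ) (S : Finset ℕ) (ρ : ℚ) : ℂ := ∑ q ∈ S, vec γ K ρ q

/-- Common denominator. -/
def ell (ρ ρ' : ℚ) : ℕ := Nat.lcm ρ.den ρ'.den

/-- Numerator of the difference over the common denominator. -/
def nn (ρ ρ' : ℚ) : ℤ :=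
  ρ.num * ((ell ρ ρ' / ρ.den : ℕ) : ℤ) - ρ'.num * ((ell ρ ρ' / ρ'.den : ℕ) : ℤ)

/-- The Fejer kernel. -/
def fej (K : ℕ) (θ : ℝ) : ℝ :=
  1 + 2 * ∑ n ∈ Finset.Ico 1 K, tn K n * Real.cos (2 * π * n * θ)

theorem ee_norm (θ : ℝ) : ‖ee θ‖ = 1 := by
  unfold ee
  have : (2 * (π : ℂ) * θ * Complex.I) = ((2 * π * θ : ℝ) : ℂ) * Complex.I := by push_cast; ring
  rw [this, Complex.norm_exp_ofReal_mul_I]

theorem ee_add (a b : ℝ) : ee (a + b) = ee a * ee b := by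
  unfold ee
  rw [← Complex.exp_add]
  congr 1
  push_cast
  ring

theorem ee_conj (a : ℝ) : conj (ee a) = ee (-a) := by
  unfold ee
  have h1 : (2 * (π : ℂ) * a * Complex.I) = ((2 * π * a : ℝ) : ℂ) * Complex.I := by push_cast; ring
  have h2 : (2 * (π : ℂ) * ((-a : ℝ) : ℂ) * Complex.I) = -(((2 * π * a : ℝ) : ℂ) * Complex.I) := by
    push_cast; ring
  rw [h1, h2, ← Complex.exp_conj, map_mul, Complex.conj_ofReal, Complex.conj_I]
  congr 1
  ring

theorem tn_nonneg (K u : ℝ) : 0 ≤ tn K u := le_max_left _ _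

theorem tn_le_one {K u : ℝ} (hK : 0 < K) (hu : 0 ≤ u) : tn K u ≤ 1 := by
  unfold tn
  apply max_le zero_le_one
  have : 0 ≤ u / K := div_nonneg hu hK.le
  linarith

theorem tn_eq_zero {K u : ℝ} (hK : 0 < K) (hu : K ≤ u) : tn K u = 0 := by
  unfold tn
  apply max_eq_left
  have : 1 ≤ u / K := by rw [le_div_iff₀ hK]; linarith
  linarith

theorem wt_nonneg {Q q : ℝ} (hQ : 0 < Q) (hq : 0 ≤ q) : 0 ≤ wt Q q := by
  unfold wt hinge
  have hu : 0 ≤ q / Q := div_nonneg hq hQ.le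
  set u := q / Q
  rcases le_total u 1 with h1 | h1 <;> rcases le_total u 2 with h2 | h2 <;>
    rcases le_total u 3 with h3 | h3 <;>
    simp only [max_eq_left, max_eq_right, sub_nonneg, sub_nonpos, h1, h2, h3, hu] <;> linarith

theorem wt_le_one {Q q : ℝ} (hQ : 0 < Q) (hq : 0 ≤ q) : wt Q q ≤ 1 := by
  unfold wt hinge
  have hu : 0 ≤ q / Q := div_nonneg hq hQ.le
  set u := q / Q
  rcases le_total u 1 with h1 | h1 <;> rcases le_total u 2 with h2 | h2 <;>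
    rcases le_total u 3 with h3 | h3 <;>
    simp only [max_eq_left, max_eq_right, sub_nonneg, sub_nonpos, h1, h2, h3, hu] <;> linarith

theorem wt_eq_one {Q q : ℝ} (hQ : 0 < Q) (h1 : Q ≤ q) (h2 : q ≤ 2 * Q) : wt Q q = 1 := by
  unfold wt hinge
  have hu1 : 1 ≤ q / Q := by rw [le_div_iff₀ hQ]; linarith
  have hu2 : q / Q ≤ 2 := by rw [div_le_iff₀ hQ]; linarith
  set u := q / Q
  rw [max_eq_left (by linarith), max_eq_left (by linarith), max_eq_right (by linarith),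
    max_eq_right (by linarith)]
  ring

theorem wt_eq_zero {Q q : ℝ} (hQ : 0 < Q) (h : 3 * Q ≤ q) : wt Q q = 0 := by
  unfold wt hinge
  have hu : 3 ≤ q / Q := by rw [le_div_iff₀ hQ]; linarith
  set u := q / Q
  rw [max_eq_left (by linarith), max_eq_left (by linarith), max_eq_left (by linarith),
    max_eq_left (by linarith)]
  ring

theorem wt_zero (Q : ℝ) : wt Q 0 = 0 := by
  unfold wt hinge
  norm_num

theorem ell_pos (ρ ρ' : ℚ) : 0 < ell ρ ρ' := Nat.lcm_pos ρ.pos ρ'.pos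

theorem nn_cast (ρ ρ' : ℚ) : ((nn ρ ρ' : ℤ) : ℝ) = ((ρ : ℝ) - ρ') * (ell ρ ρ' : ℝ) := by
  have h1 : ρ.den ∣ ell ρ ρ' := Nat.dvd_lcm_left _ _
  have h2 : ρ'.den ∣ ell ρ ρ' := Nat.dvd_lcm_right _ _
  have hd1 : (ρ.den : ℝ) ≠ 0 := by exact_mod_cast ρ.den_ne_zero
  have hd2 : (ρ'.den : ℝ) ≠ 0 := by exact_mod_cast ρ'.den_ne_zero
  have e1 : (ρ : ℝ) = (ρ.num : ℝ) / ρ.den := by
    exact_mod_cast (Rat.num_div_den ρ).symm
  have e2 : (ρ' : ℝ) = (ρ'.num : ℝ) / ρ'.den := by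
    exact_mod_cast (Rat.num_div_den ρ').symm
  unfold nn
  rw [Int.cast_sub, Int.cast_mul, Int.cast_mul, Int.cast_natCast, Int.cast_natCast,
    Nat.cast_div h1 hd1, Nat.cast_div h2 hd2, e1, e2]
  field_simp

theorem nrm_neg (x : ℝ) : nrm (-x) = nrm x := by
  unfold nrm
  apply le_antisymm
  · have := round_le (-x) (-round x)
    push_cast at this
    rwa [show -x - -(round x : ℝ) = -(x - round x) by ring, abs_neg] at this
  · have := round_le x (-round (-x))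
    push_cast at this
    rwa [show x - -(round (-x) : ℝ) = -(-x - round (-x)) by ring, abs_neg] at this

theorem Bad.nrm_ge {γ κ : ℝ} (h : Bad γ κ) (n : ℕ) (hn : 0 < n) : κ / n ≤ nrm ((n : ℝ) * γ) :=
  h n hn _

end

end Vale.Agent.Lib.P028G
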