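import Vale.Agent.Lib.P028G.Defs

/-! The duality principle for the large sieve, in the form of a Schur test on the Gram matrix. -/

open scoped BigOperators ComplexConjugate

namespace Vale.Agent.Lib.P028G

/-- Duality: the sums over `S` are controlled by the row sums of the weighted Gram matrix. -/
theorem dual_ls {ι : Type*} (Λ : Finset ι) (X S : Finset ℕ) (W : ℕ → ℝ) (hW : ∀ q, 0 ≤ W q)
    (v : ι → ℕ → ℂ) (hSX : S ⊆ X) (hS1 : ∀ q ∈ S, 1 ≤ W q) (R : ℝ) (hR : 0 ≤ R)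
    (hrow : ∀ a ∈ Λ, ∑ b ∈ Λ, ‖∑ q ∈ X, ((W q : ℝ) : ℂ) * (v a q * conj (v b q))‖ ≤ R) :
    ∑ a ∈ Λ, ‖∑ q ∈ S, v a q‖ ^ 2 ≤ (S.card : ℝ) * R := by
  classical
  set a : ι → ℂ := fun i => ∑ q ∈ S, v i q with ha
  set u : ℕ → ℂ := fun q => ∑ i ∈ Λ, conj (a i) * v i q with hu
  set A : ℝ := ∑ i ∈ Λ, ‖a i‖ ^ 2 with hAdef
  have hA0 : 0 ≤ A := Finset.sum_nonneg fun _ _ => by positivity
  set G : ι → ι → ℂ := fun i j => ∑ q ∈ X, ((W q : ℝ) : ℂ) * (v i q * conj (v j q)) with hG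
  have hGsymm : ∀ i j, ‖G i j‖ = ‖G j i‖ := by
    intro i j
    have hc : G j i = conj (G i j) := by
      simp only [hG, map_sum, map_mul, Complex.conj_conj, Complex.conj_ofReal]
      refine Finset.sum_congr rfl fun q _ => by ring
    rw [hc, Complex.norm_conj]
  have hAu : ((A : ℝ) : ℂ) = ∑ q ∈ S, u q := by
    have h1 : ∀ i, ((‖a i‖ ^ 2 : ℝ) : ℂ) = ∑ q ∈ S, conj (a i) * v i q := by
      intro i
      rw [← Finset.mul_sum]
      push_cast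
      rw [← Complex.conj_mul']
    simp only [hAdef, hu]
    rw [Finset.sum_comm]
    push_cast at h1 ⊢
    exact Finset.sum_congr rfl fun i _ => h1 i
  have h1 : A ≤ ∑ q ∈ S, ‖u q‖ := by
    have hn : ‖((A : ℝ) : ℂ)‖ = A := by rw [Complex.norm_real, Real.norm_of_nonneg hA0]
    rw [← hn, hAu]
    exact norm_sum_le _ _
  have h2 : (∑ q ∈ S, ‖u q‖) ^ 2 ≤ (S.card : ℝ) * ∑ q ∈ S, ‖u q‖ ^ 2 :=
    sq_sum_le_card_mul_sum_sq
  have h3 : ∑ q ∈ S, ‖u q‖ ^ 2 ≤ ∑ q ∈ X, W q * ‖u q‖ ^ 2 := by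
    calc ∑ q ∈ S, ‖u q‖ ^ 2 ≤ ∑ q ∈ S, W q * ‖u q‖ ^ 2 :=
          Finset.sum_le_sum fun q hq => by
            have := hS1 q hq
            nlinarith [sq_nonneg ‖u q‖]
      _ ≤ _ := Finset.sum_le_sum_of_subset_of_nonneg hSX
          fun q _ _ => mul_nonneg (hW q) (sq_nonneg _)
  have h4 : ∑ q ∈ X, W q * ‖u q‖ ^ 2 ≤ R * A := by
    have hsq : ∀ q, ((‖u q‖ ^ 2 : ℝ) : ℂ) =
        ∑ i ∈ Λ, ∑ j ∈ Λ, conj (a i) * a j * (v i q * conj (v j q)) := by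
      intro q
      push_cast
      rw [← Complex.mul_conj']
      simp only [hu, map_sum, map_mul, Complex.conj_conj]
      rw [Finset.sum_mul_sum]
      refine Finset.sum_congr rfl fun i _ => Finset.sum_congr rfl fun j _ => by ring
    have hexp : ((∑ q ∈ X, W q * ‖u q‖ ^ 2 : ℝ) : ℂ) =
        ∑ i ∈ Λ, ∑ j ∈ Λ, conj (a i) * a j * G i j := by
      rw [Complex.ofReal_sum]
      simp only [Complex.ofReal_mul, hsq, hG, Finset.mul_sum]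
      rw [Finset.sum_comm]
      refine Finset.sum_congr rfl fun i _ => ?_
      rw [Finset.sum_comm]
      refine Finset.sum_congr rfl fun j _ => Finset.sum_congr rfl fun q _ => by ring
    have hB0 : 0 ≤ ∑ q ∈ X, W q * ‖u q‖ ^ 2 :=
      Finset.sum_nonneg fun q _ => mul_nonneg (hW q) (sq_nonneg _)
    have hn : ‖((∑ q ∈ X, W q * ‖u q‖ ^ 2 : ℝ) : ℂ)‖ = ∑ q ∈ X, W q * ‖u q‖ ^ 2 := by
      rw [Complex.norm_real, Real.norm_of_nonneg hB0]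
    rw [← hn, hexp]
    have hterm : ∀ i j, ‖conj (a i) * a j * G i j‖ ≤
        (‖a i‖ ^ 2 * ‖G i j‖ + ‖a j‖ ^ 2 * ‖G j i‖) / 2 := by
      intro i j
      rw [norm_mul, norm_mul, Complex.norm_conj, hGsymm j i]
      have hg := norm_nonneg (G i j)
      nlinarith [mul_nonneg hg (sq_nonneg (‖a i‖ - ‖a j‖))]
    calc ‖∑ i ∈ Λ, ∑ j ∈ Λ, conj (a i) * a j * G i j‖
        ≤ ∑ i ∈ Λ, ∑ j ∈ Λ, ‖conj (a i) * a j * G i j‖ :=
          (norm_sum_le _ _).trans (Finset.sum_le_sum fun i _ => norm_sum_le _ _)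
      _ ≤ ∑ i ∈ Λ, ∑ j ∈ Λ, (‖a i‖ ^ 2 * ‖G i j‖ + ‖a j‖ ^ 2 * ‖G j i‖) / 2 :=
          Finset.sum_le_sum fun i _ => Finset.sum_le_sum fun j _ => hterm i j
      _ = ∑ i ∈ Λ, ‖a i‖ ^ 2 * ∑ j ∈ Λ, ‖G i j‖ := by
          have e : ∑ i ∈ Λ, ∑ j ∈ Λ, ‖a j‖ ^ 2 * ‖G j i‖ = ∑ i ∈ Λ, ∑ j ∈ Λ, ‖a i‖ ^ 2 * ‖G i j‖ :=
            Finset.sum_comm
          simp only [add_div, Finset.sum_add_distrib, ← Finset.sum_div, e, Finset.mul_sum]
          ring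
      _ ≤ ∑ i ∈ Λ, ‖a i‖ ^ 2 * R :=
          Finset.sum_le_sum fun i hi => mul_le_mul_of_nonneg_left (hrow i hi) (by positivity)
      _ = R * A := by
          rw [hAdef, Finset.mul_sum]
          exact Finset.sum_congr rfl fun i _ => mul_comm _ _
  have h5 : A ^ 2 ≤ (S.card : ℝ) * R * A := by
    have hc : (0 : ℝ) ≤ S.card := Nat.cast_nonneg _
    calc A ^ 2 ≤ (∑ q ∈ S, ‖u q‖) ^ 2 := by
          exact pow_le_pow_left₀ hA0 h1 2
      _ ≤ (S.card : ℝ) * ∑ q ∈ S, ‖u q‖ ^ 2 := h2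
      _ ≤ (S.card : ℝ) * (R * A) := mul_le_mul_of_nonneg_left (h3.trans h4) hc
      _ = (S.card : ℝ) * R * A := by ring
  rcases hA0.eq_or_lt with h0 | h0
  · change A ≤ _
    rw [← h0]
    exact mul_nonneg (Nat.cast_nonneg _) hR
  · change A ≤ _
    have : A * A ≤ ((S.card : ℝ) * R) * A := by nlinarith
    exact le_of_mul_le_mul_right this h0

end Vale.Agent.Lib.P028G
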