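import Vale.Agent.Lib.P028G.PerDen
import Vale.Agent.Lib.P028G.Dual

/-! The two families of rationals: small denominators and one denominator at a time. -/

open scoped BigOperators ComplexConjugate
open Finset

namespace Vale.Agent.Lib.P028G

/-- The dual inequality specialised to the Gram matrix. -/
theorem coef_dual (γ K : ℝ) (Q : ℕ) (hQ : 0 < Q) (S : Finset ℕ) (hS : ∀ q ∈ S, Q ≤ q ∧ q < 2 * Q)
    (Λ : Finset ℚ) (R : ℝ) (hR : 0 ≤ R)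
    (hrow : ∀ ρ ∈ Λ, ∑ ρ' ∈ Λ, ‖gram γ K Q ρ ρ'‖ ≤ R) :
    ∑ ρ ∈ Λ, ‖coef γ K S ρ‖ ^ 2 ≤ (S.card : ℝ) * R := by
  have hQ' : (0 : ℝ) < Q := by exact_mod_cast hQ
  refine dual_ls Λ (range (3 * Q + 1)) S (fun q => wt Q q)
    (fun q => wt_nonneg hQ' (Nat.cast_nonneg q)) (vec γ K) ?_ ?_ R hR ?_
  · intro q hq
    have := (hS q hq).2
    exact mem_range.2 (by omega)
  · intro q hq
    have h := hS q hq
    have h1 : (Q : ℝ) ≤ q := by exact_mod_cast h.1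
    have h2 : (q : ℝ) ≤ 2 * Q := by exact_mod_cast h.2.le
    exact (wt_eq_one hQ' h1 h2).ge
  · intro a ha
    exact hrow a ha

/-- Small denominators. Row sum: diagonal at most `3 Q y`, off diagonal by `per_den` for each
`d' ≤ Z`, where `lcm(d,d') ≤ Z d'` and `∑_{d' ≤ Z} d' ≤ Z²`, `Z³ ≤ Q`. -/
theorem fam_A (γ κ K y : ℝ) (Q Z : ℕ) (hQ : 0 < Q) (hκ : 0 < κ) (hκ1 : κ ≤ 1) (hbad : Bad γ κ)
    (hK : 0 < K) (hy : 0 < y) (hyK : y ≤ K / Q) (hZ : Z ^ 3 ≤ Q) (S : Finset ℕ)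
    (hS : ∀ q ∈ S, Q ≤ q ∧ q < 2 * Q) (Λ : Finset ℚ)
    (hΛ : ∀ ρ ∈ Λ, 0 < ρ ∧ (ρ : ℝ) < y ∧ ρ.den ≤ Z) :
    ∑ ρ ∈ Λ, ‖coef γ K S ρ‖ ^ 2 ≤ (S.card : ℝ) * (259 * y * Q / κ) := by
  classical
  have hQ' : (0 : ℝ) < Q := by exact_mod_cast hQ
  have hR : 0 ≤ 259 * y * (Q : ℝ) / κ := by positivity
  refine coef_dual γ K Q hQ S hS Λ _ hR ?_
  intro ρ hρ
  obtain ⟨hρ0, hρy, hρZ⟩ := hΛ ρ hρ
  have hsplit : ∑ ρ' ∈ Λ, ‖gram γ K Q ρ ρ'‖ =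
      ‖gram γ K Q ρ ρ‖ + ∑ ρ' ∈ Λ.filter (· ≠ ρ), ‖gram γ K Q ρ ρ'‖ := by
    rw [Finset.filter_ne']
    exact (Finset.add_sum_erase Λ (fun ρ' => ‖gram γ K Q ρ ρ'‖) hρ).symm
  -- the diagonal
  have hdiag : ‖gram γ K Q ρ ρ‖ ≤ 3 * (Q : ℝ) * y := by
    refine (gram_diag γ K y Q hQ hK ρ hρ0 hρy).trans ?_
    exact mul_le_mul_of_nonneg_left (min_le_left _ _) (by positivity)
  -- the off diagonal, one denominator at a time
  have hfib : ∑ ρ' ∈ Λ.filter (· ≠ ρ), ‖gram γ K Q ρ ρ'‖ =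
      ∑ d' ∈ Finset.Icc 1 Z, ∑ ρ' ∈ (Λ.filter (· ≠ ρ)).filter (fun r => r.den = d'),
        ‖gram γ K Q ρ ρ'‖ := by
    refine (Finset.sum_fiberwise_of_maps_to (s := Λ.filter (· ≠ ρ)) (t := Finset.Icc 1 Z)
      (g := fun r : ℚ => r.den) ?_ _).symm
    intro r hr
    have hr' := (Finset.mem_filter.1 hr).1
    exact Finset.mem_Icc.2 ⟨r.den_pos, (hΛ r hr').2.2⟩
  have hZ' : (0 : ℝ) ≤ Z := Nat.cast_nonneg _
  have hone : ∀ d' ∈ Finset.Icc 1 Z,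
      ∑ ρ' ∈ (Λ.filter (· ≠ ρ)).filter (fun r => r.den = d'), ‖gram γ K Q ρ ρ'‖ ≤
        256 * y * ((Z : ℝ) * Z) / κ := by
    intro d' hd'
    have hd'Z : d' ≤ Z := (Finset.mem_Icc.1 hd').2
    have hset : (Λ.filter (· ≠ ρ)).filter (fun r => r.den = d') =
        (Λ.filter (fun r => r.den = d')).filter (· ≠ ρ) := by
      rw [Finset.filter_comm]
    rw [hset]
    have h1 := per_den γ κ K y Q hQ hκ hbad hK hy hyK ρ hρ0 hρy d'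
      (Λ.filter (fun r => r.den = d'))
      (fun r hr => by
        obtain ⟨h1, h2⟩ := Finset.mem_filter.1 hr
        exact ⟨(hΛ r h1).1, (hΛ r h1).2.1, h2⟩)
    refine h1.trans ?_
    have hl : ((Nat.lcm ρ.den d' : ℕ) : ℝ) ≤ (Z : ℝ) * Z := by
      have hl1 : Nat.lcm ρ.den d' ≤ ρ.den * d' := by
        refine Nat.le_of_dvd (Nat.mul_pos ρ.den_pos (Finset.mem_Icc.1 hd').1) ?_
        exact Nat.lcm_dvd_mul _ _
      have hl2 : ρ.den * d' ≤ Z * Z := Nat.mul_le_mul hρZ hd'Z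
      exact_mod_cast hl1.trans hl2
    have hy256 : 0 ≤ 256 * y := by positivity
    have := mul_le_mul_of_nonneg_left hl hy256
    exact div_le_div_of_nonneg_right this hκ.le
  have hoff : ∑ ρ' ∈ Λ.filter (· ≠ ρ), ‖gram γ K Q ρ ρ'‖ ≤ 256 * y * Q / κ := by
    rw [hfib]
    have h1 := Finset.sum_le_card_nsmul (Finset.Icc 1 Z) _ _ hone
    refine h1.trans ?_
    rw [Nat.card_Icc, Nat.add_sub_cancel, nsmul_eq_mul]
    have hZQ : (Z : ℝ) ^ 3 ≤ Q := by exact_mod_cast hZ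
    have e : (Z : ℝ) * (256 * y * ((Z : ℝ) * Z) / κ) = 256 * y * ((Z : ℝ) ^ 3) / κ := by ring
    rw [e]
    have hy256 : 0 ≤ 256 * y := by positivity
    exact div_le_div_of_nonneg_right (mul_le_mul_of_nonneg_left hZQ hy256) hκ.le
  have hdiag' : 3 * (Q : ℝ) * y ≤ 3 * y * Q / κ := by
    have h0 : 0 ≤ 3 * y * (Q : ℝ) := by positivity
    rw [le_div_iff₀ hκ]
    nlinarith [mul_le_mul_of_nonneg_left hκ1 h0]
  rw [hsplit]
  have e : 259 * y * (Q : ℝ) / κ = 3 * y * Q / κ + 256 * y * Q / κ := by ring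
  rw [e]
  linarith

/-- One denominator. Only multiples of `d` contribute to `coef`; row sum `3 Q / d + 256 y d / κ`. -/
theorem fam_line (γ κ K y : ℝ) (Q d : ℕ) (hQ : 0 < Q) (hκ : 0 < κ) (hbad : Bad γ κ)
    (hK : 0 < K) (hy : 0 < y) (hyK : y ≤ K / Q) (S : Finset ℕ)
    (hS : ∀ q ∈ S, Q ≤ q ∧ q < 2 * Q) (Λ : Finset ℚ)
    (hΛ : ∀ ρ ∈ Λ, 0 < ρ ∧ (ρ : ℝ) < y ∧ ρ.den = d) :
    ∑ ρ ∈ Λ, ‖coef γ K S ρ‖ ^ 2 ≤
      ((S.filter (d ∣ ·)).card : ℝ) * (3 * (Q : ℝ) * min y (1 / (d : ℝ)) + 256 * y * d / κ) := by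
  classical
  have hcoef : ∀ ρ ∈ Λ, coef γ K S ρ = coef γ K (S.filter (d ∣ ·)) ρ := by
    intro ρ hρ
    unfold coef
    rw [sum_filter]
    refine sum_congr rfl fun q _ => ?_
    by_cases h : d ∣ q
    · rw [if_pos h]
    · rw [if_neg h]
      unfold vec
      rw [if_neg (by rw [(hΛ ρ hρ).2.2]; exact h)]
  have hmin : 0 ≤ min y (1 / (d : ℝ)) := le_min hy.le (by positivity)
  have hR : 0 ≤ 3 * (Q : ℝ) * min y (1 / (d : ℝ)) + 256 * y * d / κ := by positivity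
  have h := coef_dual γ K Q hQ (S.filter (d ∣ ·))
    (fun q hq => hS q (mem_filter.1 hq).1) Λ _ hR ?_
  · rw [sum_congr rfl fun ρ hρ => by rw [hcoef ρ hρ]]
    exact h
  · intro ρ hρ
    obtain ⟨hρ0, hρy, hρd⟩ := hΛ ρ hρ
    rw [← sum_filter_add_sum_filter_not Λ (fun ρ' => ρ' = ρ)]
    have hfil : Λ.filter (fun ρ' => ρ' = ρ) = {ρ} := by
      ext x
      simp only [mem_filter, mem_singleton]
      constructor
      · exact fun h => h.2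
      · rintro rfl
        exact ⟨hρ, rfl⟩
    rw [hfil, sum_singleton]
    have h1 := gram_diag γ K y Q hQ hK ρ hρ0 hρy
    have h2 := per_den γ κ K y Q hQ hκ hbad hK hy hyK ρ hρ0 hρy d Λ hΛ
    rw [hρd] at h1 h2
    rw [Nat.lcm_self] at h2
    have h3 : ∑ ρ' ∈ Λ.filter (fun ρ' => ¬ ρ' = ρ), ‖gram γ K Q ρ ρ'‖
        = ∑ ρ' ∈ Λ.filter (· ≠ ρ), ‖gram γ K Q ρ ρ'‖ := rfl
    rw [h3]
    exact add_le_add h1 h2

/-- Large denominators: sum `fam_line` over `d`, exchange with the sum over `q ∈ S`, and use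
`∑_{d ∣ q} d ≤ B q ≤ 2 B Q`, and `τ(q) ≤ τ` with `min y (1/d) ≤ min y (1/Z)` for `d > Z`. -/
theorem fam_B (γ κ K y B τ : ℝ) (Q Z : ℕ) (hQ : 0 < Q) (hZ1 : 1 ≤ Z) (hκ : 0 < κ) (hbad : Bad γ κ)
    (hK : 0 < K) (hy : 0 < y) (hyK : y ≤ K / Q) (hB : 0 ≤ B) (hτ0 : 0 ≤ τ) (S : Finset ℕ)
    (hS : ∀ q ∈ S, Q ≤ q ∧ q < 2 * Q)
    (hσ : ∀ q ∈ S, (∑ d ∈ q.divisors, (d : ℝ)) ≤ B * q)
    (hτ : ∀ q ∈ S, (q.divisors.card : ℝ) ≤ τ) (Λ : Finset ℚ)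
    (hΛ : ∀ ρ ∈ Λ, 0 < ρ ∧ (ρ : ℝ) < y ∧ Z < ρ.den) :
    ∑ ρ ∈ Λ, ‖coef γ K S ρ‖ ^ 2 ≤
      (S.card : ℝ) * (3 * τ * Q * min y (1 / (Z : ℝ)) + 512 * y * B * Q / κ) := by
  classical
  set m : ℝ := min y (1 / (Z : ℝ)) with hm
  have hZ0 : (0 : ℝ) < Z := by exact_mod_cast hZ1
  have hm0 : 0 ≤ m := le_min hy.le (by positivity)
  have hQ' : (0 : ℝ) < Q := by exact_mod_cast hQ
  set D : Finset ℕ := Λ.image (fun ρ => ρ.den) with hD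
  have hsplit : ∑ ρ ∈ Λ, ‖coef γ K S ρ‖ ^ 2 =
      ∑ d ∈ D, ∑ ρ ∈ Λ.filter (fun ρ => ρ.den = d), ‖coef γ K S ρ‖ ^ 2 :=
    (Finset.sum_fiberwise_of_maps_to (fun ρ hρ => mem_image_of_mem _ hρ) _).symm
  have hDZ : ∀ d ∈ D, Z < d := by
    intro d hd
    obtain ⟨ρ, hρ, rfl⟩ := mem_image.1 hd
    exact (hΛ ρ hρ).2.2
  have hline : ∀ d ∈ D, ∑ ρ ∈ Λ.filter (fun ρ => ρ.den = d), ‖coef γ K S ρ‖ ^ 2 ≤
      ((S.filter (d ∣ ·)).card : ℝ) * (3 * (Q : ℝ) * m + 256 * y * d / κ) := by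
    intro d hd
    have h := fam_line γ κ K y Q d hQ hκ hbad hK hy hyK S hS (Λ.filter (fun ρ => ρ.den = d))
      (fun ρ hρ => by
        obtain ⟨h1, h2⟩ := mem_filter.1 hρ
        exact ⟨(hΛ ρ h1).1, (hΛ ρ h1).2.1, h2⟩)
    refine h.trans (mul_le_mul_of_nonneg_left ?_ (Nat.cast_nonneg _))
    have hd' : (Z : ℝ) ≤ d := by exact_mod_cast (hDZ d hd).le
    have h1 : min y (1 / (d : ℝ)) ≤ m := by
      refine min_le_min le_rfl ?_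
      exact one_div_le_one_div_of_le hZ0 hd'
    have h2 : 3 * (Q : ℝ) * min y (1 / (d : ℝ)) ≤ 3 * (Q : ℝ) * m :=
      mul_le_mul_of_nonneg_left h1 (by positivity)
    linarith
  rw [hsplit]
  calc ∑ d ∈ D, ∑ ρ ∈ Λ.filter (fun ρ => ρ.den = d), ‖coef γ K S ρ‖ ^ 2
      ≤ ∑ d ∈ D, ((S.filter (d ∣ ·)).card : ℝ) * (3 * (Q : ℝ) * m + 256 * y * d / κ) :=
        Finset.sum_le_sum hline
    _ = ∑ d ∈ D, ∑ q ∈ S, if d ∣ q then (3 * (Q : ℝ) * m + 256 * y * d / κ) else 0 := by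
        refine Finset.sum_congr rfl fun d _ => ?_
        rw [← Finset.sum_filter, Finset.sum_const, nsmul_eq_mul]
    _ = ∑ q ∈ S, ∑ d ∈ D, if d ∣ q then (3 * (Q : ℝ) * m + 256 * y * d / κ) else 0 :=
        Finset.sum_comm
    _ ≤ ∑ _q ∈ S, (3 * τ * Q * m + 512 * y * B * Q / κ) := by
        refine Finset.sum_le_sum fun q hq => ?_
        obtain ⟨hq1, hq2⟩ := hS q hq
        have hq0 : q ≠ 0 := by omega
        have hterm : ∀ d : ℕ, 0 ≤ 3 * (Q : ℝ) * m + 256 * y * d / κ := fun d => by positivity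
        rw [← Finset.sum_filter]
        have hsub : D.filter (· ∣ q) ⊆ q.divisors := by
          intro d hd
          exact Nat.mem_divisors.2 ⟨(mem_filter.1 hd).2, hq0⟩
        calc ∑ d ∈ D.filter (· ∣ q), (3 * (Q : ℝ) * m + 256 * y * d / κ)
            ≤ ∑ d ∈ q.divisors, (3 * (Q : ℝ) * m + 256 * y * d / κ) :=
              Finset.sum_le_sum_of_subset_of_nonneg hsub fun d _ _ => hterm d
          _ = (q.divisors.card : ℝ) * (3 * (Q : ℝ) * m) +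
                (256 * y / κ) * ∑ d ∈ q.divisors, (d : ℝ) := by
              rw [Finset.sum_add_distrib, Finset.sum_const, nsmul_eq_mul, Finset.mul_sum]
              congr 1
              exact Finset.sum_congr rfl fun d _ => by ring
          _ ≤ τ * (3 * (Q : ℝ) * m) + (256 * y / κ) * (B * (2 * Q)) := by
              refine add_le_add (mul_le_mul_of_nonneg_right (hτ q hq) (by positivity)) ?_
              refine mul_le_mul_of_nonneg_left ((hσ q hq).trans ?_) (by positivity)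
              refine mul_le_mul_of_nonneg_left ?_ hB
              have : (q : ℝ) ≤ ((2 * Q : ℕ) : ℝ) := by exact_mod_cast hq2.le
              simpa using this
          _ = 3 * τ * Q * m + 512 * y * B * Q / κ := by ring
    _ = (S.card : ℝ) * (3 * τ * Q * m + 512 * y * B * Q / κ) := by
        rw [Finset.sum_const, nsmul_eq_mul]

/-- The large sieve inequality. -/
theorem ls_main (γ κ K y B τ : ℝ) (Q Z : ℕ) (hQ : 0 < Q) (hZ1 : 1 ≤ Z) (hκ : 0 < κ) (hκ1 : κ ≤ 1)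
    (hbad : Bad γ κ) (hK : 0 < K) (hy : 0 < y) (hyK : y ≤ K / Q) (hB : 0 ≤ B) (hτ0 : 0 ≤ τ)
    (hZ : Z ^ 3 ≤ Q) (S : Finset ℕ) (hS : ∀ q ∈ S, Q ≤ q ∧ q < 2 * Q)
    (hσ : ∀ q ∈ S, (∑ d ∈ q.divisors, (d : ℝ)) ≤ B * q)
    (hτ : ∀ q ∈ S, (q.divisors.card : ℝ) ≤ τ) (Λ : Finset ℚ)
    (hΛ : ∀ ρ ∈ Λ, 0 < ρ ∧ (ρ : ℝ) < y) :
    ∑ ρ ∈ Λ, ‖coef γ K S ρ‖ ^ 2 ≤
      (S.card : ℝ) * (1000 * y * Q * (1 + B) / κ + 3 * τ * Q * min y (1 / (Z : ℝ))) := by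
  classical
  have hA := fam_A γ κ K y Q Z hQ hκ hκ1 hbad hK hy hyK hZ S hS (Λ.filter (fun ρ => ρ.den ≤ Z))
    (fun ρ hρ => by
      obtain ⟨h1, h2⟩ := mem_filter.1 hρ
      exact ⟨(hΛ ρ h1).1, (hΛ ρ h1).2, h2⟩)
  have hB' := fam_B γ κ K y B τ Q Z hQ hZ1 hκ hbad hK hy hyK hB hτ0 S hS hσ hτ
    (Λ.filter (fun ρ => ¬ ρ.den ≤ Z))
    (fun ρ hρ => by
      obtain ⟨h1, h2⟩ := mem_filter.1 hρ
      exact ⟨(hΛ ρ h1).1, (hΛ ρ h1).2, not_le.1 h2⟩)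
  rw [← sum_filter_add_sum_filter_not Λ (fun ρ => ρ.den ≤ Z)]
  have hQ' : (0 : ℝ) < Q := by exact_mod_cast hQ
  have hcard : (0 : ℝ) ≤ S.card := Nat.cast_nonneg _
  have h3 : 259 * y * Q / κ + (3 * τ * Q * min y (1 / (Z : ℝ)) + 512 * y * B * Q / κ) ≤
      1000 * y * Q * (1 + B) / κ + 3 * τ * Q * min y (1 / (Z : ℝ)) := by
    have h4 : 0 ≤ y * Q / κ := by positivity
    have h5 : 0 ≤ y * B * Q / κ := by positivity
    have e1 : 259 * y * Q / κ = 259 * (y * Q / κ) := by ring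
    have e2 : 512 * y * B * Q / κ = 512 * (y * B * Q / κ) := by ring
    have e3 : 1000 * y * Q * (1 + B) / κ = 1000 * (y * Q / κ) + 1000 * (y * B * Q / κ) := by ring
    rw [e1, e2, e3]
    linarith
  calc _ ≤ (S.card : ℝ) * (259 * y * Q / κ) +
        (S.card : ℝ) * (3 * τ * Q * min y (1 / (Z : ℝ)) + 512 * y * B * Q / κ) := add_le_add hA hB'
    _ = (S.card : ℝ) * (259 * y * Q / κ + (3 * τ * Q * min y (1 / (Z : ℝ)) + 512 * y * B * Q / κ)) := by ring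
    _ ≤ _ := mul_le_mul_of_nonneg_left h3 hcard

end Vale.Agent.Lib.P028G
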