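import Vale.Agent.Lib.P028G.Defs

/-! The Fejer kernel: nonnegativity, lower bound near integers, and the pair integral. -/

open scoped BigOperators Real
open Finset

namespace Vale.Agent.Lib.P028G

/-- `K * fej K θ = (∑_{j<K} cos 2πjθ)² + (∑_{j<K} sin 2πjθ)²`; proof by induction on `K`:
both sides increase by `1 + 2 ∑_{n=1}^{K} cos 2πnθ` from `K` to `K+1`. -/
theorem fej_sq (K : ℕ) (hK : 0 < K) (θ : ℝ) :
    (K : ℝ) * fej K θ = (∑ j ∈ range K, Real.cos (2 * π * j * θ)) ^ 2 +
      (∑ j ∈ range K, Real.sin (2 * π * j * θ)) ^ 2 := by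
  have hK' : (0 : ℝ) < K := by exact_mod_cast hK
  -- the closed form of `K * fej K θ`
  have h1 : (K : ℝ) * fej K θ =
      (K : ℝ) + 2 * ∑ n ∈ Ico 1 K, ((K : ℝ) - n) * Real.cos (2 * π * n * θ) := by
    unfold fej
    rw [mul_add, mul_one]
    congr 1
    rw [mul_left_comm, mul_sum]
    congr 1
    apply sum_congr rfl
    intro n hn
    have hn' : n < K := (mem_Ico.mp hn).2
    have hn'' : (n : ℝ) < K := by exact_mod_cast hn'
    have : tn K n = 1 - (n : ℝ) / K := by
      unfold tn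
      apply max_eq_right
      have : (n : ℝ) / K ≤ 1 := by rw [div_le_one hK']; exact hn''.le
      linarith
    rw [this, ← mul_assoc]
    congr 1
    field_simp
  rw [h1]
  -- induction
  have key : ∀ L : ℕ, (L : ℝ) + 2 * ∑ n ∈ Ico 1 L, ((L : ℝ) - n) * Real.cos (2 * π * n * θ) =
      (∑ j ∈ range L, Real.cos (2 * π * j * θ)) ^ 2 +
        (∑ j ∈ range L, Real.sin (2 * π * j * θ)) ^ 2 := by
    intro L
    induction L with
    | zero => simp
    | succ L ih =>
      set c : ℕ → ℝ := fun n => Real.cos (2 * π * n * θ) with hc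
      set A := ∑ j ∈ range L, Real.cos (2 * π * j * θ) with hA
      set B := ∑ j ∈ range L, Real.sin (2 * π * j * θ) with hB
      have hcross : A * Real.cos (2 * π * L * θ) + B * Real.sin (2 * π * L * θ) =
          ∑ n ∈ Ico 1 (L + 1), c n := by
        rw [hA, hB, sum_mul, sum_mul, ← sum_add_distrib, sum_Ico_eq_sum_range]
        simp only [Nat.add_sub_cancel]
        rw [← sum_range_reflect]
        apply sum_congr rfl
        intro j hj
        have hj' : j < L := mem_range.mp hj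
        have e2 : ((L - 1 - j : ℕ) : ℝ) = (L : ℝ) - 1 - j := by
          rw [Nat.cast_sub (by omega : j ≤ L - 1), Nat.cast_sub (by omega : 1 ≤ L)]
          simp
        rw [hc]
        simp only []
        rw [e2]
        push_cast
        rw [show 2 * π * ((1 : ℝ) + j) * θ =
            2 * π * L * θ - 2 * π * ((L : ℝ) - 1 - j) * θ by ring, Real.cos_sub]
        ring
      have hsum1 : ∑ n ∈ Ico 1 (L + 1), (((L + 1 : ℕ) : ℝ) - n) * c n =
          ∑ n ∈ Ico 1 L, ((L : ℝ) - n) * c n + ∑ n ∈ Ico 1 (L + 1), c n := by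
        have h2 : ∑ n ∈ Ico 1 (L + 1), ((L : ℝ) - n) * c n =
            ∑ n ∈ Ico 1 L, ((L : ℝ) - n) * c n := by
          rcases Nat.eq_zero_or_pos L with h0 | h0
          · subst h0; simp
          · rw [sum_Ico_succ_top (by omega : 1 ≤ L)]
            simp
        rw [← h2, ← sum_add_distrib]
        apply sum_congr rfl
        intro n _
        push_cast
        ring
      have hcs : Real.cos (2 * π * L * θ) ^ 2 + Real.sin (2 * π * L * θ) ^ 2 = 1 :=
        Real.cos_sq_add_sin_sq _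
      rw [sum_range_succ, sum_range_succ, hsum1]
      have ih' : (L : ℝ) + 2 * ∑ n ∈ Ico 1 L, ((L : ℝ) - n) * c n = A ^ 2 + B ^ 2 := ih
      push_cast
      nlinarith [ih', hcross, hcs]
  exact key K

theorem fej_nonneg (K : ℕ) (hK : 0 < K) (θ : ℝ) : 0 ≤ fej K θ := by
  have h := fej_sq K hK θ
  have hK' : (0 : ℝ) < K := by exact_mod_cast hK
  have : 0 ≤ (K : ℝ) * fej K θ := by rw [h]; positivity
  exact nonneg_of_mul_nonneg_right this hK'

/-- Near an integer, `cos(2π j θ) ≥ cos(π/4) ≥ 7/10` for `j < K`, so `fej K θ ≥ (49/100) K`. -/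
theorem fej_large (K : ℕ) (hK : 0 < K) (θ : ℝ) (a : ℤ) (ψ : ℝ) (h : |θ - a| < ψ)
    (hψ : (K : ℝ) * ψ ≤ 1 / 8) : 1 ≤ 3 / (K : ℝ) * fej K θ := by
  have hK' : (0 : ℝ) < K := by exact_mod_cast hK
  have hψ0 : 0 < ψ := lt_of_le_of_lt (abs_nonneg _) h
  have hsq : (7 / 10 : ℝ) ≤ Real.sqrt 2 / 2 := by
    have : (7 / 5 : ℝ) ≤ Real.sqrt 2 := by
      apply Real.le_sqrt_of_sq_le
      norm_num
    linarith
  -- each cosine is large
  have hcos : ∀ j ∈ range K, (7 / 10 : ℝ) ≤ Real.cos (2 * π * j * θ) := by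
    intro j hj
    have hj' : (j : ℝ) ≤ K := by exact_mod_cast (mem_range.mp hj).le
    have hj0 : (0 : ℝ) ≤ j := Nat.cast_nonneg j
    have e : Real.cos (2 * π * j * θ) = Real.cos (2 * π * j * (θ - a)) := by
      have := Real.cos_add_int_mul_two_pi (2 * π * j * (θ - a)) ((j : ℤ) * a)
      rw [← this]
      congr 1
      push_cast
      ring
    rw [e, ← Real.cos_abs]
    have hb : |2 * π * j * (θ - a)| ≤ π / 4 := by
      rw [abs_mul, abs_of_nonneg (by positivity : (0 : ℝ) ≤ 2 * π * j)]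
      have h1 : (j : ℝ) * |θ - a| ≤ K * ψ :=
        mul_le_mul hj' h.le (abs_nonneg _) hK'.le
      have hpi := Real.pi_pos
      calc 2 * π * j * |θ - a| = 2 * π * (j * |θ - a|) := by ring
        _ ≤ 2 * π * (1 / 8) := by
            apply mul_le_mul_of_nonneg_left (h1.trans hψ) (by positivity)
        _ = π / 4 := by ring
    have hc := Real.cos_le_cos_of_nonneg_of_le_pi (abs_nonneg _)
      (by linarith [Real.pi_pos] : π / 4 ≤ π) hb
    rw [Real.cos_pi_div_four] at hc
    linarith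
  have hA : (7 / 10 : ℝ) * K ≤ ∑ j ∈ range K, Real.cos (2 * π * j * θ) := by
    have := sum_le_sum hcos
    simpa [mul_comm] using this
  have hA2 : ((7 / 10 : ℝ) * K) ^ 2 ≤ (∑ j ∈ range K, Real.cos (2 * π * j * θ)) ^ 2 :=
    pow_le_pow_left₀ (by positivity) hA 2
  have hfs := fej_sq K hK θ
  have hmain : (49 / 100 : ℝ) * K ^ 2 ≤ (K : ℝ) * fej K θ := by
    rw [hfs]
    nlinarith [sq_nonneg (∑ j ∈ range K, Real.sin (2 * π * j * θ))]
  have hfej : (49 / 100 : ℝ) * K ≤ fej K θ := by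
    have : (K : ℝ) * ((49 / 100 : ℝ) * K) ≤ (K : ℝ) * fej K θ := by nlinarith
    exact le_of_mul_le_mul_left this hK'
  rw [div_mul_eq_mul_div, le_div_iff₀ hK']
  nlinarith

theorem int_cos_aux (k : ℤ) (hk : k ≠ 0) (α : ℝ) :
    ∫ x in (0 : ℝ)..1, Real.cos (2 * π * (k : ℝ) * x + α) = 0 := by
  have hk' : (2 * π * (k : ℝ)) ≠ 0 := by
    have : (k : ℝ) ≠ 0 := by exact_mod_cast hk
    have := Real.pi_pos
    positivity
  have hd : ∀ x ∈ Set.uIcc (0 : ℝ) 1,
      HasDerivAt (fun x => Real.sin (2 * π * (k : ℝ) * x + α) / (2 * π * (k : ℝ)))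
        (Real.cos (2 * π * (k : ℝ) * x + α)) x := by
    intro x _
    have h := (((hasDerivAt_id x).const_mul (2 * π * (k : ℝ))).add_const α).sin.div_const
      (2 * π * (k : ℝ))
    have e0 : Real.cos (2 * π * (k : ℝ) * x + α) * (2 * π * (k : ℝ)) / (2 * π * (k : ℝ)) =
        Real.cos (2 * π * (k : ℝ) * x + α) := by
      rw [mul_div_assoc, div_self hk', mul_one]
    simp only [id, mul_one] at h
    rw [e0] at h
    exact h
  rw [intervalIntegral.integral_eq_sub_of_hasDerivAt hd
    (Continuous.intervalIntegrable (by fun_prop) _ _)]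
  have e : 2 * π * (k : ℝ) * 1 + α = α + (k : ℝ) * (2 * π) := by ring
  rw [e, Real.sin_add_int_mul_two_pi]
  simp

/-- Expanding the two kernels as cosine sums, with
`∫₀¹ cos(2π k x + α) dx = 0` for every nonzero integer `k`, and `nq + mr ≠ 0`. -/
theorem fej_pair (Ka Kb q r : ℕ) (hq : 0 < q) (hr : 0 < r) (γ : ℝ) :
    ∫ x in (0 : ℝ)..1, fej Ka ((q : ℝ) * x - γ) * fej Kb ((r : ℝ) * x - γ) =
      1 + 2 * ∑ n ∈ Ico 1 Ka, ∑ m ∈ Ico 1 Kb,
        if n * q = m * r then
          tn Ka n * tn Kb m * Real.cos (2 * π * ((n : ℝ) - m) * γ) else 0 := by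
  set C : ℕ → ℝ → ℝ := fun n x => Real.cos (2 * π * n * ((q : ℝ) * x - γ)) with hC
  set D : ℕ → ℝ → ℝ := fun m x => Real.cos (2 * π * m * ((r : ℝ) * x - γ)) with hD
  set a : ℕ → ℝ := fun n => tn Ka n with ha
  set b : ℕ → ℝ := fun m => tn Kb m with hb
  have hCc : ∀ n, Continuous (C n) := fun n => by
    simp only [hC]; fun_prop
  have hDc : ∀ m, Continuous (D m) := fun m => by
    simp only [hD]; fun_prop
  have hexp : ∀ x : ℝ, fej Ka ((q : ℝ) * x - γ) * fej Kb ((r : ℝ) * x - γ) =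
      (1 + 2 * ∑ n ∈ Ico 1 Ka, a n * C n x + 2 * ∑ m ∈ Ico 1 Kb, b m * D m x) +
        4 * ∑ n ∈ Ico 1 Ka, ∑ m ∈ Ico 1 Kb, a n * b m * (C n x * D m x) := by
    intro x
    have e1 : ∑ n ∈ Ico 1 Ka, ∑ m ∈ Ico 1 Kb, a n * b m * (C n x * D m x) =
        (∑ n ∈ Ico 1 Ka, a n * C n x) * ∑ m ∈ Ico 1 Kb, b m * D m x := by
      rw [Finset.sum_mul_sum]
      refine Finset.sum_congr rfl fun n _ => Finset.sum_congr rfl fun m _ => ?_
      ring
    rw [e1]
    simp only [fej, hC, hD, ha, hb]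
    ring
  have hnz : ∀ n : ℕ, n ∈ Ico 1 Ka → (n : ℤ) * (q : ℤ) ≠ 0 := fun n hn => by
    have h1 : 1 ≤ n := (mem_Ico.1 hn).1
    have : n * q ≠ 0 := by positivity
    exact_mod_cast this
  have hmz : ∀ m : ℕ, m ∈ Ico 1 Kb → (m : ℤ) * (r : ℤ) ≠ 0 := fun m hm => by
    have h1 : 1 ≤ m := (mem_Ico.1 hm).1
    have : m * r ≠ 0 := by positivity
    exact_mod_cast this
  have hint1 : ∀ n ∈ Ico 1 Ka, ∫ x in (0 : ℝ)..1, C n x = 0 := by
    intro n hn
    have h := int_cos_aux ((n : ℤ) * q) (hnz n hn) (-(2 * π * n * γ))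
    refine Eq.trans (intervalIntegral.integral_congr fun x _ => ?_) h
    simp only [hC]
    congr 1
    push_cast
    ring
  have hint2 : ∀ m ∈ Ico 1 Kb, ∫ x in (0 : ℝ)..1, D m x = 0 := by
    intro m hm
    have h := int_cos_aux ((m : ℤ) * r) (hmz m hm) (-(2 * π * m * γ))
    refine Eq.trans (intervalIntegral.integral_congr fun x _ => ?_) h
    simp only [hD]
    congr 1
    push_cast
    ring
  have hint3 : ∀ n ∈ Ico 1 Ka, ∀ m ∈ Ico 1 Kb, ∫ x in (0 : ℝ)..1, C n x * D m x =
      if n * q = m * r then (1 / 2) * Real.cos (2 * π * ((n : ℝ) - m) * γ) else 0 := by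
    intro n hn m hm
    have hprod : ∀ x : ℝ, C n x * D m x =
        (1 / 2) * Real.cos (2 * π * (((n : ℤ) * q + (m : ℤ) * r : ℤ) : ℝ) * x +
            (-(2 * π * ((n : ℝ) + m) * γ))) +
          (1 / 2) * Real.cos (2 * π * (((n : ℤ) * q - (m : ℤ) * r : ℤ) : ℝ) * x +
            (-(2 * π * ((n : ℝ) - m) * γ))) := by
      intro x
      have e1 : 2 * π * (((n : ℤ) * q + (m : ℤ) * r : ℤ) : ℝ) * x +
          (-(2 * π * ((n : ℝ) + m) * γ)) =
          2 * π * n * ((q : ℝ) * x - γ) + 2 * π * m * ((r : ℝ) * x - γ) := by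
        push_cast; ring
      have e2 : 2 * π * (((n : ℤ) * q - (m : ℤ) * r : ℤ) : ℝ) * x +
          (-(2 * π * ((n : ℝ) - m) * γ)) =
          2 * π * n * ((q : ℝ) * x - γ) - 2 * π * m * ((r : ℝ) * x - γ) := by
        push_cast; ring
      rw [e1, e2, Real.cos_add, Real.cos_sub]
      simp only [hC, hD]
      ring
    have hsum : (n : ℤ) * q + (m : ℤ) * r ≠ 0 := by
      have h1 : 1 ≤ n := (mem_Ico.1 hn).1
      have : 0 < n * q + m * r := by positivity
      exact_mod_cast this.ne'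
    have hI : ∀ (k : ℤ) (α : ℝ), IntervalIntegrable
        (fun x => (1 / 2 : ℝ) * Real.cos (2 * π * (k : ℝ) * x + α)) MeasureTheory.volume 0 1 :=
      fun k α => Continuous.intervalIntegrable (by fun_prop) _ _
    simp_rw [hprod]
    rw [intervalIntegral.integral_add (hI _ _) (hI _ _), intervalIntegral.integral_const_mul,
      intervalIntegral.integral_const_mul, int_cos_aux _ hsum, mul_zero, zero_add]
    split_ifs with hEq
    · have h0 : ((n : ℤ) * q - (m : ℤ) * r : ℤ) = 0 := by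
        rw [sub_eq_zero]
        exact_mod_cast hEq
      rw [h0]
      simp only [Int.cast_zero, mul_zero, zero_mul, zero_add, intervalIntegral.integral_const,
        sub_zero, one_smul, Real.cos_neg]
    · have h0 : ((n : ℤ) * q - (m : ℤ) * r : ℤ) ≠ 0 := by
        rw [sub_ne_zero]
        exact_mod_cast hEq
      rw [int_cos_aux _ h0, mul_zero]
  simp_rw [hexp]
  have hc1 : IntervalIntegrable (fun x => 2 * ∑ n ∈ Ico 1 Ka, a n * C n x)
      MeasureTheory.volume 0 1 := Continuous.intervalIntegrable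
    (continuous_const.mul (continuous_finset_sum _ fun n _ =>
      continuous_const.mul (hCc n))) _ _
  have hc2 : IntervalIntegrable (fun x => 2 * ∑ m ∈ Ico 1 Kb, b m * D m x)
      MeasureTheory.volume 0 1 := Continuous.intervalIntegrable
    (continuous_const.mul (continuous_finset_sum _ fun m _ =>
      continuous_const.mul (hDc m))) _ _
  have hc3 : IntervalIntegrable (fun x => 4 * ∑ n ∈ Ico 1 Ka, ∑ m ∈ Ico 1 Kb,
      a n * b m * (C n x * D m x)) MeasureTheory.volume 0 1 := Continuous.intervalIntegrable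
    (continuous_const.mul (continuous_finset_sum _ fun n _ => continuous_finset_sum _ fun m _ =>
      continuous_const.mul ((hCc n).mul (hDc m)))) _ _
  have hc0 : IntervalIntegrable (fun _ : ℝ => (1 : ℝ)) MeasureTheory.volume 0 1 :=
    Continuous.intervalIntegrable continuous_const _ _
  rw [intervalIntegral.integral_add ((hc0.add hc1).add hc2) hc3,
    intervalIntegral.integral_add (hc0.add hc1) hc2,
    intervalIntegral.integral_add hc0 hc1]
  simp only [intervalIntegral.integral_const_mul, intervalIntegral.integral_const, sub_zero,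
    one_smul]
  have h1 : ∫ x in (0 : ℝ)..1, ∑ n ∈ Ico 1 Ka, a n * C n x = 0 := by
    have hi : ∀ n, IntervalIntegrable (fun x => a n * C n x) MeasureTheory.volume 0 1 := fun n =>
      Continuous.intervalIntegrable (continuous_const.mul (hCc n)) _ _
    rw [intervalIntegral.integral_finset_sum fun n _ => hi n]
    refine Finset.sum_eq_zero fun n hn => ?_
    rw [intervalIntegral.integral_const_mul, hint1 n hn, mul_zero]
  have h2 : ∫ x in (0 : ℝ)..1, ∑ m ∈ Ico 1 Kb, b m * D m x = 0 := by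
    have hi : ∀ m, IntervalIntegrable (fun x => b m * D m x) MeasureTheory.volume 0 1 := fun m =>
      Continuous.intervalIntegrable (continuous_const.mul (hDc m)) _ _
    rw [intervalIntegral.integral_finset_sum fun m _ => hi m]
    refine Finset.sum_eq_zero fun m hm => ?_
    rw [intervalIntegral.integral_const_mul, hint2 m hm, mul_zero]
  have h3 : ∫ x in (0 : ℝ)..1, ∑ n ∈ Ico 1 Ka, ∑ m ∈ Ico 1 Kb, a n * b m * (C n x * D m x) =
      ∑ n ∈ Ico 1 Ka, ∑ m ∈ Ico 1 Kb, a n * b m *
        (if n * q = m * r then (1 / 2) * Real.cos (2 * π * ((n : ℝ) - m) * γ) else 0) := by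
    have hi : ∀ n, IntervalIntegrable (fun x => ∑ m ∈ Ico 1 Kb, a n * b m * (C n x * D m x))
        MeasureTheory.volume 0 1 := fun n => Continuous.intervalIntegrable
      (continuous_finset_sum _ fun m _ => continuous_const.mul ((hCc n).mul (hDc m))) _ _
    rw [intervalIntegral.integral_finset_sum fun n _ => hi n]
    refine Finset.sum_congr rfl fun n hn => ?_
    have hi2 : ∀ m, IntervalIntegrable (fun x => a n * b m * (C n x * D m x))
        MeasureTheory.volume 0 1 := fun m => Continuous.intervalIntegrable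
      (continuous_const.mul ((hCc n).mul (hDc m))) _ _
    rw [intervalIntegral.integral_finset_sum fun m _ => hi2 m]
    refine Finset.sum_congr rfl fun m hm => ?_
    rw [intervalIntegral.integral_const_mul, hint3 n hn m hm]
  rw [h1, h2, h3]
  have h4 : ∑ n ∈ Ico 1 Ka, ∑ m ∈ Ico 1 Kb, a n * b m *
        (if n * q = m * r then (1 / 2) * Real.cos (2 * π * ((n : ℝ) - m) * γ) else 0) =
      (1 / 2) * ∑ n ∈ Ico 1 Ka, ∑ m ∈ Ico 1 Kb,
        if n * q = m * r then
          tn Ka n * tn Kb m * Real.cos (2 * π * ((n : ℝ) - m) * γ) else 0 := by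
    rw [Finset.mul_sum]
    refine Finset.sum_congr rfl fun n _ => ?_
    rw [Finset.mul_sum]
    refine Finset.sum_congr rfl fun m _ => ?_
    split_ifs
    · simp only [ha, hb]
      ring
    · simp
  rw [h4]
  ring

end Vale.Agent.Lib.P028G
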