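import Vale.Agent.Lib.P028G.Pair

/-! The second moment over a chain of levels. -/

open scoped BigOperators Real
open Finset

namespace Vale.Agent.Lib.P028G

/-- A chain of levels. -/
structure LevelData (B C9 : ℝ) (I : Finset ℕ) (Q K Z : ℕ → ℕ) (τ : ℕ → ℝ) (S : ℕ → Finset ℕ) : Prop where
  hQ : ∀ r ∈ I, 0 < Q r
  hK : ∀ r ∈ I, 0 < K r
  hZ1 : ∀ r ∈ I, 1 ≤ Z r
  hZ : ∀ r ∈ I, Z r ^ 3 ≤ Q r
  hS : ∀ r ∈ I, ∀ q ∈ S r, Q r ≤ q ∧ q < 2 * Q r
  hσ : ∀ r ∈ I, ∀ q ∈ S r, (∑ d ∈ q.divisors, (d : ℝ)) ≤ B * q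
  hτ : ∀ r ∈ I, ∀ q ∈ S r, (q.divisors.card : ℝ) ≤ τ r
  hτ1 : ∀ r ∈ I, 1 ≤ τ r
  hsize : ∀ r ∈ I, τ r ^ 2 * Q r ≤ C9 * Z r * K r
  hQmono : ∀ r ∈ I, ∀ s ∈ I, r ≤ s → Q r ≤ Q s
  hKmono : ∀ r ∈ I, ∀ s ∈ I, r ≤ s → K r ≤ K s
  hprod : ∀ r ∈ I, ∀ s ∈ I, r ≤ s → (2 : ℝ) ^ (s - r) * ((Q r : ℝ) * K r) ≤ (Q s : ℝ) * K s

private theorem geom_le_inv (w : ℝ) (hw0 : 0 ≤ w) (hw1 : w ≤ 17 / 20) (n : ℕ) :
    ∑ k ∈ range n, w ^ k ≤ 20 / 3 := by
  have hw2 : w < 1 := by linarith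
  have h := mul_neg_geom_sum w n
  have hs : 0 ≤ ∑ k ∈ range n, w ^ k := sum_nonneg fun k _ => pow_nonneg hw0 k
  have hp : 0 ≤ w ^ n := pow_nonneg hw0 n
  nlinarith

private theorem schur_row (I : Finset ℕ) (w : ℝ) (hw0 : 0 ≤ w) (hw1 : w ≤ 17 / 20) (r : ℕ) :
    ∑ s ∈ I, w ^ (r - s + (s - r)) ≤ 14 := by
  classical
  rw [← sum_filter_add_sum_filter_not I (fun s => s ≤ r)]
  have h1 : ∑ s ∈ I.filter (fun s => s ≤ r), w ^ (r - s + (s - r)) ≤ 20 / 3 := by
    have e : ∑ s ∈ I.filter (fun s => s ≤ r), w ^ (r - s + (s - r)) =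
        ∑ k ∈ (I.filter (fun s => s ≤ r)).image (fun s => r - s), w ^ k := by
      rw [sum_image]
      · refine sum_congr rfl fun s hs => ?_
        have hs' := (mem_filter.mp hs).2
        have : s - r = 0 := by omega
        rw [this, add_zero]
      · intro a ha b hb hab
        have ha' : a ≤ r := (mem_filter.mp (mem_coe.mp ha)).2
        have hb' : b ≤ r := (mem_filter.mp (mem_coe.mp hb)).2
        simp only at hab
        omega
    rw [e]
    refine le_trans (sum_le_sum_of_subset_of_nonneg (t := range (r + 1)) ?_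
      (fun k _ _ => pow_nonneg hw0 k)) (geom_le_inv w hw0 hw1 _)
    intro k hk
    rcases mem_image.mp hk with ⟨s, _, rfl⟩
    simp only [mem_range]
    omega
  have h2 : ∑ s ∈ I.filter (fun s => ¬ s ≤ r), w ^ (r - s + (s - r)) ≤ 20 / 3 := by
    have e : ∑ s ∈ I.filter (fun s => ¬ s ≤ r), w ^ (r - s + (s - r)) =
        ∑ k ∈ (I.filter (fun s => ¬ s ≤ r)).image (fun s => s - r), w ^ k := by
      rw [sum_image]
      · refine sum_congr rfl fun s hs => ?_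
        have hs' := (mem_filter.mp hs).2
        have : r - s = 0 := by omega
        rw [this, zero_add]
      · intro a ha b hb hab
        have ha' : ¬ a ≤ r := (mem_filter.mp (mem_coe.mp ha)).2
        have hb' : ¬ b ≤ r := (mem_filter.mp (mem_coe.mp hb)).2
        simp only at hab
        omega
    rw [e]
    refine le_trans (sum_le_sum_of_subset_of_nonneg
      (t := range ((I.sup id) + 1)) ?_ (fun k _ _ => pow_nonneg hw0 k)) (geom_le_inv w hw0 hw1 _)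
    intro k hk
    rcases mem_image.mp hk with ⟨s, hs, rfl⟩
    have hsI := (mem_filter.mp hs).1
    have : s ≤ I.sup id := le_sup (f := id) hsI
    simp only [mem_range]
    omega
  linarith

/-- Schur test with geometric decay. Use `√(M r M s) ≤ (M r + M s) / 2`, symmetry, and
`∑_{s} w^|r-s| ≤ 1 + 2 w / (1 - w) ≤ 14` for `w ≤ 17/20`. -/
theorem schur_geom (I : Finset ℕ) (M : ℕ → ℝ) (hM : ∀ r, 0 ≤ M r) (w : ℝ) (hw0 : 0 ≤ w)
    (hw1 : w ≤ 17 / 20) :
    ∑ r ∈ I, ∑ s ∈ I, Real.sqrt (M r * M s) * w ^ (r - s + (s - r)) ≤ 14 * ∑ r ∈ I, M r := by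
  have hpt : ∀ r s, Real.sqrt (M r * M s) * w ^ (r - s + (s - r)) ≤
      (M r * w ^ (r - s + (s - r)) + M s * w ^ (s - r + (r - s))) / 2 := by
    intro r s
    have hcomm : s - r + (r - s) = r - s + (s - r) := Nat.add_comm _ _
    rw [hcomm]
    have hpow : 0 ≤ w ^ (r - s + (s - r)) := pow_nonneg hw0 _
    have hsq : Real.sqrt (M r * M s) ≤ (M r + M s) / 2 := by
      rw [Real.sqrt_le_left (by linarith [hM r, hM s])]
      nlinarith [sq_nonneg (M r - M s)]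
    nlinarith
  have h1 : ∑ r ∈ I, ∑ s ∈ I, Real.sqrt (M r * M s) * w ^ (r - s + (s - r)) ≤
      ∑ r ∈ I, ∑ s ∈ I, (M r * w ^ (r - s + (s - r)) + M s * w ^ (s - r + (r - s))) / 2 :=
    sum_le_sum fun r _ => sum_le_sum fun s _ => hpt r s
  have h2 : ∑ r ∈ I, ∑ s ∈ I, (M r * w ^ (r - s + (s - r)) + M s * w ^ (s - r + (r - s))) / 2 =
      ∑ r ∈ I, M r * ∑ s ∈ I, w ^ (r - s + (s - r)) := by
    have hA : ∑ r ∈ I, ∑ s ∈ I, M s * w ^ (s - r + (r - s)) =
        ∑ r ∈ I, ∑ s ∈ I, M r * w ^ (r - s + (s - r)) := sum_comm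
    simp only [← sum_div, sum_add_distrib]
    rw [hA]
    simp only [← mul_sum]
    ring
  have h3 : ∑ r ∈ I, M r * ∑ s ∈ I, w ^ (r - s + (s - r)) ≤ ∑ r ∈ I, M r * 14 :=
    sum_le_sum fun r _ => mul_le_mul_of_nonneg_left (schur_row I w hw0 hw1 r) (hM r)
  have h4 : ∑ r ∈ I, M r * 14 = 14 * ∑ r ∈ I, M r := by
    rw [mul_sum]; exact sum_congr rfl fun r _ => mul_comm _ _
  linarith

private theorem sqrt_sqrt_pow (x : ℝ) (hx : 0 ≤ x) (n : ℕ) :
    Real.sqrt (Real.sqrt (x ^ n)) = (Real.sqrt (Real.sqrt x)) ^ n := by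
  induction n with
  | zero => simp
  | succ n ih =>
    rw [pow_succ, pow_succ, Real.sqrt_mul (pow_nonneg hx n),
      Real.sqrt_mul (Real.sqrt_nonneg _), ih]

/-- From `hprod`: `√√((Q r/Q s)(K r/K s)) ≤ w ^ (s - r)`, where `w = √√(1/2) ≤ 17/20`. -/
theorem sqrt_sqrt_le (a : ℝ) (ha : 0 ≤ a) (n : ℕ) (h : (2 : ℝ) ^ n * a ≤ 1) :
    Real.sqrt (Real.sqrt a) ≤ (Real.sqrt (Real.sqrt (1 / 2))) ^ n := by
  rw [← sqrt_sqrt_pow (1 / 2) (by norm_num) n]
  apply Real.sqrt_le_sqrt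
  apply Real.sqrt_le_sqrt
  have h2 : (0 : ℝ) < 2 ^ n := by positivity
  have : ((1 : ℝ) / 2) ^ n = 1 / 2 ^ n := by rw [one_div, inv_pow, one_div]
  rw [this, le_div_iff₀ h2]
  linarith

theorem sqrt_sqrt_half_le : Real.sqrt (Real.sqrt (1 / 2)) ≤ 17 / 20 := by
  have h1 : Real.sqrt (1 / 2) ≤ 289 / 400 := by
    rw [Real.sqrt_le_left (by norm_num)]
    norm_num
  calc Real.sqrt (Real.sqrt (1 / 2)) ≤ Real.sqrt (289 / 400) := Real.sqrt_le_sqrt h1
    _ ≤ 17 / 20 := by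
      rw [Real.sqrt_le_left (by norm_num)]
      norm_num

theorem fej_continuous_aux (K : ℕ) (q : ℝ) (γ : ℝ) :
    Continuous (fun x : ℝ => fej K (q * x - γ)) := by
  unfold fej
  fun_prop

/-- The second moment. Expand the square, integrate termwise; for `r ≤ s` use `pair_norm`, for
`s < r` use symmetry of the integrand with `pair_norm` for `(s, r)`. Then `schur_geom`. -/
theorem level_second (γ κ B C9 : ℝ) (hκ : 0 < κ) (hκ1 : κ ≤ 1) (hbad : Bad γ κ) (hB : 0 ≤ B)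
    (hC9 : 0 ≤ C9) (I : Finset ℕ) (Q K Z : ℕ → ℕ) (τ : ℕ → ℝ) (S : ℕ → Finset ℕ)
    (h : LevelData B C9 I Q K Z τ S) :
    ∫ x in (0 : ℝ)..1, (∑ r ∈ I, (3 / (K r : ℝ)) * ∑ q ∈ S r, fej (K r) ((q : ℝ) * x - γ)) ^ 2 ≤
      9 * (∑ r ∈ I, ((S r).card : ℝ) / K r) ^ 2 +
        252 * C7 κ B C9 * ∑ r ∈ I, ((S r).card : ℝ) / K r := by
  classical
  set M : ℕ → ℝ := fun r => ((S r).card : ℝ) / K r with hMdef
  have hM0 : ∀ r, 0 ≤ M r := fun r => by
    simp only [hMdef]; positivity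
  set F : ℕ → ℝ → ℝ := fun r x => ∑ q ∈ S r, fej (K r) ((q : ℝ) * x - γ) with hF
  have hFc : ∀ r, Continuous (F r) := fun r => by
    simp only [hF]
    exact continuous_finsetSum _ (fun q _ => fej_continuous_aux _ _ _)
  set w := Real.sqrt (Real.sqrt (1 / 2)) with hw
  have hw0 : 0 ≤ w := Real.sqrt_nonneg _
  have hw1 : w ≤ 17 / 20 := sqrt_sqrt_half_le
  set c7 := C7 κ B C9 with hc7
  have hC7 : 0 ≤ c7 := by
    simp only [hc7, C7]
    positivity
  -- one ordered pair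
  have ordered : ∀ r ∈ I, ∀ s ∈ I, r ≤ s →
      (1 / ((K r : ℝ) * K s)) * ∫ x in (0 : ℝ)..1, F r x * F s x ≤
        M r * M s + 2 * c7 * (Real.sqrt (M r * M s) * w ^ (s - r)) := by
    intro r hr s hs hrs
    have hpn := pair_norm γ κ B C9 (τ r) (τ s) hκ hκ1 hbad hB hC9 (h.hτ1 r hr) (h.hτ1 s hs)
      (K r) (K s) (Q r) (Q s) (Z r) (Z s) (h.hK r hr) (h.hK s hs) (h.hQ r hr) (h.hQ s hs)
      (h.hZ1 r hr) (h.hZ1 s hs) (h.hZ r hr) (h.hZ s hs) (S r) (S s) (h.hS r hr) (h.hS s hs)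
      (h.hσ r hr) (h.hσ s hs) (h.hτ r hr) (h.hτ s hs) (h.hsize r hr) (h.hsize s hs)
      (h.hQmono r hr s hs hrs) (h.hKmono r hr s hs hrs)
    have hQs : (0 : ℝ) < Q s := by exact_mod_cast h.hQ s hs
    have hKs : (0 : ℝ) < K s := by exact_mod_cast h.hK s hs
    have ha0 : 0 ≤ ((Q r : ℝ) / Q s) * ((K r : ℝ) / K s) := by positivity
    have ha1 : (2 : ℝ) ^ (s - r) * (((Q r : ℝ) / Q s) * ((K r : ℝ) / K s)) ≤ 1 := by
      have hp := h.hprod r hr s hs hrs
      have : (2 : ℝ) ^ (s - r) * (((Q r : ℝ) / Q s) * ((K r : ℝ) / K s)) =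
          ((2 : ℝ) ^ (s - r) * ((Q r : ℝ) * K r)) / ((Q s : ℝ) * K s) := by
        field_simp
      rw [this, div_le_one (by positivity)]
      exact hp
    have hsq := sqrt_sqrt_le _ ha0 (s - r) ha1
    have hC7' : 0 ≤ 2 * C7 κ B C9 * Real.sqrt (((S r).card : ℝ) / K r * (((S s).card : ℝ) / K s)) := by
      positivity
    calc (1 / ((K r : ℝ) * K s)) * ∫ x in (0 : ℝ)..1, F r x * F s x
        ≤ _ := hpn
      _ ≤ M r * M s + 2 * c7 * (Real.sqrt (M r * M s) * w ^ (s - r)) := by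
        have := mul_le_mul_of_nonneg_left hsq hC7'
        simp only [hMdef, hc7] at *
        nlinarith [this]
  have key : ∀ r ∈ I, ∀ s ∈ I,
      (1 / ((K r : ℝ) * K s)) * ∫ x in (0 : ℝ)..1, F r x * F s x ≤
        M r * M s + 2 * c7 * (Real.sqrt (M r * M s) * w ^ (r - s + (s - r))) := by
    intro r hr s hs
    rcases le_total r s with hrs | hsr
    · have := ordered r hr s hs hrs
      rw [show r - s + (s - r) = s - r by omega]
      exact this
    · have := ordered s hs r hr hsr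
      rw [show r - s + (s - r) = r - s by omega]
      have e1 : (1 / ((K r : ℝ) * K s)) * ∫ x in (0 : ℝ)..1, F r x * F s x =
          (1 / ((K s : ℝ) * K r)) * ∫ x in (0 : ℝ)..1, F s x * F r x := by
        rw [mul_comm (K r : ℝ) (K s : ℝ)]
        congr 1
        apply intervalIntegral.integral_congr
        intro x _
        simp only [mul_comm]
      rw [e1, mul_comm (M r) (M s)]
      exact this
  -- expansion
  have expand : ∫ x in (0 : ℝ)..1, (∑ r ∈ I, (3 / (K r : ℝ)) * F r x) ^ 2 =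
      ∑ r ∈ I, ∑ s ∈ I, 9 * ((1 / ((K r : ℝ) * K s)) * ∫ x in (0 : ℝ)..1, F r x * F s x) := by
    have e : ∀ x : ℝ, (∑ r ∈ I, (3 / (K r : ℝ)) * F r x) ^ 2 =
        ∑ r ∈ I, ∑ s ∈ I, 9 * ((1 / ((K r : ℝ) * K s)) * (F r x * F s x)) := by
      intro x
      rw [sq, Finset.sum_mul_sum]
      refine Finset.sum_congr rfl (fun r _ => Finset.sum_congr rfl (fun s _ => ?_))
      have : (3 / (K r : ℝ)) * (3 / (K s : ℝ)) = 9 * (1 / ((K r : ℝ) * K s)) := by
        rw [div_mul_div_comm]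
        ring
      calc (3 / (K r : ℝ)) * F r x * ((3 / (K s : ℝ)) * F s x)
          = ((3 / (K r : ℝ)) * (3 / (K s : ℝ))) * (F r x * F s x) := by ring
        _ = _ := by rw [this]; ring
    simp_rw [e]
    rw [intervalIntegral.integral_finsetSum]
    · refine Finset.sum_congr rfl (fun r _ => ?_)
      rw [intervalIntegral.integral_finsetSum]
      · refine Finset.sum_congr rfl (fun s _ => ?_)
        rw [intervalIntegral.integral_const_mul, intervalIntegral.integral_const_mul]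
      · intro s _
        exact (((hFc r).mul (hFc s)).const_mul _ |>.const_mul _).intervalIntegrable _ _
    · intro r _
      refine (Continuous.intervalIntegrable ?_ _ _)
      refine continuous_finsetSum _ (fun s _ => ?_)
      exact (((hFc r).mul (hFc s)).const_mul _ |>.const_mul _)
  have hS := schur_geom I M hM0 w hw0 hw1
  have goal' : ∫ x in (0 : ℝ)..1, (∑ r ∈ I, (3 / (K r : ℝ)) * F r x) ^ 2 ≤
      9 * (∑ r ∈ I, M r) ^ 2 + 252 * c7 * ∑ r ∈ I, M r := by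
    rw [expand]
    calc ∑ r ∈ I, ∑ s ∈ I, 9 * ((1 / ((K r : ℝ) * K s)) * ∫ x in (0 : ℝ)..1, F r x * F s x)
        ≤ ∑ r ∈ I, ∑ s ∈ I, 9 * (M r * M s + 2 * c7 *
            (Real.sqrt (M r * M s) * w ^ (r - s + (s - r)))) := by
          refine Finset.sum_le_sum (fun r hr => Finset.sum_le_sum (fun s hs => ?_))
          exact mul_le_mul_of_nonneg_left (key r hr s hs) (by norm_num)
      _ = 9 * (∑ r ∈ I, M r) ^ 2 + 18 * c7 * ∑ r ∈ I, ∑ s ∈ I,
            Real.sqrt (M r * M s) * w ^ (r - s + (s - r)) := by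
          rw [sq, Finset.sum_mul_sum, Finset.mul_sum, Finset.mul_sum, ← Finset.sum_add_distrib]
          refine Finset.sum_congr rfl (fun r _ => ?_)
          rw [Finset.mul_sum, Finset.mul_sum, ← Finset.sum_add_distrib]
          refine Finset.sum_congr rfl (fun s _ => ?_)
          ring
      _ ≤ 9 * (∑ r ∈ I, M r) ^ 2 + 18 * c7 * (14 * ∑ r ∈ I, M r) := by
          have := mul_le_mul_of_nonneg_left hS (by positivity : 0 ≤ 18 * c7)
          linarith
      _ = _ := by ring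
  exact goal'

end Vale.Agent.Lib.P028G
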