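import Vale.Agent.Lib.P028G.Build
import Vale.Agent.Lib.P028E.Final

/-! The main theorem. -/

open scoped BigOperators Real
open Finset MeasureTheory Filter Set
open Vale.Agent.Lib.P028 Vale.Agent.Lib.P028E

namespace Vale.Agent.Lib.P028G

/-- Nonnegativity of the constant. -/
theorem C7_nonneg (κ B C9 : ℝ) (hκ : 0 < κ) (hB : 0 ≤ B) : 0 ≤ C7 κ B C9 := by
  unfold C7
  have h1 : 0 ≤ 1000 * (1 + B) / κ := by positivity
  have h2 : 0 ≤ Real.sqrt C9 := Real.sqrt_nonneg _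
  linarith

/-- The second moment hypothesis of `ae_of_blocks`. -/
theorem sec_main (γ κ : ℝ) (hκ : 0 < κ) (hκ1 : κ ≤ 1) (hbad : Bad γ κ) (ψ : ℕ → ℝ)
    (hmono : ∀ q r, 0 < ψ q → 0 < ψ r → q ≤ r → ψ r ≤ ψ q) (Bσ : ℝ) (hB : 0 ≤ Bσ)
    (hσ : ∀ q, 0 < ψ q → (∑ d ∈ q.divisors, (d : ℝ)) ≤ Bσ * q)
    (hsize : ∀ q, 0 < ψ q → (q.divisors.card : ℝ) ^ 2 * ψ q * (q : ℝ) ^ ((2 : ℝ) / 3) ≤ 1) :
    ∀ Bk : Finset ℕ, (∀ q ∈ Bk, 27 ≤ q ∧ 0 < ψ q) → ∑ q ∈ Bk, ψ q ≤ 2 →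
      ∑ q ∈ Bk, ∑ r ∈ Bk, Ovl (fun q => arcSet q γ (ψ q)) q r ≤
        9 * 32 ^ 2 + 252 * C7 κ Bσ 32 * 32 := by
  intro Bk hBk hsum
  obtain ⟨I, Q, K, Z, τ, S, hL, hdisj, hmaj, hinj, hmass⟩ :=
    exists_levels ψ hmono Bσ hσ hsize Bk hBk
  have h1 := ovl_le_levels γ ψ Bk I K S hL.hK hdisj hmaj hinj
  have h2 := level_second γ κ Bσ 32 hκ hκ1 hbad hB (by norm_num) I Q K Z τ S hL
  set M : ℝ := ∑ r ∈ I, ((S r).card : ℝ) / K r with hM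
  have hM0 : 0 ≤ M := by
    apply Finset.sum_nonneg
    intro r _
    positivity
  have hM32 : M ≤ 32 := by linarith
  have hC : 0 ≤ C7 κ Bσ 32 := C7_nonneg κ Bσ 32 hκ hB
  have h3 : M ^ 2 ≤ 32 ^ 2 := by
    apply pow_le_pow_left₀ hM0 hM32
  have h4 : 252 * C7 κ Bσ 32 * M ≤ 252 * C7 κ Bσ 32 * 32 :=
    mul_le_mul_of_nonneg_left hM32 (by positivity)
  linarith

/-- The divisor count of a positive integer is at least one. -/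
theorem one_le_card_divisors {q : ℕ} (hq : 0 < q) : (1 : ℝ) ≤ (q.divisors.card : ℝ) := by
  have : 0 < q.divisors.card := Finset.card_pos.mpr ⟨1, Nat.one_mem_divisors.mpr hq.ne'⟩
  exact_mod_cast this

/-- The size of `ψ` from the size hypothesis. -/
theorem psi_le_of_size {ψ : ℝ} {q : ℕ} (hq : 0 < q) (hψ : 0 < ψ)
    (h : (q.divisors.card : ℝ) ^ 2 * ψ * (q : ℝ) ^ ((2 : ℝ) / 3) ≤ 1) :
    ψ * (q : ℝ) ^ ((2 : ℝ) / 3) ≤ 1 := by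
  have h1 := one_le_card_divisors hq
  have h2 : (1 : ℝ) ≤ (q.divisors.card : ℝ) ^ 2 := one_le_pow₀ h1
  have h3 : 0 ≤ ψ * (q : ℝ) ^ ((2 : ℝ) / 3) := by positivity
  have h4 : (q.divisors.card : ℝ) ^ 2 * (ψ * (q : ℝ) ^ ((2 : ℝ) / 3)) ≤ 1 := by
    rw [← mul_assoc]; exact h
  nlinarith

/-- The cell lower bound, from `cell_lower` with `A = univ`: for `q ≥ 6 N`,
`2 (ψ/q) (q/N - 3) ≥ ψ / N`; here `ψ q ≤ 1/2` for `q ≥ 27`. -/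
theorem cell_main (γ : ℝ) (ψ : ℕ → ℝ)
    (hsize : ∀ q, 0 < ψ q → (q.divisors.card : ℝ) ^ 2 * ψ q * (q : ℝ) ^ ((2 : ℝ) / 3) ≤ 1)
    (N : ℕ) (hN : 0 < N) :
    ∃ q₁ : ℕ, ∀ q, q₁ ≤ q → 0 < ψ q → ∀ n : ℕ, n < N →
      1 / (N : ℝ) * ψ q ≤
        (volume (arcSet q γ (ψ q) ∩ Ioc ((n : ℝ) / N) (((n : ℝ) + 1) / N))).toReal := by
  refine ⟨max 27 (6 * N), fun q hq hψ n _ => ?_⟩
  have hq27 : 27 ≤ q := le_trans (le_max_left _ _) hq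
  have hq6 : 6 * N ≤ q := le_trans (le_max_right _ _) hq
  have hqpos : 0 < q := by omega
  have hq' : (0 : ℝ) < q := by exact_mod_cast hqpos
  have hN' : (0 : ℝ) < N := by exact_mod_cast hN
  have hq6' : 6 * (N : ℝ) ≤ q := by exact_mod_cast hq6
  have hψ1 : ψ q ≤ 1 / 2 := by
    have h1 := psi_le_of_size hqpos hψ (hsize q hψ)
    have h2 := rpow_two_thirds_ge hq27
    nlinarith
  have huv : (n : ℝ) / N ≤ ((n : ℝ) + 1) / N := by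
    apply div_le_div_of_nonneg_right _ hN'.le
    linarith
  have h := cell_lower q hqpos γ (ψ q) hψ hψ1 Set.univ 1 0 (by norm_num)
    (fun X H => by
      have e : ∀ (s : Finset ℤ) (d : DecidablePred (· ∈ (Set.univ : Set ℤ))),
          (@Finset.filter _ _ d s) = s := fun s d => by ext a; simp
      rw [e, Int.card_Ico]
      simp) _ _ huv
  have hset : thinSet q γ (ψ q) Set.univ = arcSet q γ (ψ q) := by
    ext x
    simp [thinSet, arcSet]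
  rw [hset] at h
  refine le_trans ?_ h
  have e1 : ((n : ℝ) + 1) / N - (n : ℝ) / N = 1 / N := by ring
  rw [e1]
  have h6 : 6 ≤ (q : ℝ) / N := by
    rw [le_div_iff₀ hN']; linarith
  have e2 : 2 * (ψ q / q) * (1 * ((q : ℝ) * (1 / N) - 3) - 0) =
      2 * ψ q * (1 / N) - 6 * (ψ q / q) := by
    field_simp
    ring
  rw [e2]
  have h7 : 6 * (ψ q / q) ≤ 1 / (N : ℝ) * ψ q := by
    have h8 : ψ q / q = (1 / (N : ℝ)) * ψ q * ((N : ℝ) / q) := by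
      field_simp
    rw [h8]
    have h9 : (N : ℝ) / q ≤ 1 / 6 := by
      rw [div_le_iff₀ hq']; linarith
    have h10 : 0 ≤ 1 / (N : ℝ) * ψ q := by positivity
    nlinarith
  have e3 : 2 * ψ q * (1 / (N : ℝ)) = 2 * (1 / (N : ℝ) * ψ q) := by ring
  rw [e3]
  linarith

/-- Main theorem, for `κ ≤ 1` and `σ(q) ≤ B q`. -/
theorem main_sigma (γ κ : ℝ) (hκ : 0 < κ) (hκ1 : κ ≤ 1) (hbad : Bad γ κ) (ψ : ℕ → ℝ)
    (h0 : ∀ q, 0 ≤ ψ q) (hmono : ∀ q r, 0 < ψ q → 0 < ψ r → q ≤ r → ψ r ≤ ψ q) (Bσ : ℝ) (hB : 0 ≤ Bσ)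
    (hσ : ∀ q, 0 < ψ q → (∑ d ∈ q.divisors, (d : ℝ)) ≤ Bσ * q)
    (hsize : ∀ q, 0 < ψ q → (q.divisors.card : ℝ) ^ 2 * ψ q * (q : ℝ) ^ ((2 : ℝ) / 3) ≤ 1)
    (hdiv : ¬ Summable ψ) :
    ∀ᵐ x : ℝ, ∃ᶠ q : ℕ in atTop, ∃ a : ℤ, |(q : ℝ) * x - a - γ| < ψ q := by
  have h1 : ∀ q : ℕ, 1 ≤ q → ψ q ≤ 1 := by
    intro q hq
    rcases (h0 q).eq_or_lt with h | h
    · rw [← h]; norm_num
    · have hq0 : 0 < q := hq
      have h2 := psi_le_of_size hq0 h (hsize q h)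
      have hq1 : (1 : ℝ) ≤ q := by exact_mod_cast hq
      have h3 : (1 : ℝ) ≤ (q : ℝ) ^ ((2 : ℝ) / 3) :=
        Real.one_le_rpow hq1 (by norm_num)
      nlinarith
  have hC := C7_nonneg κ Bσ 32 hκ hB
  refine ae_of_blocks γ ψ h0 h1 hdiv (fun q => arcSet q γ (ψ q))
    (fun q => isOpen_arcSet q γ (ψ q)) (fun q => Set.Subset.rfl) 1
    (9 * 32 ^ 2 + 252 * C7 κ Bσ 32 * 32) one_pos (by positivity)
    (fun N hN => cell_main γ ψ hsize N hN) ⟨27, fun B hB1 _ hB3 => ?_⟩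
  exact sec_main γ κ hκ hκ1 hbad ψ hmono Bσ hB hσ hsize B hB1 hB3

/-- Main theorem, with the totient. -/
theorem main_totient (γ κ : ℝ) (hκ : 0 < κ)
    (hbad : ∀ n : ℕ, 0 < n → ∀ a : ℤ, κ / n ≤ |(n : ℝ) * γ - a|) (ψ : ℕ → ℝ)
    (h0 : ∀ q, 0 ≤ ψ q) (hmono : ∀ q r, 0 < ψ q → 0 < ψ r → q ≤ r → ψ r ≤ ψ q) (c : ℝ) (hc : 0 < c)
    (hφ : ∀ q, 0 < ψ q → c * q ≤ Nat.totient q)
    (hsize : ∀ q, 0 < ψ q → (q.divisors.card : ℝ) ^ 2 * ψ q * (q : ℝ) ^ ((2 : ℝ) / 3) ≤ 1)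
    (hdiv : ¬ Summable ψ) :
    ∀ᵐ x : ℝ, ∃ᶠ q : ℕ in atTop, ∃ a : ℤ, |(q : ℝ) * x - a - γ| < ψ q := by
  have hκ' : 0 < min κ 1 := lt_min hκ one_pos
  have hbad' : Bad γ (min κ 1) := by
    intro n hn a
    have hn' : (0 : ℝ) < n := by exact_mod_cast hn
    refine le_trans ?_ (hbad n hn a)
    exact div_le_div_of_nonneg_right (min_le_left _ _) hn'.le
  refine main_sigma γ (min κ 1) hκ' (min_le_right _ _) hbad' ψ h0 hmono (1 / c) (by positivity)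
    (fun q hq => ?_) hsize hdiv
  rcases Nat.eq_zero_or_pos q with rfl | hq0
  · simp
  · have hq' : (0 : ℝ) < q := by exact_mod_cast hq0
    have h1 := sigma_totient_le q hq0
    have h2 := hφ q hq
    have h3 : 0 < c * q := by positivity
    have h4 : (0 : ℝ) ≤ ∑ d ∈ q.divisors, (d : ℝ) := by positivity
    have h5 : (∑ d ∈ q.divisors, (d : ℝ)) * (c * q) ≤ (q : ℝ) ^ 2 :=
      le_trans (mul_le_mul_of_nonneg_left h2 h4) h1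
    have h6 : (∑ d ∈ q.divisors, (d : ℝ)) * c ≤ q := by
      have : ((∑ d ∈ q.divisors, (d : ℝ)) * c) * q ≤ (q : ℝ) * q := by nlinarith
      exact le_of_mul_le_mul_right this hq'
    rw [div_mul_eq_mul_div, one_mul, le_div_iff₀ hc]
    exact h6

end Vale.Agent.Lib.P028G
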