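import Vale.Agent.Lib.P028G.Defs

/-! The exact factorisation of the off diagonal terms by the rational `ρ = n / r = m / q`. -/

open scoped BigOperators ComplexConjugate Real
open Finset

namespace Vale.Agent.Lib.P028G

/-- Off diagonal terms for a pair of moduli. -/
noncomputable def offd (γ : ℝ) (Ka Kb q r : ℕ) : ℝ :=
  ∑ n ∈ Ico 1 Ka, ∑ m ∈ Ico 1 Kb,
    if n * q = m * r then tn Ka n * tn Kb m * Real.cos (2 * π * ((n : ℝ) - m) * γ) else 0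

theorem re_ee_aux (θ : ℝ) : (ee θ).re = Real.cos (2 * π * θ) := by
  unfold ee
  have : (2 * (π : ℂ) * θ * Complex.I) = ((2 * π * θ : ℝ) : ℂ) * Complex.I := by push_cast; ring
  rw [this, Complex.exp_ofReal_mul_I_re]

theorem vec_mul_conj_re (γ Kb Ka : ℝ) (ρ : ℚ) (q r : ℕ) (hq : ρ.den ∣ q) (hr : ρ.den ∣ r) :
    (vec γ Kb ρ q * conj (vec γ Ka ρ r)).re =
      tn Kb ((ρ : ℝ) * q) * tn Ka ((ρ : ℝ) * r) *
        Real.cos (2 * π * (((ρ : ℝ) * r - (ρ : ℝ) * q) * γ)) := by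
  unfold vec
  rw [if_pos hq, if_pos hr, map_mul, Complex.conj_ofReal, ee_conj]
  have e : ((tn Kb ((ρ : ℝ) * q) : ℝ) : ℂ) * ee ((ρ : ℝ) * q * γ) *
      (((tn Ka ((ρ : ℝ) * r) : ℝ) : ℂ) * ee (-((ρ : ℝ) * r * γ))) =
      ((tn Kb ((ρ : ℝ) * q) * tn Ka ((ρ : ℝ) * r) : ℝ) : ℂ) *
        ee ((ρ : ℝ) * q * γ + -((ρ : ℝ) * r * γ)) := by
    rw [ee_add]
    push_cast
    ring
  rw [e, Complex.re_ofReal_mul, re_ee_aux, ← Real.cos_neg]
  congr 2
  ring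

theorem den_dvd_of_mul_eq (ρ : ℚ) (q m : ℕ) (h : ρ * (q : ℚ) = (m : ℚ)) : ρ.den ∣ q := by
  have hd : (ρ.den : ℚ) ≠ 0 := by exact_mod_cast ρ.den_ne_zero
  have e1 : ρ = (ρ.num : ℚ) / ρ.den := (Rat.num_div_den ρ).symm
  have e2 : (ρ.num : ℚ) * q = m * ρ.den := by
    rw [e1] at h
    field_simp at h
    linarith
  have e3 : ρ.num * (q : ℤ) = (m : ℤ) * (ρ.den : ℤ) := by exact_mod_cast e2
  have e4 : ρ.num.natAbs * q = m * ρ.den := by
    have := congrArg Int.natAbs e3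
    simpa [Int.natAbs_mul] using this
  have h5 : ρ.den ∣ q * ρ.num.natAbs := ⟨m, by rw [mul_comm q, e4, mul_comm]⟩
  exact Nat.Coprime.dvd_of_dvd_mul_right ρ.reduced.symm h5

theorem exists_nat_mul (ρ : ℚ) (hρ : 0 < ρ) (q : ℕ) (hq : 0 < q) (h : ρ.den ∣ q) :
    ∃ m : ℕ, 0 < m ∧ (m : ℚ) = ρ * q := by
  obtain ⟨a, rfl⟩ := h
  have hnum : 0 < ρ.num := Rat.num_pos.mpr hρ
  have ha : 0 < a := Nat.pos_of_mul_pos_left hq |> fun _ => by
    rcases Nat.eq_zero_or_pos a with h0 | h0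
    · simp [h0] at hq
    · exact h0
  refine ⟨ρ.num.toNat * a, Nat.mul_pos (by omega) ha, ?_⟩
  have e1 : ((ρ.num.toNat : ℕ) : ℚ) = (ρ.num : ℚ) := by
    have : ((ρ.num.toNat : ℕ) : ℤ) = ρ.num := Int.toNat_of_nonneg hnum.le
    exact_mod_cast this
  push_cast
  rw [e1, ← mul_assoc, Rat.mul_den_eq_num]

/-- One pair of moduli. -/
theorem offd_eq_sum (γ : ℝ) (Ka Kb : ℕ) (hKa : 0 < Ka) (hKb : 0 < Kb) (q r : ℕ) (hq : 0 < q)
    (hr : 0 < r) (Λ : Finset ℚ) (hpos : ∀ ρ ∈ Λ, 0 < ρ)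
    (hΛ : ∀ n m : ℕ, 1 ≤ n → n < Ka → 1 ≤ m → m < Kb → n * q = m * r →
      ((m : ℚ) / q) ∈ Λ) :
    offd γ Ka Kb q r =
      ∑ ρ ∈ Λ, (vec γ Kb ρ q * conj (vec γ Ka ρ r)).re := by
  have hqQ : (q : ℚ) ≠ 0 := by exact_mod_cast hq.ne'
  have hrQ : (r : ℚ) ≠ 0 := by exact_mod_cast hr.ne'
  have hqR : (q : ℝ) ≠ 0 := by exact_mod_cast hq.ne'
  have hrR : (r : ℝ) ≠ 0 := by exact_mod_cast hr.ne'
  have hL : offd γ Ka Kb q r =
      ∑ p ∈ (Ico 1 Ka ×ˢ Ico 1 Kb).filter (fun p : ℕ × ℕ => p.1 * q = p.2 * r),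
        tn Ka p.1 * tn Kb p.2 * Real.cos (2 * π * (((p.1 : ℝ)) - p.2) * γ) := by
    unfold offd
    rw [Finset.sum_filter, Finset.sum_product]
  rw [hL]
  have key : ∀ p : ℕ × ℕ, p.1 * q = p.2 * r →
      ((((p.2 : ℚ) / q : ℚ) : ℝ) * q = p.2 ∧ (((p.2 : ℚ) / q : ℚ) : ℝ) * r = p.1) := by
    intro p hp
    have e1 : ((p.1 : ℝ)) * q = p.2 * r := by exact_mod_cast hp
    constructor
    · push_cast
      field_simp
    · push_cast
      field_simp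
      linarith
  refine Finset.sum_bij_ne_zero (fun p _ _ => (p.2 : ℚ) / q) ?_ ?_ ?_ ?_
  · intro p h1 _
    simp only [Finset.mem_filter, Finset.mem_product, Finset.mem_Ico] at h1
    exact hΛ p.1 p.2 h1.1.1.1 h1.1.1.2 h1.1.2.1 h1.1.2.2 h1.2
  · intro p h1 _ p' h2 _ he
    simp only [Finset.mem_filter, Finset.mem_product, Finset.mem_Ico] at h1 h2
    have e : (p.2 : ℚ) = p'.2 := by
      field_simp at he
      exact he
    have e' : p.2 = p'.2 := by exact_mod_cast e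
    have e2 : p.1 * q = p'.1 * q := by
      rw [h1.2, h2.2, e']
    have e3 : p.1 = p'.1 := Nat.eq_of_mul_eq_mul_right hq e2
    exact Prod.ext e3 e'
  · intro ρ hρ hne
    have hρ0 := hpos ρ hρ
    have hdq : ρ.den ∣ q := by
      by_contra hcon
      apply hne
      simp [vec, hcon]
    have hdr : ρ.den ∣ r := by
      by_contra hcon
      apply hne
      simp [vec, hcon]
    obtain ⟨m, hm0, hm⟩ := exists_nat_mul ρ hρ0 q hq hdq
    obtain ⟨n, hn0, hn⟩ := exists_nat_mul ρ hρ0 r hr hdr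
    have hmR : (ρ : ℝ) * q = m := by
      have := congrArg (fun x : ℚ => (x : ℝ)) hm
      simp only [Rat.cast_natCast, Rat.cast_mul] at this
      exact this.symm
    have hnR : (ρ : ℝ) * r = n := by
      have := congrArg (fun x : ℚ => (x : ℝ)) hn
      simp only [Rat.cast_natCast, Rat.cast_mul] at this
      exact this.symm
    rw [vec_mul_conj_re γ Kb Ka ρ q r hdq hdr, hmR, hnR] at hne
    have hmK : m < Kb := by
      by_contra hcon
      push Not at hcon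
      apply hne
      rw [tn_eq_zero (by exact_mod_cast hKb) (by exact_mod_cast hcon)]
      ring
    have hnK : n < Ka := by
      by_contra hcon
      push Not at hcon
      apply hne
      rw [tn_eq_zero (K := (Ka : ℝ)) (u := (n : ℝ)) (by exact_mod_cast hKa)
        (by exact_mod_cast hcon)]
      ring
    have hnm : n * q = m * r := by
      have : (n : ℚ) * q = m * r := by
        rw [hm, hn]
        ring
      exact_mod_cast this
    refine ⟨(n, m), ?_, ?_, ?_⟩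
    · simp only [Finset.mem_filter, Finset.mem_product, Finset.mem_Ico]
      exact ⟨⟨⟨hn0, hnK⟩, ⟨hm0, hmK⟩⟩, hnm⟩
    · -- the term is nonzero
      have hv := hne
      intro h0
      apply hv
      have : (tn Kb (m : ℝ)) * tn Ka (n : ℝ) *
          Real.cos (2 * π * (((n : ℝ) - m) * γ)) =
          tn Ka (n : ℝ) * tn Kb (m : ℝ) * Real.cos (2 * π * ((n : ℝ) - m) * γ) := by
        rw [show 2 * π * (((n : ℝ) - m) * γ) = 2 * π * ((n : ℝ) - m) * γ by ring]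
        ring
      rw [this]
      exact h0
    · show (m : ℚ) / q = ρ
      rw [hm]
      field_simp
  · intro p h1 _
    simp only [Finset.mem_filter, Finset.mem_product, Finset.mem_Ico] at h1
    obtain ⟨k1, k2⟩ := key p h1.2
    have hq' : (((p.2 : ℚ) / q : ℚ)).den ∣ q :=
      den_dvd_of_mul_eq _ q p.2 (by field_simp)
    have hr' : (((p.2 : ℚ) / q : ℚ)).den ∣ r := by
      apply den_dvd_of_mul_eq _ r p.1
      have e1 : (p.1 : ℚ) * q = p.2 * r := by exact_mod_cast h1.2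
      field_simp
      linarith
    show _ = (vec γ Kb ((p.2 : ℚ) / q) q * conj (vec γ Ka ((p.2 : ℚ) / q) r)).re
    rw [vec_mul_conj_re γ Kb Ka _ q r hq' hr', k1, k2]
    rw [show 2 * π * (((p.1 : ℝ) - p.2) * γ) = 2 * π * ((p.1 : ℝ) - p.2) * γ by ring]
    ring

/-- Paper proof. Let `Λ` be the set of `ρ = m / q` with `q ∈ Sa`, `1 ≤ m < Kb`, `ρ < y`.
For fixed `q, r`, the map `(n, m) ↦ ρ = m / q = n / r` is a bijection from solutions of `n q = m r`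
onto those `ρ > 0` with `ρ.den ∣ q`, `ρ.den ∣ r`, `ρ q < Kb`, `ρ r < Ka`; the inverse is
`ρ ↦ (ρ r, ρ q)`. For other `ρ ∈ Λ` with `ρ.den ∣ q, r` one of the tents vanishes.
If `ρ ≥ y` then one of `tn Kb (ρ q)`, `tn Ka (ρ r)` vanishes by the size of `q`, `r`.
Finally `(vec γ Kb ρ q * conj (vec γ Ka ρ r)).re = tn Kb (ρ q) * tn Ka (ρ r) * cos (2π (ρ q - ρ r) γ)`. -/
theorem regroup (γ : ℝ) (Ka Kb Qa Qb : ℕ) (hKa : 0 < Ka) (hKb : 0 < Kb) (hQa : 0 < Qa)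
    (hQb : 0 < Qb) (Sa Sb : Finset ℕ) (hSa : ∀ q ∈ Sa, Qa ≤ q) (hSb : ∀ r ∈ Sb, Qb ≤ r) :
    ∃ Λ : Finset ℚ, (∀ ρ ∈ Λ, 0 < ρ ∧ (ρ : ℝ) < min ((Kb : ℝ) / Qa) ((Ka : ℝ) / Qb)) ∧
      ∑ q ∈ Sa, ∑ r ∈ Sb, offd γ Ka Kb q r =
        ∑ ρ ∈ Λ, (coef γ Kb Sa ρ * conj (coef γ Ka Sb ρ)).re := by
  classical
  set y : ℝ := min ((Kb : ℝ) / Qa) ((Ka : ℝ) / Qb) with hy
  set Λ : Finset ℚ := ((Sa ×ˢ Ico 1 Kb).image (fun x : ℕ × ℕ => (x.2 : ℚ) / x.1)).filter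
    (fun ρ => (ρ : ℝ) < y) with hΛdef
  have hpos : ∀ ρ ∈ Λ, 0 < ρ := by
    intro ρ hρ
    obtain ⟨x, hx, rfl⟩ := Finset.mem_image.mp (Finset.mem_filter.mp hρ).1
    obtain ⟨h1, h2⟩ := Finset.mem_product.mp hx
    have h3 : 0 < x.1 := lt_of_lt_of_le hQa (hSa _ h1)
    have h4 : 1 ≤ x.2 := (Finset.mem_Ico.mp h2).1
    have h5 : (0 : ℚ) < x.1 := by exact_mod_cast h3
    have h6 : (0 : ℚ) < x.2 := by exact_mod_cast h4
    exact div_pos h6 h5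
  refine ⟨Λ, fun ρ hρ => ⟨hpos ρ hρ, (Finset.mem_filter.mp hρ).2⟩, ?_⟩
  have hpair : ∀ q ∈ Sa, ∀ r ∈ Sb, offd γ Ka Kb q r =
      ∑ ρ ∈ Λ, (vec γ Kb ρ q * conj (vec γ Ka ρ r)).re := by
    intro q hq r hr
    have hq0 : 0 < q := lt_of_lt_of_le hQa (hSa q hq)
    have hr0 : 0 < r := lt_of_lt_of_le hQb (hSb r hr)
    refine offd_eq_sum γ Ka Kb hKa hKb q r hq0 hr0 Λ hpos ?_
    intro n m hn1 hnK hm1 hmK hnm
    refine Finset.mem_filter.mpr ⟨Finset.mem_image.mpr ⟨(q, m), Finset.mem_product.mpr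
      ⟨hq, Finset.mem_Ico.mpr ⟨hm1, hmK⟩⟩, rfl⟩, ?_⟩
    have hqR : (0 : ℝ) < q := by exact_mod_cast hq0
    have hrR : (0 : ℝ) < r := by exact_mod_cast hr0
    have hQaR : (0 : ℝ) < Qa := by exact_mod_cast hQa
    have hQbR : (0 : ℝ) < Qb := by exact_mod_cast hQb
    have hQq : (Qa : ℝ) ≤ q := by exact_mod_cast hSa q hq
    have hQr : (Qb : ℝ) ≤ r := by exact_mod_cast hSb r hr
    have e1 : ((n : ℝ)) * q = m * r := by exact_mod_cast hnm
    have e2 : (((m : ℚ) / q : ℚ) : ℝ) = (m : ℝ) / q := by push_cast; ring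
    have e3 : (m : ℝ) / q = (n : ℝ) / r := by
      rw [div_eq_div_iff hqR.ne' hrR.ne']
      linarith
    rw [e2]
    apply lt_min
    · have hmR : (m : ℝ) < Kb := by exact_mod_cast hmK
      calc (m : ℝ) / q ≤ (m : ℝ) / Qa := div_le_div_of_nonneg_left (Nat.cast_nonneg _) hQaR hQq
        _ < (Kb : ℝ) / Qa := div_lt_div_of_pos_right hmR hQaR
    · rw [e3]
      have hnR : (n : ℝ) < Ka := by exact_mod_cast hnK
      calc (n : ℝ) / r ≤ (n : ℝ) / Qb := div_le_div_of_nonneg_left (Nat.cast_nonneg _) hQbR hQr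
        _ < (Ka : ℝ) / Qb := div_lt_div_of_pos_right hnR hQbR
  have hL : ∑ q ∈ Sa, ∑ r ∈ Sb, offd γ Ka Kb q r =
      ∑ q ∈ Sa, ∑ r ∈ Sb, ∑ ρ ∈ Λ, (vec γ Kb ρ q * conj (vec γ Ka ρ r)).re :=
    Finset.sum_congr rfl fun q hq => Finset.sum_congr rfl fun r hr => hpair q hq r hr
  rw [hL]
  have hR : ∀ ρ : ℚ, (coef γ Kb Sa ρ * conj (coef γ Ka Sb ρ)).re =
      ∑ q ∈ Sa, ∑ r ∈ Sb, (vec γ Kb ρ q * conj (vec γ Ka ρ r)).re := by
    intro ρ
    unfold coef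
    rw [map_sum, Finset.sum_mul_sum, Complex.re_sum]
    refine Finset.sum_congr rfl fun q _ => ?_
    rw [Complex.re_sum]
  simp_rw [hR]
  rw [Finset.sum_comm (s := Λ) (t := Sa)]
  refine Finset.sum_congr rfl fun q _ => ?_
  rw [Finset.sum_comm (s := Λ) (t := Sb)]

end Vale.Agent.Lib.P028G
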