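import Vale.Agent.Lib.P028G.Fam
import Vale.Agent.Lib.P028G.Fejer
import Vale.Agent.Lib.P028G.Regroup

/-! The integral of a product of two Fejer sums. -/

open scoped BigOperators ComplexConjugate Real
open Finset

namespace Vale.Agent.Lib.P028G

/-- Expansion, from `fej_pair`. -/
theorem int_pair (γ : ℝ) (Ka Kb : ℕ) (Sa Sb : Finset ℕ) (hSa : ∀ q ∈ Sa, 0 < q)
    (hSb : ∀ r ∈ Sb, 0 < r) :
    ∫ x in (0 : ℝ)..1, (∑ q ∈ Sa, fej Ka ((q : ℝ) * x - γ)) * (∑ r ∈ Sb, fej Kb ((r : ℝ) * x - γ)) =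
      (Sa.card : ℝ) * Sb.card + 2 * ∑ q ∈ Sa, ∑ r ∈ Sb, offd γ Ka Kb q r := by
  have hcont : ∀ (K q : ℕ), Continuous (fun x : ℝ => fej K ((q : ℝ) * x - γ)) := by
    intro K q
    unfold fej
    fun_prop
  have hint : ∀ q r : ℕ, IntervalIntegrable
      (fun x : ℝ => fej Ka ((q : ℝ) * x - γ) * fej Kb ((r : ℝ) * x - γ)) MeasureTheory.volume 0 1 :=
    fun q r => ((hcont Ka q).mul (hcont Kb r)).intervalIntegrable _ _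
  have hexp : ∀ x : ℝ, (∑ q ∈ Sa, fej Ka ((q : ℝ) * x - γ)) * (∑ r ∈ Sb, fej Kb ((r : ℝ) * x - γ)) =
      ∑ q ∈ Sa, ∑ r ∈ Sb, fej Ka ((q : ℝ) * x - γ) * fej Kb ((r : ℝ) * x - γ) := by
    intro x
    rw [Finset.sum_mul_sum]
  simp_rw [hexp]
  have hint2 : ∀ q : ℕ, IntervalIntegrable
      (fun x : ℝ => ∑ r ∈ Sb, fej Ka ((q : ℝ) * x - γ) * fej Kb ((r : ℝ) * x - γ))
      MeasureTheory.volume 0 1 := fun q =>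
    (continuous_finsetSum _ fun r _ => (hcont Ka q).mul (hcont Kb r)).intervalIntegrable _ _
  rw [intervalIntegral.integral_finsetSum (f := fun (q : ℕ) (x : ℝ) => ∑ r ∈ Sb,
    fej Ka ((q : ℝ) * x - γ) * fej Kb ((r : ℝ) * x - γ)) (fun q _ => hint2 q)]
  have hin : ∀ q ∈ Sa, ∫ x in (0 : ℝ)..1, ∑ r ∈ Sb,
        fej Ka ((q : ℝ) * x - γ) * fej Kb ((r : ℝ) * x - γ) =
      ∑ r ∈ Sb, (1 + 2 * offd γ Ka Kb q r) := by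
    intro q hq
    rw [intervalIntegral.integral_finsetSum (f := fun (r : ℕ) (x : ℝ) =>
      fej Ka ((q : ℝ) * x - γ) * fej Kb ((r : ℝ) * x - γ)) (fun r _ => hint q r)]
    refine Finset.sum_congr rfl fun r hr => ?_
    rw [fej_pair Ka Kb q r (hSa q hq) (hSb r hr) γ]
    rfl
  rw [Finset.sum_congr rfl hin]
  simp only [Finset.sum_add_distrib, Finset.sum_const, ← Finset.mul_sum, nsmul_eq_mul, mul_one]

/-- `int_pair`, `regroup`, Cauchy-Schwarz for `∑ Re (A conj A') ≤ √(∑‖A‖²) √(∑‖A'‖²)` and `ls_main`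
on each side: `K = Kb, Q = Qa` and `K = Ka, Q = Qb`, with `y = min (Kb/Qa) (Ka/Qb)`. -/
theorem pair_bound (γ κ B τa τb : ℝ) (hκ : 0 < κ) (hκ1 : κ ≤ 1) (hbad : Bad γ κ) (hB : 0 ≤ B)
    (hτa : 0 ≤ τa) (hτb : 0 ≤ τb) (Ka Kb Qa Qb Za Zb : ℕ) (hKa : 0 < Ka) (hKb : 0 < Kb)
    (hQa : 0 < Qa) (hQb : 0 < Qb) (hZa1 : 1 ≤ Za) (hZb1 : 1 ≤ Zb) (hZa : Za ^ 3 ≤ Qa)
    (hZb : Zb ^ 3 ≤ Qb) (Sa Sb : Finset ℕ)
    (hSa : ∀ q ∈ Sa, Qa ≤ q ∧ q < 2 * Qa) (hSb : ∀ r ∈ Sb, Qb ≤ r ∧ r < 2 * Qb)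
    (hσa : ∀ q ∈ Sa, (∑ d ∈ q.divisors, (d : ℝ)) ≤ B * q)
    (hσb : ∀ r ∈ Sb, (∑ d ∈ r.divisors, (d : ℝ)) ≤ B * r)
    (hτa' : ∀ q ∈ Sa, (q.divisors.card : ℝ) ≤ τa) (hτb' : ∀ r ∈ Sb, (r.divisors.card : ℝ) ≤ τb)
    (y Ra Rb : ℝ) (hy : y = min ((Kb : ℝ) / Qa) ((Ka : ℝ) / Qb))
    (hRa : Ra = 1000 * y * Qa * (1 + B) / κ + 3 * τa * Qa * min y (1 / (Za : ℝ)))
    (hRb : Rb = 1000 * y * Qb * (1 + B) / κ + 3 * τb * Qb * min y (1 / (Zb : ℝ))) :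
    ∫ x in (0 : ℝ)..1, (∑ q ∈ Sa, fej Ka ((q : ℝ) * x - γ)) * (∑ r ∈ Sb, fej Kb ((r : ℝ) * x - γ)) ≤
      (Sa.card : ℝ) * Sb.card + 2 * (Real.sqrt ((Sa.card : ℝ) * Ra) * Real.sqrt ((Sb.card : ℝ) * Rb)) := by
  have hKa' : (0 : ℝ) < Ka := by exact_mod_cast hKa
  have hKb' : (0 : ℝ) < Kb := by exact_mod_cast hKb
  have hQa' : (0 : ℝ) < Qa := by exact_mod_cast hQa
  have hQb' : (0 : ℝ) < Qb := by exact_mod_cast hQb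
  have hy0 : 0 < y := by
    rw [hy]
    exact lt_min (div_pos hKb' hQa') (div_pos hKa' hQb')
  have hy1 : y ≤ (Kb : ℝ) / Qa := by
    rw [hy]
    exact min_le_left _ _
  have hy2 : y ≤ (Ka : ℝ) / Qb := by
    rw [hy]
    exact min_le_right _ _
  obtain ⟨Λ, hΛ, hreg⟩ := regroup γ Ka Kb Qa Qb hKa hKb hQa hQb Sa Sb
    (fun q hq => (hSa q hq).1) (fun r hr => (hSb r hr).1)
  rw [int_pair γ Ka Kb Sa Sb (fun q hq => lt_of_lt_of_le hQa (hSa q hq).1)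
    (fun r hr => lt_of_lt_of_le hQb (hSb r hr).1), hreg]
  have hΛ' : ∀ ρ ∈ Λ, 0 < ρ ∧ (ρ : ℝ) < y := by
    intro ρ hρ
    rw [hy]
    exact hΛ ρ hρ
  have hlsa := ls_main γ κ (Kb : ℝ) y B τa Qa Za hQa hZa1 hκ hκ1 hbad hKb' hy0 hy1 hB hτa hZa Sa hSa
    hσa hτa' Λ hΛ'
  have hlsb := ls_main γ κ (Ka : ℝ) y B τb Qb Zb hQb hZb1 hκ hκ1 hbad hKa' hy0 hy2 hB hτb hZb Sb hSb
    hσb hτb' Λ hΛ'
  rw [← hRa] at hlsa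
  rw [← hRb] at hlsb
  have hcs : ∑ ρ ∈ Λ, (coef γ Kb Sa ρ * conj (coef γ Ka Sb ρ)).re ≤
      Real.sqrt ((Sa.card : ℝ) * Ra) * Real.sqrt ((Sb.card : ℝ) * Rb) := by
    calc ∑ ρ ∈ Λ, (coef γ Kb Sa ρ * conj (coef γ Ka Sb ρ)).re
        ≤ ∑ ρ ∈ Λ, ‖coef γ Kb Sa ρ‖ * ‖coef γ Ka Sb ρ‖ := by
          refine Finset.sum_le_sum fun ρ _ => ?_
          calc (coef γ Kb Sa ρ * conj (coef γ Ka Sb ρ)).re
              ≤ ‖coef γ Kb Sa ρ * conj (coef γ Ka Sb ρ)‖ := Complex.re_le_norm _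
            _ = ‖coef γ Kb Sa ρ‖ * ‖coef γ Ka Sb ρ‖ := by
                rw [norm_mul, Complex.norm_conj]
      _ ≤ Real.sqrt (∑ ρ ∈ Λ, ‖coef γ Kb Sa ρ‖ ^ 2) * Real.sqrt (∑ ρ ∈ Λ, ‖coef γ Ka Sb ρ‖ ^ 2) :=
          Real.sum_mul_le_sqrt_mul_sqrt _ _ _
      _ ≤ _ := mul_le_mul (Real.sqrt_le_sqrt hlsa) (Real.sqrt_le_sqrt hlsb) (Real.sqrt_nonneg _)
          (Real.sqrt_nonneg _)
  linarith

/-- The constant of the large sieve bound. -/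
noncomputable def C7 (κ B C9 : ℝ) : ℝ := 1000 * (1 + B) / κ + 3 * Real.sqrt C9

/-- The bound for `R / K`, both sides. -/
theorem R_div_le (κ B C9 τ K Q Z y : ℝ) (hκ : 0 < κ) (hB : 0 ≤ B) (hC9 : 0 ≤ C9) (hτ : 0 ≤ τ)
    (hK : 0 < K) (hQ : 0 < Q) (hZ : 0 < Z) (hy : 0 < y) (hA : y * Q / K ≤ 1)
    (hs : τ ^ 2 * Q ≤ C9 * Z * K) :
    (1000 * y * Q * (1 + B) / κ + 3 * τ * Q * min y (1 / Z)) / K ≤
      C7 κ B C9 * Real.sqrt (y * Q / K) := by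
  unfold C7
  obtain ⟨A, hAdef⟩ : ∃ A, A = y * Q / K := ⟨_, rfl⟩
  rw [← hAdef] at hA ⊢
  have hA0 : 0 < A := by rw [hAdef]; positivity
  have hAs : A ≤ Real.sqrt A := by
    apply Real.le_sqrt_of_sq_le
    nlinarith
  obtain ⟨m, hm⟩ : ∃ m, m = min y (1 / Z) := ⟨_, rfl⟩
  rw [← hm]
  have hm1 : m ≤ y := by rw [hm]; exact min_le_left _ _
  have hm2 : m ≤ 1 / Z := by rw [hm]; exact min_le_right _ _
  have hm0 : 0 < m := by rw [hm]; exact lt_min hy (by positivity)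
  have e : (1000 * y * Q * (1 + B) / κ + 3 * τ * Q * m) / K =
      (1000 * (1 + B) / κ) * A + 3 * (τ * (Q / K) * m) := by
    rw [hAdef]; field_simp
  rw [e]
  have h1 : 0 ≤ 1000 * (1 + B) / κ := by positivity
  have h2 : τ * (Q / K) * m ≤ Real.sqrt C9 * Real.sqrt A := by
    rw [← Real.sqrt_mul hC9]
    apply Real.le_sqrt_of_sq_le
    have h3 : m ^ 2 ≤ y * (1 / Z) := by
      rw [sq]; exact mul_le_mul hm1 hm2 hm0.le hy.le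
    calc (τ * (Q / K) * m) ^ 2 = τ ^ 2 * (Q / K) ^ 2 * m ^ 2 := by ring
      _ ≤ τ ^ 2 * (Q / K) ^ 2 * (y * (1 / Z)) := by gcongr
      _ = (τ ^ 2 * Q / (Z * K)) * A := by rw [hAdef]; field_simp
      _ ≤ C9 * A := by
        apply mul_le_mul_of_nonneg_right _ hA0.le
        rw [div_le_iff₀ (by positivity)]
        nlinarith
  have h3 := mul_le_mul_of_nonneg_left hAs h1
  nlinarith

/-- The product of the two square roots, normalised. -/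
theorem sqrt_pair_le (Sa Sb Ra Rb Ka Kb C A A' P : ℝ) (hSa : 0 ≤ Sa) (hSb : 0 ≤ Sb)
    (hKa : 0 < Ka) (hKb : 0 < Kb) (hC : 0 ≤ C) (hA : 0 ≤ A) (hA' : 0 ≤ A')
    (hRa : Ra / Ka ≤ C * Real.sqrt A) (hRb : Rb / Kb ≤ C * Real.sqrt A') (hAP : A * A' ≤ P) :
    (1 / (Ka * Kb)) * (Real.sqrt (Sa * Ra) * Real.sqrt (Sb * Rb)) ≤
      C * Real.sqrt ((Sa / Ka) * (Sb / Kb)) * Real.sqrt (Real.sqrt P) := by
  have hMa : 0 ≤ Sa / Ka := by positivity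
  have hMb : 0 ≤ Sb / Kb := by positivity
  have e1 : Real.sqrt (Sa * Ra) = Ka * Real.sqrt ((Sa / Ka) * (Ra / Ka)) := by
    have : Sa * Ra = Ka ^ 2 * ((Sa / Ka) * (Ra / Ka)) := by field_simp
    rw [this, Real.sqrt_mul (by positivity), Real.sqrt_sq hKa.le]
  have e2 : Real.sqrt (Sb * Rb) = Kb * Real.sqrt ((Sb / Kb) * (Rb / Kb)) := by
    have : Sb * Rb = Kb ^ 2 * ((Sb / Kb) * (Rb / Kb)) := by field_simp
    rw [this, Real.sqrt_mul (by positivity), Real.sqrt_sq hKb.le]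
  have e3 : (1 / (Ka * Kb)) * (Real.sqrt (Sa * Ra) * Real.sqrt (Sb * Rb)) =
      Real.sqrt ((Sa / Ka) * (Ra / Ka)) * Real.sqrt ((Sb / Kb) * (Rb / Kb)) := by
    rw [e1, e2]; field_simp
  rw [e3]
  have h1 : Real.sqrt ((Sa / Ka) * (Ra / Ka)) ≤ Real.sqrt ((Sa / Ka) * (C * Real.sqrt A)) :=
    Real.sqrt_le_sqrt (mul_le_mul_of_nonneg_left hRa hMa)
  have h2 : Real.sqrt ((Sb / Kb) * (Rb / Kb)) ≤ Real.sqrt ((Sb / Kb) * (C * Real.sqrt A')) :=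
    Real.sqrt_le_sqrt (mul_le_mul_of_nonneg_left hRb hMb)
  have h3 := mul_le_mul h1 h2 (Real.sqrt_nonneg _) (Real.sqrt_nonneg _)
  refine h3.trans ?_
  have hsA : 0 ≤ Real.sqrt A := Real.sqrt_nonneg _
  have hsA' : 0 ≤ Real.sqrt A' := Real.sqrt_nonneg _
  rw [← Real.sqrt_mul (by positivity)]
  have hP0 : 0 ≤ P := le_trans (by positivity) hAP
  have e4 : C * Real.sqrt ((Sa / Ka) * (Sb / Kb)) * Real.sqrt (Real.sqrt P) =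
      Real.sqrt (C ^ 2 * ((Sa / Ka) * (Sb / Kb)) * Real.sqrt P) := by
    have h7 : 0 ≤ C ^ 2 * ((Sa / Ka) * (Sb / Kb)) := by positivity
    rw [Real.sqrt_mul h7 (Real.sqrt P), Real.sqrt_mul (sq_nonneg C) ((Sa / Ka) * (Sb / Kb)),
      Real.sqrt_sq hC]
  rw [e4]
  apply Real.sqrt_le_sqrt
  have h5 : Real.sqrt A * Real.sqrt A' ≤ Real.sqrt P := by
    rw [← Real.sqrt_mul hA]
    exact Real.sqrt_le_sqrt hAP
  have h6 : 0 ≤ C ^ 2 * ((Sa / Ka) * (Sb / Kb)) := by positivity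
  calc (Sa / Ka) * (C * Real.sqrt A) * ((Sb / Kb) * (C * Real.sqrt A'))
      = C ^ 2 * ((Sa / Ka) * (Sb / Kb)) * (Real.sqrt A * Real.sqrt A') := by ring
    _ ≤ C ^ 2 * ((Sa / Ka) * (Sb / Kb)) * Real.sqrt P := mul_le_mul_of_nonneg_left h5 h6

/-- Normalised form. With `A = y Qa / Ka ≤ Qa / Qb ≤ 1`, `A' = y Qb / Kb ≤ Ka / Kb ≤ 1`,
`Ra / Ka ≤ C7 √A`: the first term of `Ra / Ka` is `1000 (1+B)/κ * A ≤ ... √A`, the second is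
`3 τa min(A, Qa/(Za Ka))`, and `min(A, η) ≤ √(A η)`, `τa √η ≤ √C9` since `τa² Qa ≤ C9 Za Ka`.
Same for `b`. Then `√(|Sa| Ra) √(|Sb| Rb) / (Ka Kb) = √(Ma Ra/Ka) √(Mb Rb/Kb)`. -/
theorem pair_norm (γ κ B C9 τa τb : ℝ) (hκ : 0 < κ) (hκ1 : κ ≤ 1) (hbad : Bad γ κ) (hB : 0 ≤ B)
    (hC9 : 0 ≤ C9) (hτa : 1 ≤ τa) (hτb : 1 ≤ τb) (Ka Kb Qa Qb Za Zb : ℕ) (hKa : 0 < Ka) (hKb : 0 < Kb)
    (hQa : 0 < Qa) (hQb : 0 < Qb) (hZa1 : 1 ≤ Za) (hZb1 : 1 ≤ Zb) (hZa : Za ^ 3 ≤ Qa)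
    (hZb : Zb ^ 3 ≤ Qb) (Sa Sb : Finset ℕ)
    (hSa : ∀ q ∈ Sa, Qa ≤ q ∧ q < 2 * Qa) (hSb : ∀ r ∈ Sb, Qb ≤ r ∧ r < 2 * Qb)
    (hσa : ∀ q ∈ Sa, (∑ d ∈ q.divisors, (d : ℝ)) ≤ B * q)
    (hσb : ∀ r ∈ Sb, (∑ d ∈ r.divisors, (d : ℝ)) ≤ B * r)
    (hτa' : ∀ q ∈ Sa, (q.divisors.card : ℝ) ≤ τa) (hτb' : ∀ r ∈ Sb, (r.divisors.card : ℝ) ≤ τb)
    (hsa : τa ^ 2 * Qa ≤ C9 * Za * Ka) (hsb : τb ^ 2 * Qb ≤ C9 * Zb * Kb)
    (hQ : Qa ≤ Qb) (hK : Ka ≤ Kb) :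
    (1 / ((Ka : ℝ) * Kb)) * ∫ x in (0 : ℝ)..1,
        (∑ q ∈ Sa, fej Ka ((q : ℝ) * x - γ)) * (∑ r ∈ Sb, fej Kb ((r : ℝ) * x - γ)) ≤
      ((Sa.card : ℝ) / Ka) * ((Sb.card : ℝ) / Kb) +
        2 * C7 κ B C9 * Real.sqrt (((Sa.card : ℝ) / Ka) * ((Sb.card : ℝ) / Kb)) *
          Real.sqrt (Real.sqrt (((Qa : ℝ) / Qb) * ((Ka : ℝ) / Kb))) := by
  have hKa' : (0 : ℝ) < Ka := by exact_mod_cast hKa
  have hKb' : (0 : ℝ) < Kb := by exact_mod_cast hKb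
  have hQa' : (0 : ℝ) < Qa := by exact_mod_cast hQa
  have hQb' : (0 : ℝ) < Qb := by exact_mod_cast hQb
  have hZa' : (0 : ℝ) < Za := by exact_mod_cast hZa1
  have hZb' : (0 : ℝ) < Zb := by exact_mod_cast hZb1
  have hQ' : (Qa : ℝ) ≤ Qb := by exact_mod_cast hQ
  have hK' : (Ka : ℝ) ≤ Kb := by exact_mod_cast hK
  obtain ⟨y, hy⟩ : ∃ y, y = min ((Kb : ℝ) / Qa) ((Ka : ℝ) / Qb) := ⟨_, rfl⟩
  have hy0 : 0 < y := by rw [hy]; exact lt_min (by positivity) (by positivity)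
  have hy1 : y ≤ (Ka : ℝ) / Qb := by rw [hy]; exact min_le_right _ _
  have hy1' : y * Qb ≤ Ka := by
    have := mul_le_mul_of_nonneg_right hy1 hQb'.le
    rwa [div_mul_cancel₀ _ hQb'.ne'] at this
  have hAa : y * Qa / Ka ≤ 1 := by
    rw [div_le_one hKa']
    have : y * Qa ≤ y * Qb := mul_le_mul_of_nonneg_left hQ' hy0.le
    linarith
  have hAb : y * Qb / Kb ≤ 1 := by
    rw [div_le_one hKb']
    linarith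
  obtain ⟨Ra, hRa⟩ : ∃ Ra, Ra = 1000 * y * Qa * (1 + B) / κ + 3 * τa * Qa * min y (1 / (Za : ℝ)) :=
    ⟨_, rfl⟩
  obtain ⟨Rb, hRb⟩ : ∃ Rb, Rb = 1000 * y * Qb * (1 + B) / κ + 3 * τb * Qb * min y (1 / (Zb : ℝ)) :=
    ⟨_, rfl⟩
  have hb := pair_bound γ κ B τa τb hκ hκ1 hbad hB (by linarith) (by linarith) Ka Kb Qa Qb Za Zb
    hKa hKb hQa hQb hZa1 hZb1 hZa hZb Sa Sb hSa hSb hσa hσb hτa' hτb' y Ra Rb hy hRa hRb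
  have hRa1 : Ra / Ka ≤ C7 κ B C9 * Real.sqrt (y * Qa / Ka) := by
    rw [hRa]
    exact R_div_le κ B C9 τa Ka Qa Za y hκ hB hC9 (by linarith) hKa' hQa' hZa' hy0 hAa hsa
  have hRb1 : Rb / Kb ≤ C7 κ B C9 * Real.sqrt (y * Qb / Kb) := by
    rw [hRb]
    exact R_div_le κ B C9 τb Kb Qb Zb y hκ hB hC9 (by linarith) hKb' hQb' hZb' hy0 hAb hsb
  have hC7 : 0 ≤ C7 κ B C9 := by
    unfold C7
    have : 0 ≤ Real.sqrt C9 := Real.sqrt_nonneg _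
    positivity
  have hAP : (y * Qa / Ka) * (y * Qb / Kb) ≤ ((Qa : ℝ) / Qb) * ((Ka : ℝ) / Kb) := by
    have e1 : (y * Qa / Ka) * (y * Qb / Kb) = ((y * Qb) ^ 2 / Ka) * ((Qa : ℝ) / Qb) * (1 / Kb) := by
      field_simp
    have e2 : ((Qa : ℝ) / Qb) * ((Ka : ℝ) / Kb) = ((Ka : ℝ) ^ 2 / Ka) * ((Qa : ℝ) / Qb) * (1 / Kb) := by
      field_simp
    rw [e1, e2]
    have h0 : 0 ≤ y * Qb := by positivity
    have h1 : (y * Qb) ^ 2 ≤ (Ka : ℝ) ^ 2 := by gcongr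
    gcongr
  have hmain := sqrt_pair_le (Sa.card : ℝ) (Sb.card : ℝ) Ra Rb Ka Kb (C7 κ B C9) _ _ _
    (Nat.cast_nonneg _) (Nat.cast_nonneg _) hKa' hKb' hC7 (by positivity) (by positivity)
    hRa1 hRb1 hAP
  have hpos : 0 ≤ 1 / ((Ka : ℝ) * Kb) := by positivity
  have h1 := mul_le_mul_of_nonneg_left hb hpos
  have e : 1 / ((Ka : ℝ) * Kb) * ((Sa.card : ℝ) * Sb.card +
      2 * (Real.sqrt ((Sa.card : ℝ) * Ra) * Real.sqrt ((Sb.card : ℝ) * Rb))) =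
      ((Sa.card : ℝ) / Ka) * ((Sb.card : ℝ) / Kb) +
        2 * ((1 / ((Ka : ℝ) * Kb)) *
          (Real.sqrt ((Sa.card : ℝ) * Ra) * Real.sqrt ((Sb.card : ℝ) * Rb))) := by
    field_simp
  rw [e] at h1
  refine h1.trans ?_
  nlinarith [hmain]

end Vale.Agent.Lib.P028G
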