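import Vale.Agent.Lib.P028G.Defs

/-! Second order summation by parts. -/

open scoped BigOperators ComplexConjugate Real
open Finset

namespace Vale.Agent.Lib.P028G

/-- Summation by parts twice. -/
theorem sum_second_diff (a : ℕ → ℝ) (z : ℂ) (X : ℕ) (h0 : a 0 = 0) (hX : ∀ t, X ≤ t → a t = 0) :
    (1 - z) ^ 2 * ∑ t ∈ range X, ((a t : ℝ) : ℂ) * z ^ t =
      ∑ t ∈ range X, ((a (t + 2) - 2 * a (t + 1) + a t : ℝ) : ℂ) * z ^ (t + 2) + ((a 1 : ℝ) : ℂ) * z := by
  set f : ℕ → ℂ := fun t => ((a t : ℝ) : ℂ) * z ^ t with hf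
  have hfX : ∀ t, X ≤ t → f t = 0 := fun t ht => by simp [hf, hX t ht]
  have hf0 : f 0 = 0 := by simp [hf, h0]
  have h1 : ∑ t ∈ range X, f (t + 1) = ∑ t ∈ range X, f t := by
    have e1 := Finset.sum_range_succ' f X
    rw [Finset.sum_range_succ, hfX X le_rfl, hf0] at e1
    simpa using e1.symm
  have h2 : ∑ t ∈ range X, f (t + 2) = ∑ t ∈ range X, f t - f 1 := by
    have e2 := Finset.sum_range_succ' (fun t => f (t + 1)) X
    rw [Finset.sum_range_succ, hfX (X + 1) (by omega), h1] at e2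
    have e3 : ∑ t ∈ range X, f t = ∑ t ∈ range X, f (t + 2) + f 1 := by
      simpa using e2
    rw [e3]; ring
  have key : ∀ t, ((a (t + 2) - 2 * a (t + 1) + a t : ℝ) : ℂ) * z ^ (t + 2) =
      f (t + 2) - 2 * z * f (t + 1) + z ^ 2 * f t := by
    intro t
    simp only [hf]
    push_cast
    ring
  rw [Finset.sum_congr rfl (fun t _ => key t), Finset.sum_add_distrib, Finset.sum_sub_distrib,
    ← Finset.mul_sum, ← Finset.mul_sum, h1, h2]
  have h3 : f 1 = ((a 1 : ℝ) : ℂ) * z := by simp [hf]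
  rw [h3]
  ring

theorem ee_intCast (n : ℤ) : ee (n : ℝ) = 1 := by
  unfold ee
  have : (2 * (π : ℂ) * ((n : ℝ) : ℂ) * Complex.I) = (n : ℂ) * (2 * π * Complex.I) := by
    push_cast; ring
  rw [this]
  exact Complex.exp_int_mul_two_pi_mul_I n

theorem norm_one_sub_ee_eq (x : ℝ) : ‖1 - ee x‖ = 2 * |Real.sin (π * x)| := by
  have h := Complex.norm_exp_I_mul_ofReal_sub_one (2 * π * x)
  have e : ee x = Complex.exp (Complex.I * ((2 * π * x : ℝ) : ℂ)) := by
    unfold ee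
    congr 1
    push_cast
    ring
  rw [e, norm_sub_rev, h, norm_mul, Real.norm_eq_abs, Real.norm_eq_abs]
  have e2 : 2 * π * x / 2 = π * x := by ring
  rw [e2]
  norm_num

/-- Lower bound for `|1 - e(θ)|`. -/
theorem norm_one_sub_ee (θ : ℝ) : 4 * nrm θ ≤ ‖1 - ee θ‖ := by
  set x := θ - round θ with hx
  have hee : ee θ = ee x := by
    have : θ = x + (round θ : ℤ) := by rw [hx]; ring
    conv_lhs => rw [this, ee_add, ee_intCast, mul_one]
  have hnrm : nrm θ = |x| := rfl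
  have hhalf : |x| ≤ 1 / 2 := abs_sub_round θ
  rw [hee, norm_one_sub_ee_eq, hnrm]
  have hy0 : 0 ≤ π * |x| := by positivity
  have hy1 : π * |x| ≤ π / 2 := by nlinarith [Real.pi_pos]
  have hs := Real.mul_le_sin hy0 hy1
  have e1 : 2 / π * (π * |x|) = 2 * |x| := by
    field_simp
  rw [e1] at hs
  have habs : |Real.sin (π * x)| = Real.sin (π * |x|) := by
    rcases le_total 0 x with h | h
    · rw [abs_of_nonneg h]
      apply abs_of_nonneg
      have hs2 := Real.mul_le_sin (x := π * x) (by positivity)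
        (by rw [abs_of_nonneg h] at hy1; exact hy1)
      have : 0 ≤ 2 / π * (π * x) := by positivity
      linarith
    · rw [abs_of_nonpos h]
      have e3 : π * x = -(π * -x) := by ring
      rw [e3, Real.sin_neg, abs_neg]
      apply abs_of_nonneg
      have hx' : 0 ≤ -x := by linarith
      have hs2 := Real.mul_le_sin (x := π * -x) (by positivity)
        (by rw [abs_of_nonpos h] at hy1; exact hy1)
      have : 0 ≤ 2 / π * (π * -x) := by positivity
      linarith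
  rw [habs]
  linarith

theorem ee_nat_mul (t : ℕ) (θ : ℝ) : ee ((t : ℝ) * θ) = ee θ ^ t := by
  induction t with
  | zero =>
    have : ee 0 = 1 := by
      have := ee_intCast 0
      simpa using this
    simpa using this
  | succ n ih =>
    have e : ((n + 1 : ℕ) : ℝ) * θ = (n : ℝ) * θ + θ := by push_cast; ring
    rw [e, ee_add, ih, pow_succ]

/-- Exponential sums with a compactly supported amplitude of small second variation. -/
theorem exp_sum_second (a : ℕ → ℝ) (θ : ℝ) (X : ℕ) (h0 : a 0 = 0) (hX : ∀ t, X ≤ t → a t = 0)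
    (V : ℝ) (hV : ∑ t ∈ range X, |a (t + 2) - 2 * a (t + 1) + a t| + |a 1| ≤ V) :
    ‖∑ t ∈ range X, ((a t : ℝ) : ℂ) * ee ((t : ℝ) * θ)‖ * (16 * nrm θ ^ 2) ≤ V := by
  set z := ee θ with hz
  have hznorm : ‖z‖ = 1 := ee_norm θ
  have hS : ∑ t ∈ range X, ((a t : ℝ) : ℂ) * ee ((t : ℝ) * θ) = ∑ t ∈ range X, ((a t : ℝ) : ℂ) * z ^ t :=
    Finset.sum_congr rfl (fun t _ => by rw [ee_nat_mul])
  rw [hS]
  set S := ∑ t ∈ range X, ((a t : ℝ) : ℂ) * z ^ t with hSdef
  have hid := sum_second_diff a z X h0 hX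
  have hnorm : ‖(1 - z) ^ 2 * S‖ ≤ V := by
    rw [hid]
    refine (norm_add_le _ _).trans ?_
    refine le_trans (add_le_add (norm_sum_le _ _) le_rfl) ?_
    have h1 : ∀ t ∈ range X, ‖((a (t + 2) - 2 * a (t + 1) + a t : ℝ) : ℂ) * z ^ (t + 2)‖ =
        |a (t + 2) - 2 * a (t + 1) + a t| := by
      intro t _
      rw [norm_mul, norm_pow, hznorm, one_pow, mul_one, Complex.norm_real, Real.norm_eq_abs]
    rw [Finset.sum_congr rfl h1]
    have h2 : ‖((a 1 : ℝ) : ℂ) * z‖ = |a 1| := by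
      rw [norm_mul, hznorm, mul_one, Complex.norm_real, Real.norm_eq_abs]
    rw [h2]
    exact hV
  rw [norm_mul, norm_pow] at hnorm
  have hlow := norm_one_sub_ee θ
  have hn0 : 0 ≤ nrm θ := abs_nonneg _
  have hsq : 16 * nrm θ ^ 2 ≤ ‖1 - z‖ ^ 2 := by
    have : (4 * nrm θ) ^ 2 ≤ ‖1 - z‖ ^ 2 := by
      apply pow_le_pow_left₀ (by positivity) hlow
    nlinarith
  calc ‖S‖ * (16 * nrm θ ^ 2) ≤ ‖S‖ * ‖1 - z‖ ^ 2 :=
        mul_le_mul_of_nonneg_left hsq (norm_nonneg _)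
    _ = ‖1 - z‖ ^ 2 * ‖S‖ := by ring
    _ ≤ V := hnorm

end Vale.Agent.Lib.P028G
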